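import Crest.Agent.R95.Baire

/-! Row 95: `aStmt_of`. -/

set_option autoImplicit false
set_option linter.unusedSectionVars false

open Finset Filter Topology
open scoped ComplexOrder Classical

namespace Crest.Agent.R95

universe u

variable {M : Type u} [CStarAlgebra M] [PartialOrder M] [StarOrderedRing M] {τ : M →ₚ[ℂ] ℂ}

namespace A
open Baire

theorem part_unit (P : StarSubalgebra ℂ M) : Part τ P (fun _ : Unit => (1 : M)) :=
  ⟨fun _ => one_mem P, fun _ => IsStarProjection.one M, fun _ _ h => absurd rfl h, by simp,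
    fun _ _ => rfl⟩

/-- a unitary close to `1` whose real part is `B` on the corner `p` -/
theorem exists_W (h : TF τ) {p B : M} (hp : IsStarProjection p) (hB : IsSelfAdjoint B)
    (hB1 : ‖B‖ ≤ 1) (hpB : p * B = B) :
    ∃ W ∈ unitary M, p * W * p + star (p * W * p) = (2 : ℂ) • B ∧ n2 τ (W - 1) ≤ 2 * n2 τ p := by
  have hBp : B * p = B := by
    have := congrArg star hpB
    rwa [star_mul, hB.star_eq, hp.isSelfAdjoint.star_eq] at this
  have hB' : IsSelfAdjoint (B + (1 - p)) := hB.add hp.one_sub.isSelfAdjoint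
  have hn : ‖B + (1 - p)‖ ≤ 1 := by
    rw [hB.norm_add_eq_max hp.one_sub.isSelfAdjoint (by rw [mul_sub, mul_one, hBp, sub_self])]
    exact max_le hB1 (IsStarProjection.norm_le _ hp.one_sub)
  set W := B + (1 - p) + Complex.I • CFC.sqrt (1 - (B + (1 - p)) ^ 2) with hW
  have hWu : W ∈ unitary M := hB'.self_add_I_smul_cfcSqrt_sub_sq_mem_unitary _ hn
  have hsum : W + star W = (2 : ℂ) • (B + (1 - p)) := by
    have hs : IsSelfAdjoint (CFC.sqrt (1 - (B + (1 - p)) ^ 2)) :=
      IsSelfAdjoint.of_nonneg (CFC.sqrt_nonneg _)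
    rw [hW, star_add, hB'.star_eq, star_smul, hs.star_eq]
    simp only [RCLike.star_def, Complex.conj_I, neg_smul, two_smul]
    abel
  have hpp : p * p = p := hp.isIdempotentElem.eq
  refine ⟨W, hWu, ?_, ?_⟩
  · rw [star_mul, star_mul, hp.isSelfAdjoint.star_eq, ← mul_assoc, ← add_mul, ← mul_add, hsum,
      mul_smul_comm, smul_mul_assoc, mul_add, hpB, hp.mul_one_sub_self, add_zero, hBp]
  · have e1 : star (W - 1) * (W - 1) = (2 : ℂ) • (p - p * B) := by
      have : star (W - 1) * (W - 1) = star W * W + 1 - (W + star W) := by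
        rw [star_sub, star_one]; noncomm_ring
      rw [this, (Unitary.mem_iff.1 hWu).1, hsum, hpB]
      simp only [two_smul]
      abel
    have e2 : n2 τ B ≤ n2 τ p := by
      have := h.n2_mul_le_right p B
      rw [hpB] at this
      exact this.trans (mul_le_of_le_one_right (n2_nonneg _) hB1)
    have e3 := (abs_le.1 (h.abs_tr_mul_le p B)).1
    have e4 : n2 τ p * n2 τ B ≤ n2 τ p * n2 τ p := mul_le_mul_of_nonneg_left e2 (n2_nonneg _)
    have e5 := n2_sq_proj (τ := τ) hp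
    rw [← sq_le_sq₀ (n2_nonneg _) (mul_nonneg zero_le_two (n2_nonneg _)), n2_sq, e1, two_smul,
      tr_add, tr_sub]
    nlinarith

theorem step (h : TF τ) (hM : MainStmt τ) (hN : NearStmt τ) {P : StarSubalgebra ℂ M}
    (hP : L2Closed τ P) (hI : Irr P ⊤) (hF : ¬ FiniteDimensional ℂ P) {u : M} (hu : u ∈ unitary M)
    (x : M) {ε ε' : ℝ} (hε : 0 < ε) (hε' : 0 < ε') :
    ∃ v ∈ unitary M, n2 τ (v - u) < ε ∧
      ∃ a ∈ StarAlgebra.adjoin ℂ (insert v (P : Set M)), n2 τ (x - a) < ε' := by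
  have hx : 0 < ‖x‖ + 1 := by positivity
  obtain ⟨K, e, S, σ, V, B, he, heP, -, -, hS, hVP, hV, -, hB, hB1, hpB, hA⟩ :=
    hM P hP hI hF Unit (fun _ => 1) (part_unit P) _ (scale_norm x)
      (min ((ε / 7) ^ 2) (ε' / (‖x‖ + 1))) (lt_min (by positivity) (by positivity))
  have hp := mu_sum_proj he S
  set p := ∑ s ∈ S, e s s with hpdef
  have hpn : n2 τ p ≤ ε / 7 := by
    refine mu_n2_sum h he S (by positivity) ?_
    have : min ((ε / 7) ^ 2) (ε' / (‖x‖ + 1)) * (Fintype.card (Unit × Fin K) : ℝ) ≤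
        (ε / 7) ^ 2 * Fintype.card (Unit × Fin K) :=
      mul_le_mul_of_nonneg_right (min_le_left _ _) (by positivity)
    linarith
  obtain ⟨w, hw, hpw, hwu⟩ := hN (hI.mono_left le_top) u hu p hp
  obtain ⟨W, hW, hWB, hW1⟩ := exists_W h hp hB hB1 hpB
  refine ⟨w * W, mul_mem hw hW, ?_, ?_⟩
  · have h1 := n2_triangle (τ := τ) (w * W) w u
    have h2 : n2 τ (w * W - w) = n2 τ (W - 1) := by
      rw [← n2_unitary_mul hw (W - 1), mul_sub, mul_one]
    linarith
  · set A := StarAlgebra.adjoin ℂ (insert (w * W) (P : Set M)) with hAdef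
    have hPA : ∀ y ∈ P, y ∈ A := fun y hy =>
      StarAlgebra.subset_adjoin ℂ _ (Set.mem_insert_of_mem _ hy)
    have hvA : w * W ∈ A := StarAlgebra.subset_adjoin ℂ _ (Set.mem_insert _ _)
    have hpA : p ∈ A := sum_mem fun s _ => hPA _ (heP s s)
    have hBA : B ∈ A := by
      have h1 : p * (w * W) * p ∈ A := mul_mem (mul_mem hpA hvA) hpA
      rw [← mul_assoc, hpw] at h1
      have h2 : (2 : ℂ) • B ∈ A := hWB ▸ add_mem h1 (star_mem h1)
      have h3 := SMulMemClass.smul_mem (2⁻¹ : ℂ) h2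
      rwa [smul_smul, inv_mul_cancel₀ two_ne_zero, one_smul] at h3
    obtain ⟨a, ha, hn⟩ := hA A (fun i j => hPA _ (heP i j)) hBA
    refine ⟨((‖x‖ + 1 : ℝ) : ℂ) • (a * star V),
      SMulMemClass.smul_mem _ (mul_mem ha (hPA _ (star_mem hVP))), scale_n2 x _ ?_⟩
    rw [← h.n2_mul_unitary _ hV, sub_mul, mul_assoc a, (Unitary.mem_iff.1 hV).1, mul_one]
    exact hn.trans_le (min_le_right _ _)

theorem unitary_of_lim (h : TF τ) {a : M} (ha : ‖a‖ ≤ 1)
    (hc : ∀ η > 0, ∃ c ∈ unitary M, n2 τ (c - a) < η) : a ∈ unitary M := by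
  have := h.nontrivial
  rw [Unitary.mem_iff]
  constructor
  · refine h.eq_of_forall_n2 fun ε hε => ?_
    obtain ⟨c, hcu, hn⟩ := hc (ε / 2) (half_pos hε)
    have h1 := h.n2_mul_sub_mul_le (star a) a (star c) c
    rw [(Unitary.mem_iff.1 hcu).1, ← star_sub, h.n2_star, norm_star,
      CStarRing.norm_of_mem_unitary hcu, n2_sub_comm a c] at h1
    have h2 : n2 τ (c - a) * ‖a‖ ≤ n2 τ (c - a) := mul_le_of_le_one_right (n2_nonneg _) ha
    linarith
  · refine h.eq_of_forall_n2 fun ε hε => ?_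
    obtain ⟨c, hcu, hn⟩ := hc (ε / 2) (half_pos hε)
    have h1 := h.n2_mul_sub_mul_le a (star a) c (star c)
    rw [(Unitary.mem_iff.1 hcu).2, ← star_sub, h.n2_star, norm_star,
      CStarRing.norm_of_mem_unitary hcu, n2_sub_comm a c] at h1
    have h2 : n2 τ (c - a) * ‖a‖ ≤ n2 τ (c - a) := mul_le_of_le_one_right (n2_nonneg _) ha
    linarith

end A

open Baire A in
theorem aStmt_of (h : TF τ) (hs : Sep τ) (hM : MainStmt τ) (hN : NearStmt τ) (hC : ContStmt τ) :
    AStmt τ := by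
  intro P hP hI hF u hu ε hε
  have := h.nontrivial
  obtain ⟨x, hx⟩ := hs
  obtain ⟨v, hv1, hvu, hO, hc⟩ := baire h (unitary M : Set M) 1
    (fun w hw => (CStarRing.norm_of_mem_unitary hw).le) (Op τ P x) (op_open hC P x 1)
    (fun k w hw η hη => by
      obtain ⟨v, hv, h1, h2⟩ := step h hM hN hP hI hF hw (x (Nat.unpair k).1) hη
        (show 0 < 1 / (((Nat.unpair k).2 : ℝ) + 1) by positivity)
      exact ⟨v, hv, h2, h1⟩) hu hε
  refine ⟨v, unitary_of_lim h hv1 hc, hvu, fun y η hη => ?_⟩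
  obtain ⟨n, hn⟩ := hx y (η / 2) (half_pos hη)
  obtain ⟨a, ha, hna⟩ := op_all hO n (half_pos hη)
  exact ⟨a, ha, by linarith [n2_triangle (τ := τ) y (x n) a]⟩

end Crest.Agent.R95
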