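import Crest.Agent.R95.Basic

/-! Row 95: Dixmier averaging in the trace 2-norm. -/

set_option autoImplicit false
set_option linter.unusedSectionVars false

open Finset Filter Topology
open scoped ComplexOrder Classical

namespace Crest.Agent.R95

universe u

variable {M : Type u} [CStarAlgebra M] [PartialOrder M] [StarOrderedRing M] {τ : M →ₚ[ℂ] ℂ}

/-- commuting with the unitaries of a closed subalgebra is enough -/
theorem commute_of_unitary {D : StarSubalgebra ℂ M} (hD : IsClosed (D : Set M)) {y : M}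
    (hy : ∀ v ∈ D, v ∈ unitary M → y * v = v * y) : ∀ d ∈ D, y * d = d * y := by
  intro d hd
  obtain ⟨u, c, hdu, -⟩ := CStarAlgebra.exists_sum_four_unitary (⟨d, hd⟩ : D)
  have h1 : d = ∑ i, c i • ((u i : D) : M) := by
    have := congrArg (Subtype.val : D → M) hdu
    simpa using this
  have h2 : ∀ i, ((u i : D) : M) ∈ unitary M := fun i =>
    ⟨congrArg Subtype.val (u i).2.1, congrArg Subtype.val (u i).2.2⟩
  rw [h1, Finset.mul_sum, Finset.sum_mul]
  refine Finset.sum_congr rfl fun i _ => ?_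
  rw [mul_smul_comm, smul_mul_assoc, hy _ (u i : D).2 (h2 i)]

namespace Avg

theorem tendsto_n2 {x : ℕ → M} {a : M} (ha : Tendsto (fun n => n2 τ (x n - a)) atTop (𝓝 0)) :
    Tendsto (fun n => n2 τ (x n)) atTop (𝓝 (n2 τ a)) := by
  have : Tendsto (fun n => τ.toPreGNS (x n)) atTop (𝓝 (τ.toPreGNS a)) := by
    rw [tendsto_iff_norm_sub_tendsto_zero]
    simpa only [n2, map_sub] using ha
  exact this.norm

theorem tendsto_tau (h : TF τ) {x : ℕ → M} {a : M}
    (ha : Tendsto (fun n => n2 τ (x n - a)) atTop (𝓝 0)) (b c : M) :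
    Tendsto (fun n => τ (b * x n * c)) atTop (𝓝 (τ (b * a * c))) := by
  rw [tendsto_iff_norm_sub_tendsto_zero]
  refine squeeze_zero (fun _ => norm_nonneg _) (fun n => ?_)
    (g := fun n => ‖b‖ * n2 τ (x n - a) * ‖c‖) ?_
  · rw [← map_sub, ← sub_mul, ← mul_sub]
    refine (h.norm_tau_le_n2 _).trans ((h.n2_mul_le_right _ _).trans ?_)
    exact mul_le_mul_of_nonneg_right (n2_mul_le_left _ _) (norm_nonneg _)
  · simpa using (ha.const_mul ‖b‖).mul_const ‖c‖

/-- a nonempty bounded, midpoint convex, closed family of tuples has a unique element of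
minimal norm -/
theorem exists_min (h : TF τ) {C : Type} [Fintype C] (S : Set (C → M)) (R : ℝ)
    (hne : S.Nonempty) (hR : ∀ a ∈ S, ∀ c, ‖a c‖ ≤ R)
    (hmid : ∀ a ∈ S, ∀ b ∈ S, (fun c => (1 / 2 : ℝ) • (a c + b c)) ∈ S)
    (hcl : ∀ (x : ℕ → C → M) (a : C → M), (∀ n, x n ∈ S) → (∀ c, ‖a c‖ ≤ R) →
      (∀ c, Tendsto (fun n => n2 τ (x n c - a c)) atTop (𝓝 0)) → a ∈ S) :
    ∃ a ∈ S, ∀ b ∈ S, ∑ c, n2 τ (b c) ^ 2 ≤ ∑ c, n2 τ (a c) ^ 2 → b = a := by
  let q : (C → M) → ℝ := fun a => ∑ c, n2 τ (a c) ^ 2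
  have hq0 : ∀ a, 0 ≤ q a := fun a => Finset.sum_nonneg fun _ _ => sq_nonneg _
  have hbdd : BddBelow (q '' S) := ⟨0, by rintro _ ⟨a, -, rfl⟩; exact hq0 a⟩
  set d := sInf (q '' S) with hd
  have hdle : ∀ a ∈ S, d ≤ q a := fun a ha => csInf_le hbdd ⟨a, ha, rfl⟩
  have hpar : ∀ a ∈ S, ∀ b ∈ S, ∑ c, n2 τ (a c - b c) ^ 2 ≤ 2 * (q a + q b) - 4 * d := by
    intro a ha b hb
    have h1 := hdle _ (hmid a ha b hb)
    have h2 : ∀ c, n2 τ (a c - b c) ^ 2 = 2 * (n2 τ (a c) ^ 2 + n2 τ (b c) ^ 2) -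
        4 * n2 τ ((1 / 2 : ℝ) • (a c + b c)) ^ 2 := fun c => by
      rw [n2_smul_real, mul_pow, sq_abs, ← n2_parallelogram]
      ring
    simp only [h2, Finset.sum_sub_distrib, ← Finset.mul_sum, Finset.sum_add_distrib]
    simp only [q] at h1 ⊢
    linarith
  have hex : ∀ n : ℕ, ∃ a ∈ S, q a < d + 1 / ((n : ℝ) + 1) := fun n => by
    obtain ⟨_, ⟨a, ha, rfl⟩, hlt⟩ := exists_lt_of_csInf_lt (hne.image q)
      (lt_add_of_pos_right d (Nat.one_div_pos_of_nat (n := n)))
    exact ⟨a, ha, hlt⟩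
  choose x hxS hx using hex
  have hlim : ∀ c, ∃ a, ‖a‖ ≤ R ∧ Tendsto (fun n => n2 τ (x n c - a)) atTop (𝓝 0) := by
    intro c
    refine h.complete (fun n => x n c) R (fun n => hR _ (hxS n) c) fun ε hε => ?_
    obtain ⟨N, hN⟩ := exists_nat_one_div_lt (show 0 < ε ^ 2 / 4 by positivity)
    refine ⟨N, fun m hm n hn => lt_of_pow_lt_pow_left₀ 2 hε.le ?_⟩
    have h1 := Finset.single_le_sum (f := fun c => n2 τ (x m c - x n c) ^ 2)
      (fun _ _ => sq_nonneg _) (mem_univ c)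
    have h2 := hpar _ (hxS m) _ (hxS n)
    have h3 : 1 / ((m : ℝ) + 1) ≤ 1 / ((N : ℝ) + 1) := Nat.one_div_le_one_div hm
    have h4 : 1 / ((n : ℝ) + 1) ≤ 1 / ((N : ℝ) + 1) := Nat.one_div_le_one_div hn
    linarith [hx m, hx n]
  choose a haR ha using hlim
  have haS : a ∈ S := hcl x a hxS haR ha
  have hqa : q a ≤ d := by
    have h1 : Tendsto (fun n => q (x n)) atTop (𝓝 (q a)) :=
      tendsto_finset_sum _ fun c _ => (tendsto_n2 (ha c)).pow 2
    have h2 : Tendsto (fun n : ℕ => d + 1 / ((n : ℝ) + 1)) atTop (𝓝 (d + 0)) :=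
      tendsto_one_div_add_atTop_nhds_zero_nat.const_add d
    rw [add_zero] at h2
    exact le_of_tendsto_of_tendsto' h1 h2 fun n => (hx n).le
  refine ⟨a, haS, fun b hb hba => funext fun c => h.eq_of_n2 ?_⟩
  have h1 := Finset.single_le_sum (f := fun c => n2 τ (b c - a c) ^ 2)
    (fun _ _ => sq_nonneg _) (mem_univ c)
  have h2 := hpar _ hb _ haS
  have h3 : q b ≤ q a := hba
  exact pow_eq_zero_iff two_ne_zero |>.1 (le_antisymm (by linarith) (sq_nonneg _))

end Avg

theorem avgStmt (h : TF τ) : AvgStmt τ := by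
  intro D N hD hN hDN hirr C _ A B hA η hη
  by_contra hcon
  push Not at hcon
  let A' : C → M := fun c => A c - τ (A c) • (1 : M)
  obtain ⟨R, hR⟩ : ∃ R : ℝ, ∀ c, ‖A' c‖ ≤ R :=
    ⟨∑ c, ‖A' c‖, fun c => Finset.single_le_sum (f := fun c => ‖A' c‖)
      (fun _ _ => norm_nonneg _) (mem_univ c)⟩
  let S : Set (C → M) := {a | (∀ c, a c ∈ N ∧ ‖a c‖ ≤ R ∧ τ (a c) = 0) ∧
    ∀ v ∈ D, v ∈ unitary M → η ≤ ∑ c, tr τ (star v * a c * v * B c)}
  have hA' : A' ∈ S := by
    refine ⟨fun c => ⟨sub_mem (hA c) (SMulMemClass.smul_mem _ (one_mem _)), hR c, ?_⟩,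
      fun v hv hu => ?_⟩
    · simp [A', h.one]
    · have e1 : ∀ c, tr τ (star v * A' c * v * B c) =
          tr τ (star v * A c * v * B c) - (τ (A c) * τ (B c)).re := fun c => by
        simp [A', mul_sub, sub_mul, tr, (Unitary.mem_iff.1 hu).1]
      simp only [e1, Finset.sum_sub_distrib]
      linarith [hcon v hv hu]
  obtain ⟨a, haS, ha⟩ := Avg.exists_min h S R ⟨A', hA'⟩ (fun a ha c => (ha.1 c).2.1)
    (fun a ha b hb => by
      refine ⟨fun c => ⟨SMulMemClass.smul_mem ((1 / 2 : ℝ) : ℂ) (add_mem (ha.1 c).1 (hb.1 c).1),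
        ?_, ?_⟩, fun v hv hu => ?_⟩
      · rw [norm_smul]
        have := norm_add_le (a c) (b c)
        have e : ‖(1 / 2 : ℝ)‖ = 1 / 2 := by norm_num
        rw [e]
        linarith [(ha.1 c).2.1, (hb.1 c).2.1]
      · change τ (((1 / 2 : ℝ) : ℂ) • (a c + b c)) = 0
        rw [map_smul, map_add, (ha.1 c).2.2, (hb.1 c).2.2, add_zero, smul_zero]
      · simp only [mul_smul_comm, smul_mul_assoc, tr_smul, mul_add, add_mul, tr_add,
          ← Finset.mul_sum, Finset.sum_add_distrib]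
        linarith [ha.2 v hv hu, hb.2 v hv hu])
    (fun x a hx haR hlim => by
      refine ⟨fun c => ⟨hN.mem_of_tendsto (fun n => ((hx n).1 c).1) (hlim c), haR c, ?_⟩,
        fun v hv hu => ?_⟩
      · have := Avg.tendsto_tau h (hlim c) 1 1
        simp only [one_mul, mul_one, fun n => ((hx n).1 c).2.2] at this
        exact tendsto_nhds_unique this tendsto_const_nhds
      · have : Tendsto (fun n => ∑ c, tr τ (star v * x n c * v * B c)) atTop
            (𝓝 (∑ c, tr τ (star v * a c * v * B c))) := by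
          refine tendsto_finset_sum _ fun c _ => ?_
          have := (Complex.continuous_re.tendsto _).comp
            (Avg.tendsto_tau h (hlim c) (star v) (v * B c))
          simpa only [mul_assoc, tr, Function.comp_def] using this
        exact ge_of_tendsto' this fun n => (hx n).2 v hv hu)
  have hfix : ∀ v ∈ D, v ∈ unitary M → (fun c => star v * a c * v) = a := by
    intro v hv hu
    refine ha _ ⟨fun c => ⟨mul_mem (mul_mem (star_mem (hDN hv)) (haS.1 c).1) (hDN hv), ?_, ?_⟩,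
      fun w hw hwu => ?_⟩ (le_of_eq (Finset.sum_congr rfl fun c _ => ?_))
    · rw [CStarRing.norm_mul_mem_unitary _ hu,
        CStarRing.norm_mem_unitary_mul _ (Unitary.star_mem hu)]
      exact (haS.1 c).2.1
    · rw [h.tau_conj hu, (haS.1 c).2.2]
    · simpa only [star_mul, mul_assoc] using haS.2 (v * w) (mul_mem hv hw) (mul_mem hu hwu)
    · rw [h.n2_mul_unitary _ hu, n2_unitary_mul (Unitary.star_mem hu)]
  have hzero : ∀ c, a c = 0 := by
    intro c
    obtain ⟨z, hz⟩ := hirr (a c) (haS.1 c).1 (commute_of_unitary (h.isClosed hD) fun v hv hu => by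
      have := congrFun (hfix v hv hu) c
      rw [← this, ← mul_assoc, ← mul_assoc, (Unitary.mem_iff.1 hu).2, one_mul, this])
    have := (haS.1 c).2.2
    rw [hz, map_smul, h.one, smul_eq_mul, mul_one] at this
    rw [hz, this, zero_smul]
  have := haS.2 1 (one_mem _) (one_mem _)
  simp [hzero] at this
  linarith

end Crest.Agent.R95
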