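import Crest.Agent.R95.Baire

/-! Row 95: `bStmt_of`. -/

set_option autoImplicit false
set_option linter.unusedSectionVars false

open Finset Filter Topology
open scoped ComplexOrder Classical

namespace Crest.Agent.R95

universe u

variable {M : Type u} [CStarAlgebra M] [PartialOrder M] [StarOrderedRing M] {τ : M →ₚ[ℂ] ℂ}

namespace B
open Baire

theorem exists_inj {J : Type} [Fintype J] (α : J → ℝ) (hα : ∀ j, |α j| < 1) {η : ℝ} (hη : 0 < η) :
    ∃ β : J → ℝ, Function.Injective β ∧ (∀ j, |β j| < 1) ∧ ∀ j, |β j - α j| ≤ η := by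
  have key : ∀ s : Finset J, ∃ β : J → ℝ, Set.InjOn β s ∧ (∀ j, |β j| < 1) ∧
      ∀ j, |β j - α j| ≤ η := by
    intro s
    induction s using Finset.induction_on with
    | empty => exact ⟨α, by simp, hα, fun j => by simpa using hη.le⟩
    | insert a s ha ih =>
      obtain ⟨β, hβ, h1, h2⟩ := ih
      have hlt : α a < min 1 (α a + η) := lt_min (abs_lt.1 (hα a)).2 (by linarith)
      obtain ⟨y, hy, hys⟩ := (Set.Ioo_infinite hlt).exists_notMem_finset (s.image β)
      have hy1 := hy.2.trans_le (min_le_left _ _)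
      have hy2 := hy.2.trans_le (min_le_right _ _)
      refine ⟨Function.update β a y, ?_, fun j => ?_, fun j => ?_⟩
      · rw [coe_insert]
        refine (Set.injOn_insert (by simpa using ha)).2 ⟨?_, ?_⟩
        · intro i hi j hj hij
          rw [Function.update_of_ne (ne_of_mem_of_not_mem hi ha),
            Function.update_of_ne (ne_of_mem_of_not_mem hj ha)] at hij
          exact hβ hi hj hij
        · rintro ⟨i, hi, hiy⟩
          rw [Function.update_of_ne (ne_of_mem_of_not_mem hi ha), Function.update_self] at hiy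
          exact hys (mem_image.2 ⟨i, hi, hiy⟩)
      · rcases eq_or_ne j a with rfl | hj
        · rw [Function.update_self, abs_lt]
          exact ⟨(abs_lt.1 (hα j)).1.trans hy.1, hy1⟩
        · rw [Function.update_of_ne hj]; exact h1 j
      · rcases eq_or_ne j a with rfl | hj
        · rw [Function.update_self, abs_le]
          constructor <;> linarith [hy.1]
        · rw [Function.update_of_ne hj]; exact h2 j
  obtain ⟨β, hβ, h⟩ := key univ
  exact ⟨β, fun i j hij => hβ (by simp) (by simp) hij, h⟩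

section Part
variable {T : Type} [Fintype T] {r : T → M}

theorem diag_sa (hr : Part τ ⊤ r) (α : T → ℝ) : IsSelfAdjoint (∑ t, (α t : ℂ) • r t) := by
  change star _ = _
  rw [star_sum]
  refine sum_congr rfl fun t _ => ?_
  rw [star_smul, (hr.proj t).isSelfAdjoint.star_eq, RCLike.star_def, Complex.conj_ofReal]

theorem diag_mul (hr : Part τ ⊤ r) (α β : T → ℂ) :
    (∑ t, α t • r t) * (∑ t, β t • r t) = ∑ t, (α t * β t) • r t := by
  rw [sum_mul]
  refine sum_congr rfl fun t _ => ?_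
  rw [mul_sum, sum_eq_single t]
  · rw [smul_mul_smul_comm, (hr.proj t).isIdempotentElem.eq]
  · intro t' _ ht
    rw [smul_mul_smul_comm, hr.orth t t' ht.symm, smul_zero]
  · simp

theorem diag_norm (hr : Part τ ⊤ r) (α : T → ℝ) {c : ℝ} (hc : 0 ≤ c) (hα : ∀ t, |α t| ≤ c) :
    ‖∑ t, (α t : ℂ) • r t‖ ≤ c := by
  have h1 : ‖star (∑ t, (α t : ℂ) • r t) * ∑ t, (α t : ℂ) • r t‖ ≤ c * c := by
    rw [CStarAlgebra.norm_le_iff_le_algebraMap _ (mul_nonneg hc hc) (star_mul_self_nonneg _),
      (diag_sa hr α).star_eq, diag_mul hr, Algebra.algebraMap_eq_smul_one, ← hr.sum, smul_sum]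
    refine sum_le_sum fun t _ => ?_
    rw [← Complex.ofReal_mul, Complex.coe_smul]
    refine smul_le_smul_of_nonneg_right ?_ (hr.proj t).nonneg
    rw [← abs_mul_abs_self]
    exact mul_le_mul (hα t) (hα t) (abs_nonneg _) hc
  rw [CStarRing.norm_star_mul_self] at h1
  nlinarith [norm_nonneg (∑ t, (α t : ℂ) • r t)]

theorem diag_mem (hr : Part τ ⊤ r) {α : T → ℝ} (hα : Function.Injective α)
    {A : StarSubalgebra ℂ M} (hA : ∑ t, (α t : ℂ) • r t ∈ A) (j : T) : r j ∈ A := by
  have key : ∀ s : Finset T, ∑ t, (∏ k ∈ s, ((α t : ℂ) - α k)) • r t ∈ A := by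
    intro s
    induction s using Finset.induction_on with
    | empty => simp [hr.sum]
    | insert a s ha ih =>
      have h1 : ∑ t, ((α t : ℂ) - α a) • r t ∈ A := by
        simp only [sub_smul, sum_sub_distrib, ← smul_sum, hr.sum]
        exact sub_mem hA (SMulMemClass.smul_mem _ (one_mem A))
      have h2 := mul_mem h1 ih
      rw [diag_mul hr] at h2
      simpa only [prod_insert ha] using h2
  have h1 := key (univ.erase j)
  rw [sum_eq_single j] at h1
  · have hne : ∏ k ∈ univ.erase j, ((α j : ℂ) - α k) ≠ 0 :=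
      prod_ne_zero_iff.2 fun k hk => sub_ne_zero.2 fun h =>
        ne_of_mem_erase hk (hα (by exact_mod_cast h.symm))
    have h2 := SMulMemClass.smul_mem (∏ k ∈ univ.erase j, ((α j : ℂ) - α k))⁻¹ h1
    rwa [smul_smul, inv_mul_cancel₀ hne, one_smul] at h2
  · intro t _ ht
    rw [prod_eq_zero (mem_erase.2 ⟨ht, mem_univ t⟩) (sub_self _), zero_smul]
  · simp

end Part

theorem part_of_mu (h : TF τ) {ι : Type} [Fintype ι] {e : ι → ι → M} (he : MU e) :
    Part τ ⊤ fun j => e j j :=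
  ⟨fun _ => trivial, mu_proj he, fun _ _ hne => mu_mul_ne he _ _ hne, he.sum, mu_tr_eq h he⟩

/-- `MainStmt` after conjugation by a unitary commuting with the partition -/
theorem mainB (h : TF τ) (hM : MainStmt τ) (hI : Irr (⊤ : StarSubalgebra ℂ M) ⊤)
    (hF : ¬ FiniteDimensional ℂ (⊤ : StarSubalgebra ℂ M)) {f : M} (hf : IsStarProjection f)
    {T : Type} [Fintype T] {r : T → M} (hr : Part τ ⊤ r) (hrf : ∀ t, r t * f = r t ∨ r t * f = 0)
    {x : M} (hx : ‖x‖ ≤ 1) (hfx : f * x = x) (hxf : x * f = 0) {ε : ℝ} (hε : 0 < ε) :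
    ∃ (K : ℕ) (e : T × Fin K → T × Fin K → M) (S : Finset (T × Fin K)) (σ : T × Fin K) (B : M),
      MU e ∧ (∀ t, ∑ i, e (t, i) (t, i) = r t) ∧ σ ∉ S ∧
      (#S + 1 : ℝ) ≤ ε * Fintype.card (T × Fin K) ∧ IsSelfAdjoint B ∧ ‖B‖ ≤ 1 ∧
      (∑ s ∈ S, e s s) * B = B ∧
      ∀ A : StarSubalgebra ℂ M, (∀ i j, e i j ∈ A) → B ∈ A → ∃ a ∈ A, n2 τ (x - a) < ε := by
  obtain ⟨K, e, S, σ, V, B, he, -, her, hσ, hS, -, hV, hVr, hB, hB1, hpB, hA⟩ :=
    hM ⊤ l2Closed_top hI hF T r hr x hx ε hε
  have hff : f * f = f := hf.isIdempotentElem.eq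
  have hfs : star f = f := hf.isSelfAdjoint.star_eq
  have hrf' : ∀ t, Commute (r t) f := by
    intro t
    have hs : star (r t * f) = f * r t := by rw [star_mul, hfs, (hr.proj t).isSelfAdjoint.star_eq]
    change _ = _
    rcases hrf t with h1 | h1
    · rw [← hs, h1, (hr.proj t).isSelfAdjoint.star_eq]
    · rw [← hs, h1, star_zero]
  have hVf : Commute V f := by
    have e1 : f = ∑ t, r t * f := by rw [← sum_mul, hr.sum, one_mul]
    rw [e1]
    refine Commute.sum_right _ _ _ fun t _ => ?_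
    rcases hrf t with h1 | h1
    · rw [h1]; exact hVr t
    · rw [h1]; exact Commute.zero_right _
  have hV1 := (Unitary.mem_iff.1 hV).1
  have hV2 := (Unitary.mem_iff.1 hV).2
  have hg := hf.one_sub
  have hgg : (1 - f) * (1 - f) = 1 - f := hg.isIdempotentElem.eq
  have hVg : V * (1 - f) = (1 - f) * V := (Commute.one_right V).sub_right hVf
  set U := f + (1 - f) * V with hU
  have hUs : star U = f + star V * (1 - f) := by
    rw [hU, star_add, star_mul, hfs, hg.isSelfAdjoint.star_eq]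
  have hU1 : star U * U = 1 := by
    rw [hUs, hU, add_mul, mul_add, mul_add, hff, ← mul_assoc, hf.mul_one_sub_self, zero_mul,
      mul_assoc (star V), hf.one_sub_mul_self, mul_zero, mul_assoc (star V), ← mul_assoc (1 - f),
      hgg, ← hVg, ← mul_assoc, hV1]
    simp
  have hU2 : U * star U = 1 := by
    have hVg' : star V * (1 - f) = (1 - f) * star V := by
      have := congrArg star hVg
      rw [star_mul, star_mul, hg.isSelfAdjoint.star_eq] at this
      exact this.symm
    rw [hUs, hU, hVg', ← hVg, add_mul, mul_add, mul_add, hff, ← mul_assoc, hf.mul_one_sub_self,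
      zero_mul, mul_assoc V, hf.one_sub_mul_self, mul_zero, mul_assoc V, ← mul_assoc (1 - f),
      hgg, ← hVg', ← mul_assoc, hV2]
    simp
  have hUu : U ∈ unitary M := Unitary.mem_iff.2 ⟨hU1, hU2⟩
  let φ : M ≃⋆ₐ[ℂ] M := Unitary.conjStarAlgAut ℂ M ⟨U, hUu⟩
  have hφ : ∀ y, φ y = U * y * star U := fun _ => rfl
  have hφr : ∀ t, φ (r t) = r t := by
    intro t
    have : Commute U (r t) :=
      (hrf' t).symm.add_left ((((Commute.one_left _).sub_left (hrf' t).symm)).mul_left (hVr t))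
    rw [hφ, this.eq, mul_assoc, hU2, mul_one]
  have hφx : φ (x * V) = x := by
    have e1 : U * x = x := by
      rw [hU, add_mul, hfx, ← hVg, mul_assoc, sub_mul, one_mul, hfx, sub_self, mul_zero, add_zero]
    have e2 : x * U = x * V := by
      rw [hU, mul_add, hxf, zero_add, ← mul_assoc, mul_sub, mul_one, hxf, sub_zero]
    rw [hφ, ← e2, ← mul_assoc, e1, mul_assoc, hU2, mul_one]
  refine ⟨K, fun i j => φ (e i j), S, σ, φ B, ⟨fun i j k l => ?_, fun i j => ?_, ?_⟩, fun t => ?_,
    hσ, hS, hB.map φ, ?_, ?_, fun A hAe hAB => ?_⟩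
  · rw [← map_mul, he.mul]; split_ifs <;> simp
  · rw [← map_star, he.star]
  · rw [← map_sum, he.sum, map_one]
  · rw [← map_sum, her, hφr]
  · rw [hφ, CStarRing.norm_mul_mem_unitary _ (Unitary.star_mem hUu),
      CStarRing.norm_mem_unitary_mul _ hUu]
    exact hB1
  · rw [← map_sum, ← map_mul, hpB]
  · obtain ⟨a, ha, hn⟩ := hA (A.comap (φ : M →⋆ₐ[ℂ] M)) hAe hAB
    refine ⟨φ a, ha, ?_⟩
    rw [← hφx, ← map_sub, hφ, h.n2_mul_unitary _ (Unitary.star_mem hUu), n2_unitary_mul hUu]
    exact hn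

/-- the encoding of matrix units and of a corner element in one self-adjoint element -/
theorem encode (h : TF τ) {ι : Type} [Fintype ι] [DecidableEq ι] {e : ι → ι → M} (he : MU e) {S : Finset ι}
    {σ : ι} (hσ : σ ∉ S) {B : M} (hB : IsSelfAdjoint B) (hB1 : ‖B‖ ≤ 1)
    (hpB : (∑ s ∈ S, e s s) * B = B) {b : M} (hb : IsSelfAdjoint b) (hb1 : ‖b‖ ≤ 1) {η : ℝ}
    (hη : 0 < η) (hη1 : η ≤ 1) :
    ∃ b' : M, IsSelfAdjoint b' ∧ ‖b'‖ ≤ 1 ∧
      n2 τ (b' - b) ≤ 2 * n2 τ (∑ s ∈ insert σ S, e s s) + 2 * η ∧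
      ∀ A : StarSubalgebra ℂ M, (∀ j, e j j ∈ A) → b' ∈ A → (∀ i j, e i j ∈ A) ∧ B ∈ A := by
  have hp := mu_sum_proj he (insert σ S)
  have hq := mu_sum_proj he S
  set p := ∑ s ∈ insert σ S, e s s with hpdef
  set q := ∑ s ∈ S, e s s with hqdef
  have hg := hp.one_sub
  have hg1 := IsStarProjection.norm_le _ hg
  set δ : ℝ := η / (1 + 2 * Fintype.card ι) with hδ
  have hδ0 : 0 < δ := by positivity
  have hδη : δ * (1 + 2 * Fintype.card ι) = η := by rw [hδ]; field_simp
  set c := (1 - p) * b * (1 - p) with hc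
  set d := B + ∑ j ∈ univ.erase σ, (e j σ + e σ j) with hd
  have hcn : ‖c‖ ≤ 1 := by
    refine (norm_mul_le _ _).trans ?_
    refine mul_le_one₀ ((norm_mul_le _ _).trans (mul_le_one₀ hg1 (norm_nonneg _) hb1))
      (norm_nonneg _) hg1
  have hdn : ‖d‖ ≤ 1 + 2 * Fintype.card ι := by
    refine (norm_add_le _ _).trans (add_le_add hB1 ((norm_sum_le _ _).trans ?_))
    calc ∑ j ∈ univ.erase σ, ‖e j σ + e σ j‖ ≤ ∑ _j ∈ univ.erase σ, (2 : ℝ) :=
          sum_le_sum fun j _ => (norm_add_le _ _).trans (by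
            linarith [mu_norm he j σ, mu_norm he σ j])
      _ ≤ ∑ _j : ι, (2 : ℝ) :=
          sum_le_sum_of_subset_of_nonneg (erase_subset _ _) fun _ _ _ => zero_le_two
      _ = 2 * Fintype.card ι := by simp [mul_comm]
  have hdn' : ‖(δ : ℂ) • d‖ ≤ η := by
    rw [norm_smul, Complex.norm_real, Real.norm_eq_abs, abs_of_pos hδ0, ← hδη]
    exact mul_le_mul_of_nonneg_left hdn hδ0.le
  have hBq : B * q = B := by
    have := congrArg star hpB
    rwa [star_mul, hB.star_eq, hq.isSelfAdjoint.star_eq] at this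
  have hδne : (δ : ℂ) ≠ 0 := by exact_mod_cast hδ0.ne'
  refine ⟨((1 - η : ℝ) : ℂ) • c + (δ : ℂ) • d, ?_, ?_, ?_, fun A hAe hAb => ?_⟩
  · have h1 : star c = c := by
      rw [hc, star_mul, star_mul, hg.isSelfAdjoint.star_eq, hb.star_eq, mul_assoc]
    have h2 : star d = d := by
      rw [hd, star_add, hB.star_eq, star_sum]
      congr 1
      exact sum_congr rfl fun j _ => by rw [star_add, he.star, he.star, add_comm]
    change star _ = _
    rw [star_add, star_smul, star_smul, h1, h2]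
    simp only [RCLike.star_def, Complex.conj_ofReal]
  · refine (norm_add_le _ _).trans ?_
    have : ‖((1 - η : ℝ) : ℂ) • c‖ ≤ 1 - η := by
      rw [norm_smul, Complex.norm_real, Real.norm_eq_abs, abs_of_nonneg (by linarith)]
      exact mul_le_of_le_one_right (by linarith) hcn
    linarith
  · have e1 : ((1 - η : ℝ) : ℂ) • c + (δ : ℂ) • d - b =
        -(p * b) - (1 - p) * (b * p) - (η : ℂ) • c + (δ : ℂ) • d := by
      have : c = b - p * b - (1 - p) * (b * p) := by rw [hc]; noncomm_ring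
      rw [Complex.ofReal_sub, Complex.ofReal_one, sub_smul, one_smul]
      conv_lhs => enter [1, 1, 1]; rw [this]
      abel
    have e2 : n2 τ (p * b) ≤ n2 τ p :=
      (h.n2_mul_le_right p b).trans (mul_le_of_le_one_right (n2_nonneg _) hb1)
    have e3 : n2 τ ((1 - p) * (b * p)) ≤ n2 τ p :=
      (n2_mul_le_left _ _).trans ((mul_le_of_le_one_left (n2_nonneg _) hg1).trans
        ((n2_mul_le_left _ _).trans (mul_le_of_le_one_left (n2_nonneg _) hb1)))
    have e4 : n2 τ ((η : ℂ) • c) ≤ η := by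
      refine (h.n2_le_norm _).trans ?_
      rw [norm_smul, Complex.norm_real, Real.norm_eq_abs, abs_of_pos hη]
      exact mul_le_of_le_one_right hη.le hcn
    have e5 := (h.n2_le_norm _).trans hdn'
    have e6 := n2_add_le (τ := τ) (-(p * b) - (1 - p) * (b * p) - (η : ℂ) • c) ((δ : ℂ) • d)
    have e7 := n2_sub_le (τ := τ) (-(p * b) - (1 - p) * (b * p)) ((η : ℂ) • c)
    have e8 := n2_sub_le (τ := τ) (-(p * b)) ((1 - p) * (b * p))
    rw [n2_neg] at e8
    rw [e1]
    linarith
  · have hcol : ∀ j, e j σ ∈ A := by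
      intro j
      rcases eq_or_ne j σ with rfl | hj
      · exact hAe j
      have h1 := mul_mem (mul_mem (hAe j) hAb) (hAe σ)
      have e1 : c * e σ σ = 0 := by
        have a1 : (1 - p) * e σ σ = 0 := by
          rw [sub_mul, one_mul, hpdef, mu_sum_mul he, if_pos (mem_insert_self _ _), sub_self]
        rw [hc, mul_assoc, a1, mul_zero]
      have e2 : B * e σ σ = 0 := by
        rw [← hBq, mul_assoc, hqdef, mu_sum_mul he, if_neg hσ, mul_zero]
      have e3 : e j j * (∑ k ∈ univ.erase σ, (e k σ + e σ k)) * e σ σ = e j σ := by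
        rw [mul_sum, sum_mul, sum_eq_single j]
        · rw [mul_add, mu_mul_same he, mu_mul_ne he _ _ hj, add_zero, mu_mul_same he]
        · intro k _ hk
          rw [mul_add, mu_mul_ne he _ _ hk.symm, mu_mul_ne he _ _ hj, add_zero, zero_mul]
        · intro hn; exact absurd (mem_erase.2 ⟨hj, mem_univ j⟩) hn
      have e4 : e j j * (((1 - η : ℝ) : ℂ) • c + (δ : ℂ) • d) * e σ σ = (δ : ℂ) • e j σ := by
        rw [mul_add, add_mul, mul_smul_comm, smul_mul_assoc, mul_assoc, e1, mul_zero, smul_zero,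
          zero_add, mul_smul_comm, smul_mul_assoc, hd, mul_add, add_mul, mul_assoc, e2, mul_zero,
          zero_add, e3]
      rw [e4] at h1
      have h2 := SMulMemClass.smul_mem (δ : ℂ)⁻¹ h1
      rwa [smul_smul, inv_mul_cancel₀ hδne, one_smul] at h2
    refine ⟨fun i j => ?_, ?_⟩
    · rw [← mu_mul_same he i σ j, ← he.star j σ]
      exact mul_mem (hcol i) (star_mem (hcol j))
    · have hqA : q ∈ A := sum_mem fun s _ => hAe s
      have h1 := mul_mem (mul_mem hqA hAb) hqA
      have e0 : q * p = q := by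
        rw [hqdef, sum_mul]
        exact sum_congr rfl fun s hs => by
          rw [hpdef, mu_mul_sum he, if_pos (mem_insert_of_mem hs)]
      have e1 : q * c = 0 := by
        have a1 : q * (1 - p) = 0 := by rw [mul_sub, mul_one, e0, sub_self]
        rw [hc, ← mul_assoc, ← mul_assoc, a1, zero_mul, zero_mul]
      have e3 : q * (∑ k ∈ univ.erase σ, (e k σ + e σ k)) * q = 0 := by
        rw [mul_sum (s := univ.erase σ), sum_mul (s := univ.erase σ)]
        refine sum_eq_zero fun k _ => ?_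
        have a1 : e k σ * q = 0 := by rw [hqdef, mu_mul_sum he, if_neg hσ]
        have a2 : q * e σ k = 0 := by rw [hqdef, mu_sum_mul he, if_neg hσ]
        rw [mul_add, a2, add_zero, mul_assoc, a1, mul_zero]
      have e4 : q * (((1 - η : ℝ) : ℂ) • c + (δ : ℂ) • d) * q = (δ : ℂ) • B := by
        rw [mul_add, add_mul, mul_smul_comm, e1, smul_zero, zero_mul, zero_add, mul_smul_comm,
          smul_mul_assoc, hd, mul_add, add_mul, hpB, hBq, e3, add_zero]
      rw [e4] at h1
      have h2 := SMulMemClass.smul_mem (δ : ℂ)⁻¹ h1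
      rwa [smul_smul, inv_mul_cancel₀ hδne, one_smul] at h2

/-- the candidates -/
def Cs (τ : M →ₚ[ℂ] ℂ) (f : M) : Set M :=
  {w | ∃ (T : Type) (_ : Fintype T) (r : T → M) (α : T → ℝ) (b : M), Part τ ⊤ r ∧
    (∀ t, r t * f = r t ∨ r t * f = 0) ∧ (∀ t, |α t| < 1) ∧ IsSelfAdjoint b ∧ ‖b‖ ≤ 1 ∧
    w = ∑ t, (α t : ℂ) • r t + Complex.I • b}

theorem cs_norm {f w : M} (hw : w ∈ Cs τ f) : ‖w‖ ≤ 2 := by
  obtain ⟨T, _, r, α, b, hr, -, hα, -, hb1, rfl⟩ := hw
  refine (norm_add_le _ _).trans ?_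
  rw [norm_smul, Complex.norm_I, one_mul]
  linarith [diag_norm hr α zero_le_one fun t => (hα t).le]

theorem re_im_mem {A : StarSubalgebra ℂ M} {a b : M} (ha : IsSelfAdjoint a) (hb : IsSelfAdjoint b)
    (h : a + Complex.I • b ∈ A) : a ∈ A ∧ b ∈ A := by
  have hs : a - Complex.I • b ∈ A := by
    have := star_mem h
    rwa [star_add, ha.star_eq, star_smul, hb.star_eq, RCLike.star_def, Complex.conj_I, neg_smul,
      ← sub_eq_add_neg] at this
  have h1 : a ∈ A := by
    have := SMulMemClass.smul_mem (2⁻¹ : ℂ) (add_mem h hs)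
    rwa [add_add_sub_cancel, ← two_smul ℂ a, smul_smul, inv_mul_cancel₀ two_ne_zero,
      one_smul] at this
  refine ⟨h1, ?_⟩
  have := SMulMemClass.smul_mem (-Complex.I) (sub_mem h h1)
  rwa [add_sub_cancel_left, smul_smul, neg_mul, Complex.I_mul_I, neg_neg, one_smul] at this

theorem step (h : TF τ) (hM : MainStmt τ) (hI : Irr (⊤ : StarSubalgebra ℂ M) ⊤)
    (hF : ¬ FiniteDimensional ℂ (⊤ : StarSubalgebra ℂ M)) {f : M} (hf : IsStarProjection f)
    {w : M} (hw : w ∈ Cs τ f) {x : M} (hfx : f * x = x) (hxf : x * f = 0) {ε ε' : ℝ}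
    (hε : 0 < ε) (hε' : 0 < ε') :
    ∃ w' ∈ Cs τ f, n2 τ (w' - w) < ε ∧
      ∃ a ∈ StarAlgebra.adjoin ℂ (insert w' (∅ : Set M)), n2 τ (x - a) < ε' := by
  obtain ⟨T, _, r, α, b, hr, hrf, hα, hb, hb1, rfl⟩ := hw
  have hx : 0 < ‖x‖ + 1 := by positivity
  set η := min (ε / 6) 1 with hηdef
  have hη : 0 < η := lt_min (by positivity) one_pos
  have hηε : η ≤ ε / 6 := min_le_left _ _
  obtain ⟨K, e, S, σ, B, he, her, hσ, hS, hB, hB1, hpB, hA⟩ :=
    mainB h hM hI hF hf hr hrf (scale_norm x) (by rw [mul_smul_comm, hfx])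
      (by rw [smul_mul_assoc, hxf, smul_zero])
      (show 0 < min (η ^ 2) (ε' / (‖x‖ + 1)) from lt_min (by positivity) (by positivity))
  obtain ⟨b', hb', hb'1, hbb, hdec⟩ := encode h he hσ hB hB1 hpB hb hb1 hη (min_le_right _ _)
  obtain ⟨β, hβ, hβ1, hβα⟩ := exists_inj (fun j : T × Fin K => α j.1) (fun j => hα j.1) hη
  have hr' := part_of_mu h he
  have hpn : n2 τ (∑ s ∈ insert σ S, e s s) ≤ η := by
    refine mu_n2_sum h he _ hη.le ?_
    have : min (η ^ 2) (ε' / (‖x‖ + 1)) * (Fintype.card (T × Fin K) : ℝ) ≤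
        η ^ 2 * Fintype.card (T × Fin K) :=
      mul_le_mul_of_nonneg_right (min_le_left _ _) (by positivity)
    rw [card_insert_of_notMem hσ]
    push_cast
    linarith
  refine ⟨∑ j, (β j : ℂ) • e j j + Complex.I • b',
    ⟨T × Fin K, inferInstance, fun j => e j j, β, b', hr', fun j => ?_, hβ1, hb', hb'1, rfl⟩,
    ?_, ?_⟩
  · have e1 : e j j * r j.1 = e j j := by
      rw [← her, mul_sum, sum_eq_single j.2]
      · exact mu_mul_same he _ _ _
      · intro i _ hi
        exact mu_mul_ne he _ _ fun hc => hi (congrArg Prod.snd hc).symm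
      · simp
    rcases hrf j.1 with h1 | h1
    · left
      change e j j * f = e j j
      rw [← e1, mul_assoc, h1]
    · right
      change e j j * f = 0
      rw [← e1, mul_assoc, h1, mul_zero]
  · have e1 : ∑ t, (α t : ℂ) • r t = ∑ j : T × Fin K, (α j.1 : ℂ) • e j j := by
      rw [Fintype.sum_prod_type]
      exact sum_congr rfl fun t _ => by rw [← her, smul_sum]
    have e2 : ∑ j, (β j : ℂ) • e j j + Complex.I • b' - (∑ t, (α t : ℂ) • r t + Complex.I • b) =
        ∑ j : T × Fin K, ((β j - α j.1 : ℝ) : ℂ) • e j j + Complex.I • (b' - b) := by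
      rw [e1]
      simp only [Complex.ofReal_sub, sub_smul, sum_sub_distrib, smul_sub]
      abel
    have e3 := (h.n2_le_norm _).trans (diag_norm hr' (fun j => β j - α j.1) hη.le hβα)
    have e4 := n2_add_le (τ := τ) (∑ j : T × Fin K, ((β j - α j.1 : ℝ) : ℂ) • e j j)
      (Complex.I • (b' - b))
    rw [n2_smul, Complex.norm_I, one_mul] at e4
    rw [e2]
    linarith
  · set A := StarAlgebra.adjoin ℂ (insert (∑ j, (β j : ℂ) • e j j + Complex.I • b') (∅ : Set M))
    have hwA : ∑ j, (β j : ℂ) • e j j + Complex.I • b' ∈ A :=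
      StarAlgebra.subset_adjoin ℂ _ (Set.mem_insert _ _)
    obtain ⟨h1, h2⟩ := re_im_mem (diag_sa hr' β) hb' hwA
    obtain ⟨h3, h4⟩ := hdec A (diag_mem hr' hβ h1) h2
    obtain ⟨a, ha, hn⟩ := hA A h3 h4
    exact ⟨((‖x‖ + 1 : ℝ) : ℂ) • a, SMulMemClass.smul_mem _ ha,
      scale_n2 x _ (hn.trans_le (min_le_right _ _))⟩

end B

open Baire B in
theorem bStmt_of (h : TF τ) (hs : Sep τ) (hM : MainStmt τ) (hCm : CompStmt τ) (hSub : SubStmt τ)
    (hC : ContStmt τ) : BStmt τ := by
  intro hI hF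
  obtain ⟨x, hx⟩ := hs
  obtain ⟨f, -, hf, -, hft⟩ := hSub ⊤ l2Closed_top hI hF 1 trivial (IsStarProjection.one M) (1 / 2)
    (by norm_num) (by rw [h.tr_one]; norm_num)
  have hg := hf.one_sub
  have hgt : tr τ (1 - f) = tr τ f := by rw [tr_sub, h.tr_one, hft]; norm_num
  obtain ⟨v, -, hv1, hv2, hv3⟩ := hCm ⊤ l2Closed_top hI (1 - f) trivial f trivial hg hf hgt.le
  replace hv3 := hv3 hgt
  have hff : f * f = f := hf.isIdempotentElem.eq
  have hvg : v * (1 - f) = v := by rw [← hv1, ← mul_assoc, hv3, hv2]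
  have h0 : (0 : M) ∈ Cs τ f := by
    refine ⟨Bool, inferInstance, fun t => cond t f (1 - f), fun _ => 0, 0,
      ⟨fun _ => trivial, ?_, ?_, ?_, ?_⟩, ?_, by simp, IsSelfAdjoint.zero M, by simp, by simp⟩
    · rintro (_ | _)
      exacts [hg, hf]
    · rintro (_ | _) (_ | _) hne
      exacts [absurd rfl hne, hf.one_sub_mul_self, hf.mul_one_sub_self, absurd rfl hne]
    · simp
    · rintro (_ | _) (_ | _)
      exacts [rfl, hgt, hgt.symm, rfl]
    · rintro (_ | _)
      exacts [Or.inr hf.one_sub_mul_self, Or.inl hff]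
  obtain ⟨w, -, -, hO, -⟩ := baire h (Cs τ f) 2 (fun w hw => cs_norm hw)
    (Op τ ∅ fun n => f * x n * (1 - f)) (op_open hC ∅ _ 2)
    (fun k w hw η hη => by
      obtain ⟨w', hw', h1, h2⟩ := step h hM hI hF hf hw (x := f * x (Nat.unpair k).1 * (1 - f))
        (by rw [← mul_assoc, ← mul_assoc, hff])
        (by rw [mul_assoc, hf.one_sub_mul_self, mul_zero]) hη
        (show 0 < 1 / (((Nat.unpair k).2 : ℝ) + 1) by positivity)
      exact ⟨w', hw', h2, h1⟩) h0 one_pos
  refine ⟨w, fun N hN hwN => ?_⟩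
  have hle : StarAlgebra.adjoin ℂ (insert w (∅ : Set M)) ≤ N :=
    StarAlgebra.adjoin_le (by simpa using hwN)
  have key : ∀ y, f * y * (1 - f) ∈ N := by
    intro y
    refine hN _ fun ε hε => ?_
    obtain ⟨n, hn⟩ := hx y (ε / 2) (half_pos hε)
    obtain ⟨a, ha, hna⟩ := op_all hO n (half_pos hε)
    refine ⟨a, hle ha, ?_⟩
    have e1 := n2_triangle (τ := τ) (f * y * (1 - f)) (f * x n * (1 - f)) a
    have e2 : n2 τ (f * y * (1 - f) - f * x n * (1 - f)) ≤ n2 τ (y - x n) := by
      rw [← sub_mul, ← mul_sub]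
      exact (h.n2_mul_le_right _ _).trans
        ((mul_le_of_le_one_right (n2_nonneg _) (IsStarProjection.norm_le _ hg)).trans
          ((n2_mul_le_left _ _).trans
            (mul_le_of_le_one_left (n2_nonneg _) (IsStarProjection.norm_le _ hf))))
    linarith
  have hvN : v ∈ N := by
    have := key v
    rwa [hv2, hvg] at this
  rw [eq_top_iff]
  intro y _
  have k1 := key y
  have k2 : (1 - f) * y * f ∈ N := by
    have := star_mem (key (star y))
    rwa [star_mul, star_mul, star_star, hg.isSelfAdjoint.star_eq, hf.isSelfAdjoint.star_eq,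
      ← mul_assoc] at this
  have k3 : f * y * f ∈ N := by
    have := mul_mem (key (y * v)) (star_mem hvN)
    rwa [mul_assoc f, mul_assoc y, hvg, mul_assoc f, mul_assoc y, hv3, ← mul_assoc] at this
  have k4 : (1 - f) * y * (1 - f) ∈ N := by
    have := mul_mem (star_mem hvN) (key (v * y))
    rwa [← mul_assoc f, hv2, ← mul_assoc, ← mul_assoc, hv1] at this
  have e : y = f * y * (1 - f) + (1 - f) * y * f + f * y * f + (1 - f) * y * (1 - f) := by
    noncomm_ring
  rw [e]
  exact add_mem (add_mem (add_mem k1 k2) k3) k4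

end Crest.Agent.R95
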