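import Crest.Agent.R95.Basic

/-! Row 95: greedy exhaustion and comparison of projections. -/

set_option autoImplicit false
set_option linter.unusedSectionVars false

open Finset Filter Topology
open scoped ComplexOrder Classical InnerProductSpace

namespace Crest.Agent.R95

universe u

variable {M : Type u} [CStarAlgebra M] [PartialOrder M] [StarOrderedRing M] {τ : M →ₚ[ℂ] ℂ}

namespace Comp

/-- convergence in 2-norm -/
def Lim (τ : M →ₚ[ℂ] ℂ) (x : ℕ → M) (a : M) : Prop :=
  Tendsto (fun n => n2 τ (x n - a)) atTop (𝓝 0)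

theorem Lim.const (a : M) : Lim τ (fun _ => a) a := by simp [Lim]

theorem Lim.mul (h : TF τ) {x y : ℕ → M} {a b : M} {R : ℝ} (hx : Lim τ x a) (hy : Lim τ y b)
    (hR : ∀ n, ‖y n‖ ≤ R) : Lim τ (fun n => x n * y n) (a * b) := by
  have h1 : Tendsto (fun n => n2 τ (x n - a) * R + ‖a‖ * n2 τ (y n - b)) atTop (𝓝 0) := by
    simpa using (Tendsto.mul_const R hx).add (Tendsto.const_mul ‖a‖ hy)
  refine squeeze_zero (fun n => n2_nonneg _) (fun n => ?_) h1
  refine (h.n2_mul_sub_mul_le _ _ _ _).trans ?_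
  gcongr
  · exact n2_nonneg _
  · exact hR n

theorem Lim.star (h : TF τ) {x : ℕ → M} {a : M} (hx : Lim τ x a) :
    Lim τ (fun n => star (x n)) (star a) := by
  simpa only [Lim, ← star_sub, h.n2_star] using hx

theorem Lim.unique (h : TF τ) {x : ℕ → M} {a b : M} (ha : Lim τ x a) (hb : Lim τ x b) : a = b := by
  have h1 : Tendsto (fun n => n2 τ (x n - a) + n2 τ (x n - b)) atTop (𝓝 0) := by
    simpa using Tendsto.add ha hb
  refine h.eq_of_n2 (le_antisymm (ge_of_tendsto' h1 fun n => ?_) (n2_nonneg _))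
  have := n2_triangle (τ := τ) a (x n) b
  rwa [n2_sub_comm a (x n)] at this

theorem Lim.tr (h : TF τ) {x : ℕ → M} {a : M} (hx : Lim τ x a) :
    Tendsto (fun n => tr τ (x n)) atTop (𝓝 (tr τ a)) := by
  rw [tendsto_iff_norm_sub_tendsto_zero]
  refine squeeze_zero (fun n => norm_nonneg _) (fun n => ?_) hx
  rw [← tr_sub]
  exact h.abs_tr_le_n2 _

theorem Lim.shift {x : ℕ → M} {a : M} (hx : Lim τ x a) (k : ℕ) : Lim τ (fun n => x (n + k)) a :=
  (tendsto_add_atTop_iff_nat (f := fun n => n2 τ (x n - a)) k).2 hx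

/-- the star order -/
def sle (a b : M) : Prop := star a * b = star a * a ∧ b * star a = a * star a

theorem sle_refl (a : M) : sle a a := ⟨rfl, rfl⟩

theorem star_mul_eq_zero {a z : M} (h : a * star a * z = 0) : star a * z = 0 := by
  rw [← CStarRing.star_mul_self_eq_zero_iff, star_mul, star_star, mul_assoc, ← mul_assoc a, h,
    mul_zero]

theorem mul_star_eq_zero {a z : M} (h : z * (star a * a) = 0) : z * star a = 0 := by
  rw [← CStarRing.mul_star_self_eq_zero_iff, star_mul, star_star, ← mul_assoc, mul_assoc z, h,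
    zero_mul]

theorem sle.trans {a b c : M} (h1 : sle a b) (h2 : sle b c) : sle a c := by
  obtain ⟨h1, h1'⟩ := h1
  obtain ⟨h2, h2'⟩ := h2
  have e1 : a * star a = a * star b := by simpa using congrArg star h1'.symm
  have e2 : star a * a = star b * a := by simpa using congrArg star h1.symm
  constructor
  · have : star a * (c - b) = 0 := star_mul_eq_zero (by
      rw [e1, mul_assoc, mul_sub, h2, sub_self, mul_zero])
    rw [mul_sub, sub_eq_zero] at this
    rw [this, h1]
  · have : (c - b) * star a = 0 := mul_star_eq_zero (by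
      rw [e2, ← mul_assoc, sub_mul, h2', sub_self, zero_mul])
    rw [sub_mul, sub_eq_zero] at this
    rw [this, h1']

theorem sle.n2_sub {a b : M} (h : sle a b) : n2 τ (b - a) ^ 2 = n2 τ b ^ 2 - n2 τ a ^ 2 := by
  rw [n2_sub_comm, n2_sub_sq, h.1, ← n2_sq]; ring

theorem sle_add {a b : M} (h1 : star a * b = 0) (h2 : b * star a = 0) : sle a (a + b) :=
  ⟨by rw [mul_add, h1, add_zero], by rw [add_mul, h2, add_zero]⟩

theorem sle_lim (h : TF τ) {v a : M} {x : ℕ → M} (hx : Lim τ x a) (hR : ∀ n, ‖x n‖ ≤ 1)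
    (hv : ∀ n, sle v (x n)) : sle v a := by
  constructor
  · have := (Lim.const (τ := τ) (star v)).mul h hx hR
    simp only [(hv _).1] at this
    exact this.unique h (Lim.const _)
  · have := hx.mul h (Lim.const (τ := τ) (star v)) (fun _ => le_rfl)
    simp only [(hv _).2] at this
    exact this.unique h (Lim.const _)

/-- greedy exhaustion -/
theorem exists_max (h : TF τ) (X : Set M) (hX : X.Nonempty) (h1 : ∀ v ∈ X, ‖v‖ ≤ 1)
    (hc : ∀ (x : ℕ → M) (a : M), (∀ n, x n ∈ X) → Lim τ x a → a ∈ X) :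
    ∃ a ∈ X, ∀ w ∈ X, sle a w → w = a := by
  have hb : ∀ v ∈ X, n2 τ v ^ 2 ≤ 1 := fun v hv =>
    pow_le_one₀ (n2_nonneg _) ((h.n2_le_norm v).trans (h1 v hv))
  have step : ∀ (n : ℕ) (v : X), ∃ w : X, sle v.1 w.1 ∧
      ∀ z ∈ X, sle v.1 z → n2 τ z ^ 2 ≤ n2 τ w.1 ^ 2 + 1 / ((n : ℝ) + 1) := by
    intro n v
    set S : Set ℝ := {s | ∃ z ∈ X, sle v.1 z ∧ s = n2 τ z ^ 2}
    have hS : BddAbove S := ⟨1, by rintro _ ⟨z, hz, -, rfl⟩; exact hb z hz⟩
    have hne : S.Nonempty := ⟨_, v.1, v.2, sle_refl _, rfl⟩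
    obtain ⟨_, ⟨w, hw, hvw, rfl⟩, hlt⟩ := exists_lt_of_lt_csSup hne
      (show sSup S - 1 / ((n : ℝ) + 1) < sSup S by
        have : (0 : ℝ) < 1 / ((n : ℝ) + 1) := by positivity
        linarith)
    refine ⟨⟨w, hw⟩, hvw, fun z hz hvz => ?_⟩
    have := le_csSup hS ⟨z, hz, hvz, rfl⟩
    simp only
    linarith
  choose f hf1 hf2 using step
  obtain ⟨v0, hv0⟩ := hX
  let x : ℕ → X := fun n => Nat.rec ⟨v0, hv0⟩ (fun n v => f n v) n
  have hx : ∀ n, x (n + 1) = f n (x n) := fun n => rfl
  have hmono : ∀ m n, m ≤ n → sle (x m).1 (x n).1 := by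
    intro m n hmn
    induction n, hmn using Nat.le_induction with
    | base => exact sle_refl _
    | succ n _ ih => exact ih.trans (hx n ▸ hf1 n (x n))
  have hcau : ∀ ε > 0, ∃ N, ∀ m ≥ N, ∀ n ≥ N, n2 τ ((x m).1 - (x n).1) < ε := by
    intro ε hε
    obtain ⟨N, hN⟩ := exists_nat_one_div_lt (show 0 < ε ^ 2 by positivity)
    have key : ∀ m ≥ N + 1, ∀ n ≥ N + 1, m ≤ n → n2 τ ((x n).1 - (x m).1) < ε := by
      intro m hm n hn hmn
      have e1 := (hmono m n hmn).n2_sub (τ := τ)
      have e2 := hf2 N (x N) _ (x n).2 (hmono N n (by omega))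
      have e3 := (hmono (N + 1) m hm).n2_sub (τ := τ)
      rw [← hx] at e2
      have e4 := sq_nonneg (n2 τ ((x m).1 - (x (N + 1)).1))
      exact lt_of_pow_lt_pow_left₀ 2 hε.le (by linarith)
    refine ⟨N + 1, fun m hm n hn => ?_⟩
    rcases le_total m n with hmn | hmn
    · rw [n2_sub_comm]; exact key m hm n hn hmn
    · exact key n hn m hm hmn
  obtain ⟨a, -, ha⟩ := h.complete (fun n => (x n).1) 1 (fun n => h1 _ (x n).2) hcau
  have ha : Lim τ (fun n => (x n).1) a := ha
  have hle : ∀ n, sle (x n).1 a := fun n =>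
    sle_lim h (ha.shift n) (fun k => h1 _ (x _).2) fun k => hmono _ _ (by omega)
  refine ⟨a, hc _ a (fun n => (x n).2) ha, fun w hw haw => ?_⟩
  have key : n2 τ w ^ 2 ≤ n2 τ a ^ 2 := by
    refine le_of_forall_pos_le_add fun ε hε => ?_
    obtain ⟨N, hN⟩ := exists_nat_one_div_lt hε
    have e2 := hf2 N (x N) w hw ((hle N).trans haw)
    rw [← hx] at e2
    have e3 := (hle (N + 1)).n2_sub (τ := τ)
    have e4 := sq_nonneg (n2 τ (a - (x (N + 1)).1))
    linarith
  have e := haw.n2_sub (τ := τ)
  refine h.eq_of_n2 (pow_eq_zero_iff two_ne_zero |>.1 (le_antisymm (by linarith) (sq_nonneg _)))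

/-! ### partial isometries -/

theorem pi_mul {v : M} (hv : IsStarProjection (star v * v)) : v * (star v * v) = v := by
  have h1 := hv.isIdempotentElem.eq
  rw [← sub_eq_zero, ← CStarRing.star_mul_self_eq_zero_iff]
  simp only [star_sub, star_mul, star_star]
  have : (star v * v * star v - star v) * (v * (star v * v) - v) =
      star v * v * (star v * v) * (star v * v) - star v * v * (star v * v) -
        star v * v * (star v * v) + star v * v := by noncomm_ring
  rw [this, h1, h1]; abel

theorem pi_of_mul {v : M} (hv : v * (star v * v) = v) : IsStarProjection (star v * v) :=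
  ⟨by show star v * v * (star v * v) = star v * v; rw [mul_assoc, hv],
    IsSelfAdjoint.star_mul_self v⟩

theorem pi_star {v : M} (hv : IsStarProjection (star v * v)) : IsStarProjection (v * star v) :=
  ⟨by
    show v * star v * (v * star v) = v * star v
    rw [mul_assoc, ← mul_assoc (star v), ← mul_assoc, pi_mul hv],
    IsSelfAdjoint.mul_star_self v⟩

theorem pi_norm {v : M} (hv : IsStarProjection (star v * v)) : ‖v‖ ≤ 1 := by
  have := hv.norm_le
  rw [CStarRing.norm_star_mul_self] at this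
  nlinarith [norm_nonneg v]

theorem proj_tr_pos (h : TF τ) {p : M} (hp : IsStarProjection p) (h0 : p ≠ 0) : 0 < tr τ p :=
  lt_of_le_of_ne (tr_nonneg hp.nonneg) fun e => h0 (h.eq_zero_of_tr hp.nonneg e.symm)

/-- two nonzero projections of a factor are linked -/
theorem exists_link (h : TF τ) (ha : AvgStmt τ) {P : StarSubalgebra ℂ M} (hP : L2Closed τ P)
    (hI : Irr P P) {p q : M} (hqP : q ∈ P) (hp : IsStarProjection p) (hq : IsStarProjection q)
    (hp0 : p ≠ 0) (hq0 : q ≠ 0) : ∃ y ∈ P, q * y * p ≠ 0 := by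
  by_contra hcon
  push Not at hcon
  have h1 := proj_tr_pos h hp hp0
  have h2 := proj_tr_pos h hq hq0
  obtain ⟨v, hv, -, hle⟩ := ha P P hP hP le_rfl hI Unit (fun _ => q) (fun _ => -p) (fun _ => hqP)
    (tr τ q * tr τ p / 2) (by positivity)
  have e : star v * q * v * -p = 0 := by
    rw [mul_neg, mul_assoc (star v), mul_assoc (star v), hcon v hv, mul_zero, neg_zero]
  simp only [Finset.univ_unique, Finset.sum_singleton, e, tr_zero, map_neg,
    tau_eq_tr (τ := τ) hp.isSelfAdjoint, tau_eq_tr (τ := τ) hq.isSelfAdjoint, mul_neg,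
    Complex.neg_re, ← Complex.ofReal_mul, Complex.ofReal_re] at hle
  nlinarith [mul_pos h2 h1]

end Comp

open _root_.Crest.Agent.R95.Comp

theorem compStmt_of (h : TF τ) (ha : AvgStmt τ) (hp : PolarStmt τ) : CompStmt τ := by
  intro P hP hI p hpP q hqP hpp hqq htr
  obtain ⟨v, ⟨hvP, hv, hqv, hvp⟩, hmax⟩ := exists_max h
    {v | v ∈ P ∧ IsStarProjection (star v * v) ∧ q * v = v ∧ v * p = v}
    ⟨0, zero_mem _, by simp, by simp, by simp⟩ (fun v hv => pi_norm hv.2.1) (by
      intro x a hx ha
      have hn : ∀ n, ‖x n‖ ≤ 1 := fun n => pi_norm (hx n).2.1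
      refine ⟨hP.mem_of_tendsto (fun n => (hx n).1) ha, pi_of_mul ?_, ?_, ?_⟩
      · have := ha.mul h ((ha.star h).mul h ha hn) (fun n => (hx n).2.1.norm_le)
        simp only [pi_mul (hx _).2.1] at this
        exact this.unique h ha
      · have := (Lim.const (τ := τ) q).mul h ha hn
        simp only [(hx _).2.2.1] at this
        exact this.unique h ha
      · have := ha.mul h (Lim.const (τ := τ) p) (fun _ => le_rfl)
        simp only [(hx _).2.2.2] at this
        exact this.unique h ha)
  have hv' := pi_star hv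
  have hvv := pi_mul hv
  have hpv : p * star v = star v := by
    simpa [hpp.isSelfAdjoint.star_eq] using congrArg star hvp
  have hvq : star v * q = star v := by
    simpa [hqq.isSelfAdjoint.star_eq] using congrArg star hqv
  have hvv' : star v * v * star v = star v := by
    simpa using congrArg star hvv
  have hp' : IsStarProjection (p - star v * v) :=
    hv.sub_of_mul_eq_left hpp (by rw [mul_assoc, hvp])
  have hq' : IsStarProjection (q - v * star v) :=
    hv'.sub_of_mul_eq_right hqq (by rw [← mul_assoc, hqv])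
  have hp'P : p - star v * v ∈ P := sub_mem hpP (mul_mem (star_mem hvP) hvP)
  have hq'P : q - v * star v ∈ P := sub_mem hqP (mul_mem hvP (star_mem hvP))
  have htr' : tr τ (v * star v) = tr τ (star v * v) := h.tr_comm _ _
  have key : p - star v * v = 0 := by
    by_contra hp0
    have hq0 : q - v * star v ≠ 0 := by
      intro e
      have h1 := proj_tr_pos h hp' hp0
      have h2 : tr τ (q - v * star v) = 0 := by rw [e, tr_zero]
      rw [tr_sub] at h1 h2
      linarith
    set p' := p - star v * v with hp'def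
    set q' := q - v * star v with hq'def
    obtain ⟨y, hyP, hy⟩ := exists_link h ha hP hI hq'P hp' hq' hp0 hq0
    obtain ⟨w, hwP, hw, hwy, -, hr, hl⟩ := hp P hP _ (mul_mem (mul_mem hq'P hyP) hp'P)
    have e1 : w * p' = w := by
      have := hr (1 - p') (by rw [mul_assoc, hp'.mul_one_sub_self, mul_zero])
      rwa [mul_sub, mul_one, sub_eq_zero, eq_comm] at this
    have e2 : q' * w = w := by
      have := hl (1 - q') (by rw [← mul_assoc, ← mul_assoc, hq'.one_sub_mul_self, zero_mul, zero_mul])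
      rwa [sub_mul, one_mul, sub_eq_zero, eq_comm] at this
    have e3 : star v * w = 0 := by
      rw [← e2, ← mul_assoc, hq'def, mul_sub, hvq, ← mul_assoc, hvv', sub_self, zero_mul]
    have e4 : w * star v = 0 := by
      rw [← e1, mul_assoc, hp'def, sub_mul, hpv, hvv', sub_self, mul_zero]
    have e5 : star w * v = 0 := by simpa using congrArg star e3
    have e6 : v * star w = 0 := by simpa using congrArg star e4
    have e7 : w * p = w := by
      rw [← e1, mul_assoc, hp'def, sub_mul, hpp.isIdempotentElem.eq, mul_assoc (star v), hvp]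
    have e8 : q * w = w := by
      rw [← e2, ← mul_assoc, hq'def, mul_sub, hqq.isIdempotentElem.eq, ← mul_assoc q, hqv]
    have := hmax (v + w) ⟨add_mem hvP hwP, by
      rw [star_add, add_mul, mul_add, mul_add, e3, e5, add_zero, zero_add]
      exact hv.add hw (by rw [mul_assoc, ← mul_assoc v, e6, zero_mul, mul_zero]),
      by rw [mul_add, hqv, e8], by rw [add_mul, hvp, e7]⟩ (sle_add e3 e4)
    rw [add_eq_left] at this
    rw [this, zero_mul] at hwy
    exact hy hwy.symm
  refine ⟨v, hvP, (sub_eq_zero.1 key).symm, hqv, fun e => ?_⟩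
  refine (sub_eq_zero.1 (h.eq_zero_of_tr hq'.nonneg ?_)).symm
  rw [tr_sub, htr', ← sub_eq_zero.1 key, e, sub_self]

end Crest.Agent.R95
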