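import Crest.Agent.R95.Conc1

/-! Row 95: the concrete step, from the abstract statements to S0125 and S0126. -/

set_option autoImplicit false
set_option linter.unusedSectionVars false

open Filter Topology
open scoped InnerProductSpace ComplexOrder

namespace Crest.Agent.R95

universe u

namespace Conc

variable {H : Type u} [NormedAddCommGroup H] [InnerProductSpace ℂ H] [CompleteSpace H]

section Abstract

variable {A : Type u} [CStarAlgebra A] [PartialOrder A] [StarOrderedRing A]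

theorem exists_resolvent {a : A} (ha : IsSelfAdjoint a) :
    ∃ r : A, r * (a + Complex.I • 1) = 1 ∧ (a + Complex.I • 1) * r = 1 ∧ ‖r‖ ≤ 1 := by
  have hn : IsStarNormal a := ha.isStarNormal
  have hsp : ∀ z ∈ spectrum ℂ a, 1 ≤ ‖z + Complex.I‖ := by
    intro z hz
    have h1 : z.im = 0 := ha.im_eq_zero_of_mem_spectrum hz
    have h2 := Complex.abs_im_le_norm (z + Complex.I)
    simpa [h1] using h2
  have hne : ∀ z ∈ spectrum ℂ a, z + Complex.I ≠ 0 := by
    intro z hz h0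
    have := hsp z hz
    rw [h0, norm_zero] at this
    exact absurd this (by norm_num)
  have hc : ContinuousOn (fun z : ℂ => (z + Complex.I)⁻¹) (spectrum ℂ a) :=
    ContinuousOn.inv₀ (by fun_prop) hne
  have e : a + Complex.I • 1 = cfc (fun z : ℂ => z + Complex.I) a := by
    rw [cfc_add_const .., cfc_id' ℂ a, Algebra.algebraMap_eq_smul_one]
  refine ⟨cfc (fun z : ℂ => (z + Complex.I)⁻¹) a, ?_, ?_, ?_⟩
  · rw [e, ← cfc_mul _ _ a hc, ← cfc_one ℂ a]
    exact cfc_congr fun z hz => inv_mul_cancel₀ (hne z hz)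
  · rw [e, ← cfc_mul _ _ a (by fun_prop) hc, ← cfc_one ℂ a]
    exact cfc_congr fun z hz => mul_inv_cancel₀ (hne z hz)
  · refine norm_cfc_le zero_le_one fun z hz => ?_
    rw [norm_inv]
    exact inv_le_one_of_one_le₀ (hsp z hz)

/-- `π` identifies `A` with `M` -/
structure Rep (M : VonNeumannAlgebra H) (π : A →⋆ₐ[ℂ] (H →L[ℂ] H)) : Prop where
  norm_eq : ∀ x, ‖π x‖ = ‖x‖
  mem : ∀ x, π x ∈ M
  surj : ∀ y ∈ M, ∃ x, π x = y

theorem Rep.inj {M : VonNeumannAlgebra H} {π : A →⋆ₐ[ℂ] (H →L[ℂ] H)} (h : Rep M π) :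
    Function.Injective π := by
  intro x y hxy
  rw [← sub_eq_zero, ← norm_eq_zero, ← h.norm_eq, map_sub, hxy, sub_self, norm_zero]

/-- the vector state -/
noncomputable def tau (π : A →⋆ₐ[ℂ] (H →L[ℂ] H)) (Ξ : KK H) : A →ₚ[ℂ] ℂ :=
  PositiveLinearMap.mk₀
    { toFun := fun x => ⟪Ξ, amp (π x) Ξ⟫_ℂ
      map_add' := fun x y => by rw [map_add, amp_add, inner_add_right]
      map_smul' := fun c x => by rw [map_smul, amp_smul, inner_smul_right]; rfl }
    fun x hx => by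
      obtain ⟨c, rfl⟩ := CStarAlgebra.nonneg_iff_eq_star_mul_self.1 hx
      change 0 ≤ ⟪Ξ, amp (π (star c * c)) Ξ⟫_ℂ
      rw [map_mul, amp_mul, inner_amp, map_star, star_star, inner_self_eq_norm_sq_to_K]
      norm_cast
      positivity

theorem tau_apply (π : A →⋆ₐ[ℂ] (H →L[ℂ] H)) (Ξ : KK H) (x : A) :
    tau π Ξ x = ⟪Ξ, amp (π x) Ξ⟫_ℂ := rfl

theorem n2_tau (π : A →⋆ₐ[ℂ] (H →L[ℂ] H)) (Ξ : KK H) (x : A) :
    n2 (tau π Ξ) x = ‖amp (π x) Ξ‖ := by
  rw [← sq_eq_sq₀ (n2_nonneg _) (norm_nonneg _), n2_sq, tr, tau_apply, map_mul, amp_mul,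
    inner_amp, map_star, star_star, inner_self_eq_norm_sq_to_K]
  norm_cast

variable {M : VonNeumannAlgebra H} {π : A →⋆ₐ[ℂ] (H →L[ℂ] H)} {Ξ : KK H}

theorem n2_sub_tau (x y : A) :
    n2 (tau π Ξ) (x - y) = dist (amp (π x) Ξ) (amp (π y) Ξ) := by
  rw [n2_tau, map_sub, amp_sub, dist_eq_norm]

theorem tf (h : Rep M π) (hξ : Crest.OpAlg.IsFaithfulTracialVectorState M fun n => Ξ n) :
    TF (tau π Ξ) where
  one := by
    rw [tau_apply, map_one, amp_one, inner_self_eq_norm_sq_to_K]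
    have := (hasSum_normSq Ξ).unique hξ.1
    norm_cast
    rw [this]
    rfl
  tracial x y := by
    rw [tau_apply, tau_apply, ← vectorState_eq, ← vectorState_eq, map_mul, map_mul]
    exact hξ.2.1 _ (h.mem x) _ (h.mem y)
  faithful x hx := by
    rw [n2_tau, norm_eq_zero] at hx
    apply h.inj
    rw [map_zero]
    refine hξ.2.2 _ (h.mem x) fun n => ?_
    rw [← amp_apply, hx]
    rfl
  complete x R hR hc := by
    have hc' : CauchySeq fun n => amp (π (x n)) Ξ := by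
      rw [Metric.cauchySeq_iff]
      simpa only [n2_sub_tau] using hc
    obtain ⟨a, ha, hs, hl⟩ := exists_strong_limit M Ξ hξ.2.2 (fun n => π (x n)) R
      (fun n => h.mem _) (fun n => by rw [h.norm_eq]; exact hR n) hc'
    obtain ⟨a', rfl⟩ := h.surj a (mem_of_strong (fun n => h.mem _) hs)
    refine ⟨a', by rwa [← h.norm_eq], ?_⟩
    simp only [n2_sub_tau]
    exact tendsto_iff_dist_tendsto_zero.1 hl

theorem sep [TopologicalSpace.SeparableSpace H] : Sep (tau π Ξ) := by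
  obtain ⟨t, hts, htc, hst⟩ := (TopologicalSpace.IsSeparable.of_separableSpace
    (Set.range fun x : A => amp (π x) Ξ)).exists_countable_dense_subset
  have hne : t.Nonempty := by
    rw [← closure_nonempty_iff]
    exact ⟨_, hst ⟨0, rfl⟩⟩
  obtain ⟨g, rfl⟩ := htc.exists_eq_range hne
  choose x hx using fun n => hts ⟨n, rfl⟩
  refine ⟨x, fun y ε hε => ?_⟩
  obtain ⟨_, ⟨n, rfl⟩, hd⟩ := Metric.mem_closure_iff.1 (hst ⟨y, rfl⟩) ε hε
  refine ⟨n, ?_⟩
  rw [n2_sub_tau]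
  simp only at hx hd
  rwa [hx n]

theorem mem_of_bdd (h : Rep M π) (hξ : Crest.OpAlg.IsFaithfulTracialVectorState M fun n => Ξ n)
    (N : VonNeumannAlgebra H) (x : ℕ → A) (a : A) (R : ℝ) (hx : ∀ n, π (x n) ∈ N)
    (hR : ∀ n, ‖x n‖ ≤ R) (hl : Tendsto (fun n => n2 (tau π Ξ) (x n - a)) atTop (𝓝 0)) :
    π a ∈ N := by
  simp only [n2_sub_tau] at hl
  have hl' := tendsto_iff_dist_tendsto_zero.2 hl
  obtain ⟨b, -, hs, hb⟩ := exists_strong_limit M Ξ hξ.2.2 (fun n => π (x n)) R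
    (fun n => h.mem _) (fun n => by rw [h.norm_eq]; exact hR n) hl'.cauchySeq
  have hbM : b ∈ M := mem_of_strong (fun n => h.mem _) hs
  have e := tendsto_nhds_unique hl' hb
  have : π a - b = 0 := hξ.2.2 _ (sub_mem (h.mem a) hbM) fun n => by
    rw [← amp_apply, amp_sub, e, sub_self]
    rfl
  rw [sub_eq_zero.1 this]
  exact mem_of_strong hx hs

theorem vN_smul_mem {N : VonNeumannAlgebra H} {x : H →L[ℂ] H} (hx : x ∈ N) (c : ℂ) :
    c • x ∈ N := N.toStarSubalgebra.smul_mem hx c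

theorem l2Closed_comap (h : Rep M π)
    (hξ : Crest.OpAlg.IsFaithfulTracialVectorState M fun n => Ξ n) (N : VonNeumannAlgebra H) :
    L2Closed (tau π Ξ) (N.toStarSubalgebra.comap π) := by
  have hτ := tf h hξ
  set N' := N.toStarSubalgebra.comap π with hN'
  have hmem : ∀ x, x ∈ N' ↔ π x ∈ N := fun x => Iff.rfl
  have hinv : ∀ b r : A, b ∈ N' → r * b = 1 → b * r = 1 → r ∈ N' := fun b r hb h1 h2 =>
    (hmem r).2 (inv_mem ((hmem b).1 hb) (by rw [← map_mul, h1, map_one])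
      (by rw [← map_mul, h2, map_one]))
  have key : ∀ x : A, IsSelfAdjoint x → (∀ ε > 0, ∃ a ∈ N', n2 (tau π Ξ) (x - a) < ε) →
      x ∈ N' := by
    intro x hx hap
    have hap' : ∀ n : ℕ, ∃ a ∈ N', IsSelfAdjoint a ∧
        n2 (tau π Ξ) (x - a) < 1 / ((n : ℝ) + 1) := by
      intro n
      obtain ⟨a, ha, hd⟩ := hap (1 / ((n : ℝ) + 1)) (by positivity)
      refine ⟨(1 / 2 : ℂ) • (a + star a), N'.smul_mem (add_mem ha (star_mem ha)) _, ?_, ?_⟩
      · rw [IsSelfAdjoint, star_smul, star_add, star_star, add_comm]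
        simp
      · have e : x - (1 / 2 : ℂ) • (a + star a) = (1 / 2 : ℂ) • ((x - a) + star (x - a)) := by
          rw [star_sub, hx.star_eq]
          module
        rw [e, n2_smul]
        have h1 := n2_add_le (τ := tau π Ξ) (x - a) (star (x - a))
        rw [hτ.n2_star] at h1
        have h2 : ‖(1 / 2 : ℂ)‖ = 1 / 2 := by simp
        rw [h2]
        linarith
    choose a ha hsa hd using hap'
    choose r hr1 hr2 hr3 using fun n => exists_resolvent (hsa n)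
    obtain ⟨s, hs1, hs2, hs3⟩ := exists_resolvent hx
    have hrN : ∀ n, r n ∈ N' := fun n =>
      hinv _ _ (add_mem (ha n) (N'.smul_mem (one_mem _) _)) (hr1 n) (hr2 n)
    have hsN : s ∈ N' := by
      refine (hmem s).2 (mem_of_bdd h hξ N r s 1 (fun n => (hmem _).1 (hrN n)) hr3 ?_)
      refine squeeze_zero (fun n => n2_nonneg _) (fun n => ?_)
        tendsto_one_div_add_atTop_nhds_zero_nat
      have e : r n - s = r n * (x - a n) * s := by
        have : x - a n = (x + Complex.I • 1) - (a n + Complex.I • 1) := by abel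
        rw [this, mul_sub, sub_mul, hr1 n, mul_assoc, hs2, mul_one, one_mul]
      rw [e]
      have h1 := hτ.n2_mul_le_right (r n * (x - a n)) s
      have h2 := n2_mul_le_left (τ := tau π Ξ) (r n) (x - a n)
      have h3 := n2_nonneg (τ := tau π Ξ) (x - a n)
      have h4 := n2_nonneg (τ := tau π Ξ) (r n * (x - a n))
      have h5 := hd n
      have h6 := hr3 n
      nlinarith
    have h1 : x + Complex.I • 1 ∈ N' := hinv _ _ hsN hs2 hs1
    have h2 := sub_mem h1 (N'.smul_mem (one_mem _) Complex.I)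
    rwa [add_sub_cancel_right] at h2
  intro x hap
  have h1 : x + star x ∈ N' := by
    refine key _ (IsSelfAdjoint.add_star_self x) fun ε hε => ?_
    obtain ⟨a, ha, hd⟩ := hap (ε / 2) (by positivity)
    refine ⟨a + star a, add_mem ha (star_mem ha), ?_⟩
    have e : x + star x - (a + star a) = (x - a) + star (x - a) := by rw [star_sub]; abel
    have h1 := n2_add_le (τ := tau π Ξ) (x - a) (star (x - a))
    rw [hτ.n2_star] at h1
    rw [e]
    linarith
  have h2 : Complex.I • (x - star x) ∈ N' := by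
    refine key _ ?_ fun ε hε => ?_
    · rw [IsSelfAdjoint, star_smul, star_sub, star_star, Complex.star_def, Complex.conj_I,
        neg_smul, ← smul_neg, neg_sub]
    obtain ⟨a, ha, hd⟩ := hap (ε / 2) (by positivity)
    refine ⟨Complex.I • (a - star a), N'.smul_mem (sub_mem ha (star_mem ha)) _, ?_⟩
    have e : Complex.I • (x - star x) - Complex.I • (a - star a) =
        Complex.I • ((x - a) - star (x - a)) := by rw [star_sub]; module
    have h1 := n2_sub_le (τ := tau π Ξ) (x - a) (star (x - a))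
    rw [hτ.n2_star] at h1
    rw [e, n2_smul, Complex.norm_I]
    linarith
  have h3 := N'.smul_mem (sub_mem h1 (N'.smul_mem h2 Complex.I)) (1 / 2 : ℂ)
  have e : (1 / 2 : ℂ) • (x + star x - Complex.I • Complex.I • (x - star x)) = x := by
    rw [smul_smul Complex.I, Complex.I_mul_I]
    module
  rwa [e] at h3

theorem l2Dense_of_gen (h : Rep M π) (B : StarSubalgebra ℂ A)
    (hB : ∀ N : VonNeumannAlgebra H, (∀ b ∈ B, π b ∈ N) → M ≤ N) : L2Dense (tau π Ξ) B := by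
  intro x ε hε
  have hx : π x ∈ gen (B.map π) := 
    hB _ (fun b hb => le_gen (StarSubalgebra.mem_map.2 ⟨b, hb, rfl⟩)) (h.mem x)
  obtain ⟨_, ⟨b, hb, rfl⟩, hd⟩ := bicomm _ hx Ξ hε
  exact ⟨b, hb, by rw [n2_tau, map_sub]; exact hd⟩

theorem le_of_l2Dense (h : Rep M π)
    (hξ : Crest.OpAlg.IsFaithfulTracialVectorState M fun n => Ξ n) (B : StarSubalgebra ℂ A)
    (hB : L2Dense (tau π Ξ) B) (N : VonNeumannAlgebra H) (hN : ∀ b ∈ B, π b ∈ N) : M ≤ N := by
  intro y hy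
  obtain ⟨x, rfl⟩ := h.surj y hy
  exact l2Closed_comap h hξ N x fun ε hε => (hB x ε hε).imp fun b hb => ⟨hN b hb.1, hb.2⟩

theorem not_fd (h : Rep M π) {P : VonNeumannAlgebra H} (hPM : P ≤ M)
    (hP : ¬ FiniteDimensional ℂ P.toStarSubalgebra) :
    ¬ FiniteDimensional ℂ (P.toStarSubalgebra.comap π) := by
  intro hfd
  apply hP
  let f : P.toStarSubalgebra.comap π →ₗ[ℂ] P.toStarSubalgebra :=
    { toFun := fun x => ⟨π x, x.2⟩
      map_add' := fun x y => Subtype.ext (map_add π _ _)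
      map_smul' := fun c x => Subtype.ext (map_smul π _ _) }
  refine Module.Finite.of_surjective f fun y => ?_
  obtain ⟨x, hx⟩ := h.surj y (hPM y.2)
  exact ⟨⟨x, by change π x ∈ P.toStarSubalgebra; rw [hx]; exact y.2⟩, Subtype.ext hx⟩

theorem irr_comap (h : Rep M π) {P : VonNeumannAlgebra H} (hPM : P ≤ M)
    (hPM' : ∀ x ∈ M, (∀ y ∈ P, x * y = y * x) → ∃ c : ℂ, x = c • (1 : H →L[ℂ] H)) :
    Irr (P.toStarSubalgebra.comap π) ⊤ := by
  intro y _ hy
  obtain ⟨c, hc⟩ := hPM' (π y) (h.mem y) fun z hz => by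
    obtain ⟨d, rfl⟩ := h.surj z (hPM hz)
    rw [← map_mul, ← map_mul, hy d hz]
  exact ⟨c, h.inj (by rw [hc, map_smul, map_one])⟩

theorem unitary_iff (h : Rep M π) (x : A) : π x ∈ unitary (H →L[ℂ] H) ↔ x ∈ unitary A := by
  rw [Unitary.mem_iff, Unitary.mem_iff, ← map_star, ← map_mul, ← map_mul, ← map_one π,
    h.inj.eq_iff, h.inj.eq_iff]

theorem traceNormSq_tau (x : A) :
    Crest.OpAlg.traceNormSq (fun n => Ξ n) (π x) = n2 (tau π Ξ) x ^ 2 := by
  rw [traceNormSq_eq, n2_tau]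

theorem main0125 (h : Rep M π) (hξ : Crest.OpAlg.IsFaithfulTracialVectorState M fun n => Ξ n)
    (hM : Crest.OpAlg.IsTypeIIOneFactor M) (hB : BStmt (tau π Ξ)) :
    ∃ x ∈ M, ∀ N : VonNeumannAlgebra H, x ∈ N → M ≤ N := by
  have htop : M.toStarSubalgebra.comap π = ⊤ := eq_top_iff.2 fun x _ => h.mem x
  obtain ⟨w, hw⟩ := hB (htop ▸ irr_comap h le_rfl hM.1) (htop ▸ not_fd h le_rfl hM.2.1)
  refine ⟨π w, h.mem w, fun N hN y hy => ?_⟩
  obtain ⟨x, rfl⟩ := h.surj y hy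
  have : x ∈ N.toStarSubalgebra.comap π := by
    rw [hw _ (l2Closed_comap h hξ N) hN]; trivial
  exact this

theorem adjoin_le_iff (h : Rep M π) {P : VonNeumannAlgebra H} (hPM : P ≤ M) (u : A)
    (N : VonNeumannAlgebra H) :
    (∀ b ∈ StarAlgebra.adjoin ℂ (insert u (P.toStarSubalgebra.comap π : Set A)), π b ∈ N) ↔
      P ≤ N ∧ π u ∈ N := by
  constructor
  · intro hN
    refine ⟨fun y hy => ?_, hN u (StarAlgebra.subset_adjoin _ _ (Set.mem_insert _ _))⟩
    obtain ⟨x, rfl⟩ := h.surj y (hPM hy)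
    exact hN x (StarAlgebra.subset_adjoin _ _ (Set.mem_insert_of_mem _ hy))
  · rintro ⟨h1, h2⟩
    have : StarAlgebra.adjoin ℂ (insert u (P.toStarSubalgebra.comap π : Set A)) ≤
        N.toStarSubalgebra.comap π := by
      refine StarAlgebra.adjoin_le ?_
      rintro x (rfl | hx)
      · exact h2
      · exact h1 hx
    exact fun b hb => this hb

theorem gen_iff (h : Rep M π) (hξ : Crest.OpAlg.IsFaithfulTracialVectorState M fun n => Ξ n)
    {P : VonNeumannAlgebra H} (hPM : P ≤ M) (u : A) :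
    (∀ N : VonNeumannAlgebra H, P ≤ N → π u ∈ N → M ≤ N) ↔
      L2Dense (tau π Ξ) (StarAlgebra.adjoin ℂ (insert u (P.toStarSubalgebra.comap π : Set A))) :=
  ⟨fun hN => l2Dense_of_gen h _ fun N hb =>
      hN N ((adjoin_le_iff h hPM u N).1 hb).1 ((adjoin_le_iff h hPM u N).1 hb).2,
    fun hd N h1 h2 => le_of_l2Dense h hξ _ hd N ((adjoin_le_iff h hPM u N).2 ⟨h1, h2⟩)⟩

theorem main0126 (h : Rep M π) (hξ : Crest.OpAlg.IsFaithfulTracialVectorState M fun n => Ξ n)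
    {P : VonNeumannAlgebra H} (hPM : P ≤ M) (hP : Crest.OpAlg.IsTypeIIOneFactor P)
    (hPM' : ∀ x ∈ M, (∀ y ∈ P, x * y = y * x) → ∃ c : ℂ, x = c • (1 : H →L[ℂ] H))
    (hs : Sep (tau π Ξ)) (hC : ContStmt (tau π Ξ)) (hA : AStmt (tau π Ξ)) :
    (∃ O : ℕ → Set (H →L[ℂ] H),
      (∀ k : ℕ, ∀ u ∈ M, u ∈ unitary (H →L[ℂ] H) → u ∈ O k → ∃ δ : ℝ, 0 < δ ∧
        ∀ v ∈ M, v ∈ unitary (H →L[ℂ] H) →
          Crest.OpAlg.traceNormSq (fun n => Ξ n) (v - u) < δ → v ∈ O k) ∧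
      (∀ u ∈ M, u ∈ unitary (H →L[ℂ] H) →
        ((∀ N : VonNeumannAlgebra H, P ≤ N → u ∈ N → M ≤ N) ↔ ∀ k : ℕ, u ∈ O k))) ∧
    (∀ u ∈ M, u ∈ unitary (H →L[ℂ] H) → ∀ ε : ℝ, 0 < ε →
      ∃ v ∈ M, v ∈ unitary (H →L[ℂ] H) ∧ (∀ N : VonNeumannAlgebra H, P ≤ N → v ∈ N → M ≤ N) ∧
        Crest.OpAlg.traceNormSq (fun n => Ξ n) (v - u) < ε) := by
  have hτ := tf h hξ
  have := hτ.nontrivial
  obtain ⟨x, hx⟩ := hs
  refine ⟨⟨fun k => {u | ∃ u' : A, π u' = u ∧
    ∃ a ∈ StarAlgebra.adjoin ℂ (insert u' (P.toStarSubalgebra.comap π : Set A)),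
      n2 (tau π Ξ) (x k.unpair.1 - a) < 1 / ((k.unpair.2 : ℝ) + 1)}, ?_, ?_⟩, ?_⟩
  · rintro k _ - - ⟨u, rfl, a, ha, hd⟩
    obtain ⟨δ, hδ, hv⟩ := hC _ u 1 a ha _ (sub_pos.2 hd)
    refine ⟨δ ^ 2, by positivity, fun v hvM hvu hlt => ?_⟩
    obtain ⟨v, rfl⟩ := h.surj v hvM
    rw [← map_sub, traceNormSq_tau, sq_lt_sq₀ (n2_nonneg _) hδ.le] at hlt
    obtain ⟨a', ha', hd'⟩ := hv v (CStarRing.norm_of_mem_unitary ((unitary_iff h v).1 hvu)).le hlt
    refine ⟨v, rfl, a', ha', ?_⟩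
    have h1 := n2_triangle (τ := tau π Ξ) (x k.unpair.1) a a'
    rw [n2_sub_comm] at hd'
    linarith
  · intro u huM _
    obtain ⟨u, rfl⟩ := h.surj u huM
    rw [gen_iff h hξ hPM]
    constructor
    · intro hd k
      exact ⟨u, rfl, hd _ _ (by positivity)⟩
    · intro hk y ε hε
      obtain ⟨n, hn⟩ := hx y (ε / 2) (by positivity)
      obtain ⟨m, hm⟩ := exists_nat_one_div_lt (half_pos hε)
      obtain ⟨u', hu', a, ha, hd⟩ := hk (Nat.pair n m)
      rw [h.inj hu'] at ha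
      rw [Nat.unpair_pair] at hd
      refine ⟨a, ha, ?_⟩
      have h1 := n2_triangle (τ := tau π Ξ) y (x n) a
      simp only at hd
      linarith
  · intro u huM hu ε hε
    obtain ⟨u, rfl⟩ := h.surj u huM
    obtain ⟨v, hv, hd, hden⟩ := hA _ (l2Closed_comap h hξ P) (irr_comap h hPM hPM')
      (not_fd h hPM hP.2.1) u ((unitary_iff h u).1 hu) (√ε) (Real.sqrt_pos.2 hε)
    refine ⟨π v, h.mem v, (unitary_iff h v).2 hv, (gen_iff h hξ hPM v).2 hden, ?_⟩
    rw [← map_sub, traceNormSq_tau]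
    exact (Real.lt_sqrt (n2_nonneg _)).1 hd

end Abstract

/-- a von Neumann algebra as an abstract C⋆-algebra -/
def Alg (M : VonNeumannAlgebra H) : Type u := M.toStarSubalgebra

instance isClosed_vN (M : VonNeumannAlgebra H) :
    IsClosed (M.toStarSubalgebra : Set (H →L[ℂ] H)) := by
  rw [VonNeumannAlgebra.coe_toStarSubalgebra, ← M.centralizer_centralizer]
  exact Set.isClosed_centralizer _

noncomputable instance (M : VonNeumannAlgebra H) : CStarAlgebra (Alg M) :=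
  StarSubalgebra.cstarAlgebra M.toStarSubalgebra

noncomputable instance (M : VonNeumannAlgebra H) : PartialOrder (Alg M) :=
  CStarAlgebra.spectralOrder _

instance (M : VonNeumannAlgebra H) : StarOrderedRing (Alg M) :=
  CStarAlgebra.spectralOrderedRing _

/-- the inclusion -/
noncomputable def incl (M : VonNeumannAlgebra H) : Alg M →⋆ₐ[ℂ] (H →L[ℂ] H) :=
  M.toStarSubalgebra.subtype

theorem rep_incl (M : VonNeumannAlgebra H) : Rep M (incl M) where
  norm_eq _ := rfl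
  mem x := x.2
  surj y hy := ⟨⟨y, hy⟩, rfl⟩

end Conc

open Conc

theorem final0125 (hall : AllStmt.{u})
    (H : Type u) [NormedAddCommGroup H] [InnerProductSpace ℂ H] [CompleteSpace H]
    [TopologicalSpace.SeparableSpace H] (M : VonNeumannAlgebra H)
    (hM : Crest.OpAlg.IsTypeIIOneFactor M) :
    ∃ x ∈ M, ∀ N : VonNeumannAlgebra H, x ∈ N → M ≤ N := by
  obtain ⟨ξ, hξ⟩ := hM.2.2
  have hξ' : Crest.OpAlg.IsFaithfulTracialVectorState M fun n => vec ξ hξ.1.summable n := hξ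
  exact main0125 (rep_incl M) hξ' hM (hall _ _ (tf (rep_incl M) hξ') sep).2.2

theorem final0126 (hall : AllStmt.{u})
    (H : Type u) [NormedAddCommGroup H] [InnerProductSpace ℂ H] [CompleteSpace H]
    [TopologicalSpace.SeparableSpace H] (P M : VonNeumannAlgebra H) (hPM : P ≤ M)
    (hP : Crest.OpAlg.IsTypeIIOneFactor P) (_hM : Crest.OpAlg.IsTypeIIOneFactor M)
    (hPM' : ∀ x ∈ M, (∀ y ∈ P, x * y = y * x) → ∃ c : ℂ, x = c • (1 : H →L[ℂ] H))
    (ξ : ℕ → H) (hξ : Crest.OpAlg.IsFaithfulTracialVectorState M ξ) :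
    (∃ O : ℕ → Set (H →L[ℂ] H),
      (∀ k : ℕ, ∀ u ∈ M, u ∈ unitary (H →L[ℂ] H) → u ∈ O k → ∃ δ : ℝ, 0 < δ ∧
        ∀ v ∈ M, v ∈ unitary (H →L[ℂ] H) → Crest.OpAlg.traceNormSq ξ (v - u) < δ → v ∈ O k) ∧
      (∀ u ∈ M, u ∈ unitary (H →L[ℂ] H) →
        ((∀ N : VonNeumannAlgebra H, P ≤ N → u ∈ N → M ≤ N) ↔ ∀ k : ℕ, u ∈ O k))) ∧
    (∀ u ∈ M, u ∈ unitary (H →L[ℂ] H) → ∀ ε : ℝ, 0 < ε →
      ∃ v ∈ M, v ∈ unitary (H →L[ℂ] H) ∧ (∀ N : VonNeumannAlgebra H, P ≤ N → v ∈ N → M ≤ N) ∧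
        Crest.OpAlg.traceNormSq ξ (v - u) < ε) := by
  have hξ' : Crest.OpAlg.IsFaithfulTracialVectorState M fun n => vec ξ hξ.1.summable n := hξ
  have hall' := hall _ _ (tf (rep_incl M) hξ') sep
  exact main0126 (rep_incl M) hξ' hPM hP hPM' sep hall'.1 hall'.2.1

end Crest.Agent.R95
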