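import Crest.Agent.R95.Basic

set_option autoImplicit false
set_option linter.unusedSectionVars false

open Finset Filter Topology
open scoped ComplexOrder Classical InnerProductSpace

namespace Crest.Agent.R95

universe u

variable {M : Type u} [CStarAlgebra M] [PartialOrder M] [StarOrderedRing M] {τ : M →ₚ[ℂ] ℂ}

theorem contStmt (h : TF τ) : ContStmt τ := by
  intro D u R a ha
  suffices H : ∃ Ra : ℝ, 0 ≤ Ra ∧ ∀ η > 0, ∃ δ > 0, ∀ v : M, ‖v‖ ≤ R → n2 τ (v - u) < δ →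
      ∃ a' ∈ StarAlgebra.adjoin ℂ (insert v D), ‖a'‖ ≤ Ra ∧ n2 τ (a' - a) < η by
    obtain ⟨Ra, -, H⟩ := H
    intro η hη
    obtain ⟨δ, hδ, H⟩ := H η hη
    exact ⟨δ, hδ, fun v hv hd => (H v hv hd).imp fun a' h' => ⟨h'.1, h'.2.2⟩⟩
  induction ha using StarAlgebra.adjoin_induction with
  | mem x hx =>
      rcases hx with rfl | hx
      · exact ⟨|R|, abs_nonneg _, fun η hη => ⟨η, hη, fun v hv hd =>
          ⟨v, StarAlgebra.subset_adjoin ℂ _ (Set.mem_insert _ _), hv.trans (le_abs_self _), hd⟩⟩⟩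
      · exact ⟨‖x‖, norm_nonneg _, fun η hη => ⟨1, one_pos, fun v _ _ =>
          ⟨x, StarAlgebra.subset_adjoin ℂ _ (Set.mem_insert_of_mem _ hx), le_rfl, by simpa⟩⟩⟩
  | algebraMap c =>
      exact ⟨‖algebraMap ℂ M c‖, norm_nonneg _, fun η hη => ⟨1, one_pos, fun v _ _ =>
        ⟨_, StarSubalgebra.algebraMap_mem _ c, le_rfl, by simpa⟩⟩⟩
  | add x y _ _ hx hy =>
      obtain ⟨Rx, hRx, hx⟩ := hx
      obtain ⟨Ry, hRy, hy⟩ := hy
      refine ⟨Rx + Ry, by positivity, fun η hη => ?_⟩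
      obtain ⟨δ₁, h1, hx⟩ := hx (η / 2) (by positivity)
      obtain ⟨δ₂, h2, hy⟩ := hy (η / 2) (by positivity)
      refine ⟨min δ₁ δ₂, lt_min h1 h2, fun v hv hd => ?_⟩
      obtain ⟨x', m1, n1, d1⟩ := hx v hv (hd.trans_le (min_le_left _ _))
      obtain ⟨y', m2, n2', d2⟩ := hy v hv (hd.trans_le (min_le_right _ _))
      refine ⟨x' + y', add_mem m1 m2, (norm_add_le _ _).trans (add_le_add n1 n2'), ?_⟩
      have := n2_add_le (τ := τ) (x' - x) (y' - y)
      rw [show x' + y' - (x + y) = (x' - x) + (y' - y) by abel]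
      linarith
  | mul x y _ _ hx hy =>
      obtain ⟨Rx, hRx, hx⟩ := hx
      obtain ⟨Ry, hRy, hy⟩ := hy
      refine ⟨Rx * Ry, by positivity, fun η hη => ?_⟩
      obtain ⟨δ₁, h1, hx⟩ := hx (η / (2 * (Ry + 1))) (by positivity)
      obtain ⟨δ₂, h2, hy⟩ := hy (η / (2 * (‖x‖ + 1))) (by positivity)
      refine ⟨min δ₁ δ₂, lt_min h1 h2, fun v hv hd => ?_⟩
      obtain ⟨x', m1, n1, d1⟩ := hx v hv (hd.trans_le (min_le_left _ _))
      obtain ⟨y', m2, n2', d2⟩ := hy v hv (hd.trans_le (min_le_right _ _))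
      refine ⟨x' * y', mul_mem m1 m2, (norm_mul_le _ _).trans (by gcongr), ?_⟩
      have h3 := h.n2_mul_sub_mul_le x' y' x y
      rw [lt_div_iff₀ (by positivity)] at d1 d2
      have h4 := n2_nonneg (τ := τ) (x' - x)
      have h5 := n2_nonneg (τ := τ) (y' - y)
      have h6 : n2 τ (x' - x) * ‖y'‖ ≤ n2 τ (x' - x) * Ry := by gcongr
      nlinarith [norm_nonneg x]
  | star x _ hx =>
      obtain ⟨Rx, hRx, hx⟩ := hx
      refine ⟨Rx, hRx, fun η hη => ?_⟩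
      obtain ⟨δ, h1, hx⟩ := hx η hη
      refine ⟨δ, h1, fun v hv hd => ?_⟩
      obtain ⟨x', m1, n1, d1⟩ := hx v hv hd
      exact ⟨star x', star_mem m1, by rwa [norm_star], by rwa [← star_sub, h.n2_star]⟩

end Crest.Agent.R95
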