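import Crest.Agent.R95.Basic

/-! Row 95: existence of designs, carriers. -/

set_option autoImplicit false
set_option linter.unusedSectionVars false

open Finset Filter Topology
open scoped ComplexOrder Classical InnerProductSpace

namespace Crest.Agent.R95

universe u

variable {M : Type u} [CStarAlgebra M] [PartialOrder M] [StarOrderedRing M] {τ : M →ₚ[ℂ] ℂ}

namespace Des

theorem pull {J R J' R' : Type} [Fintype R] [Fintype R'] {K : R → ℕ} {pt : R → ℕ → J}
    {rank : R → ℕ} {δ : ℝ} (h : Design K pt rank δ) (f : R' → R) (hf : Function.Injective f)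
    (g : J → J') (hg : Function.Injective g) :
    Design (K ∘ f) (fun i x => g (pt (f i) x)) (rank ∘ f) δ where
  pos i := h.pos _
  inj i a ha b hb e := h.inj _ a ha b hb (hg e)
  meet i i' hi a ha a' ha' b hb b' hb' e e' :=
    h.meet _ _ (hf.ne hi) a ha a' ha' b hb b' hb' (hg e) (hg e')
  few i := by
    refine le_trans ?_ (h.few (f i))
    norm_cast
    refine card_le_card_of_injOn f (fun i' hi' => ?_) hf.injOn
    simp only [coe_filter, mem_univ, true_and, Set.mem_ofPred_eq, Function.comp_apply] at hi' ⊢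
    obtain ⟨h1, h2, a, ha, b, hb, e⟩ := hi'
    exact ⟨hf.ne h1, h2, a, ha, b, hb, hg e⟩

variable (L n Y : ℕ)

abbrev k (a : Fin n) : ℕ := (L + 1) * (a + 1)

instance (a : Fin n) : NeZero (k L n a) := ⟨by simp [k]⟩

abbrev P : Type := ∀ a : Fin n, Fin (k L n a)

abbrev R0 : Type := Σ a : Fin n, Fin Y × {p : P L n // p a = 0}

def pt (i : R0 L n Y) (x : ℕ) : Fin Y × P L n :=
  (i.2.1, Function.update i.2.2.1 i.1 (Fin.ofNat _ x))

variable {L n Y}

theorem R0_ext {i i' : R0 L n Y} (h1 : i.1 = i'.1) (h2 : i.2.1 = i'.2.1)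
    (h3 : i.2.2.1 = i'.2.2.1) : i = i' := by
  obtain ⟨a, y, p, hp⟩ := i
  obtain ⟨a', y', p', hp'⟩ := i'
  simp only at h1 h2 h3
  subst h1 h2 h3
  rfl

theorem back (i : R0 L n Y) (x : ℕ) : Function.update (pt L n Y i x).2 i.1 0 = i.2.2.1 := by
  rw [pt, Function.update_idem]
  exact Function.update_eq_self_iff.2 i.2.2.2.symm

theorem eq_of_dir {i i' : R0 L n Y} (h1 : i.1 = i'.1) {x x' : ℕ}
    (e : pt L n Y i x = pt L n Y i' x') : i = i' := by
  refine R0_ext h1 (congrArg Prod.fst e) ?_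
  rw [← back i x, ← back i' x', e]
  obtain ⟨a, y, p, hp⟩ := i
  obtain ⟨a', y', p', hp'⟩ := i'
  simp only at h1
  subst h1
  rfl

theorem val_pt (i : R0 L n Y) {x : ℕ} (hx : x < k L n i.1) : ((pt L n Y i x).2 i.1 : ℕ) = x := by
  simp [pt, Nat.mod_eq_of_lt hx]

theorem design {δ : ℝ} (hδ : 1 ≤ δ * (L + 1)) :
    Design (fun i : R0 L n Y => k L n i.1) (pt L n Y) (fun i => i.1) δ where
  pos i := Nat.pos_of_ne_zero (NeZero.ne _)
  inj i a ha b hb e := by rw [← val_pt i ha, e, val_pt i hb]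
  meet i i' hi a ha a' ha' b hb b' hb' e e' := by
    have hd : i.1 ≠ i'.1 := fun h => hi (eq_of_dir h e)
    rw [← val_pt i ha, ← val_pt i ha', e, e']
    simp [pt, Function.update_of_ne hd]
  few i := by
    let g : Fin n × ℕ → R0 L n Y := fun q =>
      ⟨q.1, i.2.1, Function.update (pt L n Y i q.2).2 q.1 0, by simp⟩
    have h1 : #{i' : R0 L n Y | i' ≠ i ∧ (i'.1 : ℕ) ≤ i.1 ∧ ∃ a < k L n i.1, ∃ b < k L n i'.1,
        pt L n Y i a = pt L n Y i' b} ≤ i.1 * k L n i.1 := by
      refine le_trans (card_le_card (t := (Iio i.1 ×ˢ range (k L n i.1)).image g) ?_)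
        (card_image_le.trans (by simp))
      intro i' hi'
      simp only [mem_filter, mem_univ, true_and] at hi'
      obtain ⟨h1, h2, a, ha, b, hb, e⟩ := hi'
      refine mem_image.2 ⟨(i'.1, a), ?_, ?_⟩
      · simp only [mem_product, mem_Iio, mem_range, ha, and_true]
        exact lt_of_le_of_ne h2 fun h => h1 (eq_of_dir h e.symm)
      · refine R0_ext rfl (by exact (congrArg Prod.fst e :)) ?_
        simp only [g]
        rw [e, back]
    refine le_trans (Nat.cast_le.2 (le_of_eq_of_le ?_ h1)) ?_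
    · congr
    · have : (0 : ℝ) ≤ (i.1 : ℕ) := by positivity
      have h2 : (0 : ℝ) ≤ k L n i.1 := by positivity
      have h3 : ((i.1 : ℕ) : ℝ) ≤ δ * k L n i.1 := by
        simp only [k]
        push_cast
        nlinarith
      rw [Nat.cast_mul]
      nlinarith

theorem card_le (a : Fin n) :
    Fintype.card (P L n) ≤ Fintype.card {p : P L n // p a = 0} * k L n a := by
  have := Fintype.card_le_of_surjective
    (fun q : {p : P L n // p a = 0} × Fin (k L n a) => Function.update q.1.1 a q.2)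
    (fun p => ⟨(⟨Function.update p a 0, by simp⟩, p a), by simp⟩)
  simpa using this

end Des

open Des in
theorem desStmt : DesStmt := by
  intro δ ρ hδ
  obtain ⟨L, hL⟩ := exists_nat_ge (1 / δ)
  have hL' : 1 ≤ δ * (L + 1) := by
    rw [div_le_iff₀ hδ] at hL
    nlinarith
  obtain ⟨n, hn⟩ := (Real.tendsto_sum_range_one_div_nat_succ_atTop.eventually
    (eventually_ge_atTop (2 * ρ * (L + 1) : ℝ))).exists
  set X := Fintype.card (P L n) with hX
  have hX0 : 0 < X := Fintype.card_pos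
  refine ⟨X, fun J R _ _ hJ hR => ?_⟩
  set Y := Fintype.card J / X with hY
  have hY1 : 1 ≤ Y := (Nat.one_le_div_iff hX0).2 hJ
  have h1 : Y * X ≤ Fintype.card J := Nat.div_mul_le_self _ _
  have h2 : Fintype.card J ≤ 2 * (Y * X) := by
    have := Nat.lt_div_mul_add (a := Fintype.card J) hX0
    nlinarith
  have h3 : 2 * ρ * X ≤ ∑ a : Fin n, Fintype.card {p : P L n // p a = 0} := by
    have : (2 * ρ * X : ℝ) ≤ ∑ a : Fin n, (Fintype.card {p : P L n // p a = 0} : ℝ) := by
      have e : ∑ i ∈ range n, (1 / (i + 1) : ℝ) = ∑ a : Fin n, (1 / ((a : ℕ) + 1) : ℝ) :=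
        (Fin.sum_univ_eq_sum_range (fun i => (1 / (i + 1) : ℝ)) n).symm
      have h4 : (2 * ρ * X : ℝ) ≤ ∑ a : Fin n, (1 / ((a : ℕ) + 1) : ℝ) * (X / (L + 1)) := by
        rw [← sum_mul, ← e]
        calc (2 * ρ * X : ℝ) = 2 * ρ * (L + 1) * (X / (L + 1)) := by field_simp
          _ ≤ _ := by gcongr
      refine h4.trans (sum_le_sum fun a _ => ?_)
      have h5 : (X : ℝ) ≤ Fintype.card {p : P L n // p a = 0} * ((L + 1) * ((a : ℕ) + 1)) := by
        exact_mod_cast card_le (L := L) a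
      rw [div_mul_div_comm, one_mul, div_le_iff₀ (by positivity)]
      linarith [mul_comm ((L : ℝ) + 1) (((a : ℕ) : ℝ) + 1)]
    exact_mod_cast this
  obtain ⟨f⟩ : Nonempty (R ↪ R0 L n Y) := by
    refine Function.Embedding.nonempty_of_card_le ?_
    rw [Fintype.card_sigma]
    simp only [Fintype.card_prod, Fintype.card_fin]
    rw [← mul_sum]
    calc Fintype.card R ≤ ρ * (2 * (Y * X)) := hR.trans (Nat.mul_le_mul_left _ h2)
      _ = Y * (2 * ρ * X) := by ring
      _ ≤ _ := Nat.mul_le_mul_left _ h3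
  obtain ⟨g⟩ : Nonempty (Fin Y × P L n ↪ J) :=
    Function.Embedding.nonempty_of_card_le (by rwa [Fintype.card_prod, Fintype.card_fin])
  exact ⟨_, _, _, pull (design hL') f f.injective g g.injective⟩

theorem carrStmt_of (hd : DesStmt) (hk : KeyStmt τ) : CarrStmt τ := by
  intro η ρ hη
  obtain ⟨n₀, h⟩ := hd (η / 20) ρ (by positivity)
  refine ⟨n₀, fun N hN J R _ _ hJ hR t ht => ?_⟩
  obtain ⟨K, pt, rank, hD⟩ := h J R hJ hR
  obtain ⟨y, c, hy, hs⟩ := hk N hN J R K pt rank (η / 20) (η / 2) (by positivity) hD t ht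
  refine ⟨y, fun i => c i • word y (pt i) (K i), hy, fun A hA i => A.smul_mem ?_ _, ?_⟩
  · induction K i with
    | zero => exact A.one_mem
    | succ k ih => exact A.mul_mem ih (hA _)
  · convert hs using 2
    ring

end Crest.Agent.R95
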