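import Crest.Agent.R95.Basic

/-! Row 95: flat matrix entries. -/

set_option autoImplicit false
set_option linter.unusedSectionVars false

open Finset Filter Topology
open scoped ComplexOrder Classical InnerProductSpace

namespace Crest.Agent.R95

universe u

variable {M : Type u} [CStarAlgebra M] [PartialOrder M] [StarOrderedRing M] {τ : M →ₚ[ℂ] ℂ}

namespace Flat

theorem two (S Y : M) : q4 τ (S + Y) + q4 τ (S + (-1 : ℂ) • Y) =
    2 * (n2 τ (star S * S + star Y * Y) ^ 2 + n2 τ (star S * Y + star Y * S) ^ 2) := by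
  rw [← n2_parallelogram, q4_eq, q4_eq, neg_one_smul]
  congr 3
  · rw [star_add]; noncomm_ring
  · rw [star_add, star_neg]; noncomm_ring

theorem four (h : TF τ) (S Y : M) :
    q4 τ (S + (1 : ℂ) • Y) + q4 τ (S + (-1 : ℂ) • Y) + q4 τ (S + Complex.I • Y) +
      q4 τ (S + (-Complex.I) • Y) = 4 * (q4 τ S + q4 τ Y + 2 * tr τ (star Y * Y * (star S * S)) +
        2 * tr τ (S * star S * (Y * star Y))) := by
  have h1 := two (τ := τ) S Y
  have h2 := two (τ := τ) S (Complex.I • Y)
  have e1 : star (Complex.I • Y) * (Complex.I • Y) = star Y * Y := by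
    rw [star_smul, smul_mul_smul_comm]; simp
  have e2 : star S * (Complex.I • Y) + star (Complex.I • Y) * S =
      Complex.I • (star S * Y - star Y * S) := by
    rw [star_smul, smul_sub, mul_smul_comm, smul_mul_assoc]; simp [sub_eq_add_neg]
  rw [e1, e2, n2_smul, Complex.norm_I, one_mul, smul_smul, neg_one_mul] at h2
  have h3 := n2_parallelogram (τ := τ) (star S * Y) (star Y * S)
  have h4 : n2 τ (star Y * S) = n2 τ (star S * Y) := by rw [← h.n2_star, star_mul, star_star]
  have h5 : n2 τ (star S * Y) ^ 2 = tr τ (S * star S * (Y * star Y)) := by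
    rw [n2_sq, star_mul, star_star, mul_assoc, h.tr_comm]; simp only [mul_assoc]
  have h6 := n2_add_sq (τ := τ) (star S * S) (star Y * Y)
  rw [← q4_eq, ← q4_eq, star_mul, star_star, h.tr_comm] at h6
  rw [one_smul]
  rw [h4] at h3
  linarith

theorem exists_le {f : ℂ → ℝ} {T : ℝ} (hf : f 1 + f (-1) + f Complex.I + f (-Complex.I) ≤ 4 * T) :
    ∃ ε : ℂ, ‖ε‖ = 1 ∧ f ε ≤ T := by
  by_contra hc
  push Not at hc
  linarith [hc 1 (by simp), hc (-1) (by simp), hc Complex.I (by simp), hc (-Complex.I) (by simp)]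

theorem star_mul_self_of_norm {z : ℂ} (hz : ‖z‖ = 1) : star z * z = 1 := by
  rw [Complex.star_def, Complex.conj_mul', hz]; simp

theorem smul_unitary {z : ℂ} (hz : ‖z‖ = 1) {w : M} (hw : w ∈ unitary M) : z • w ∈ unitary M := by
  have := star_mul_self_of_norm hz
  rw [Unitary.mem_iff] at hw ⊢
  rw [star_smul, smul_mul_smul_comm, smul_mul_smul_comm, hw.1, hw.2, this, mul_comm, this]
  simp

theorem sum_mul_star {K : ℕ} (x : Fin K → M) (Φ : Fin K → Fin K → ℂ)
    (hΦ : ∀ i j, ∑ b, Φ i b * star (Φ j b) = if i = j then (K : ℂ) else 0) (s : Finset (Fin K)) :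
    ∑ b, (∑ i ∈ s, Φ i b • x i) * star (∑ i ∈ s, Φ i b • x i) =
      (K : ℝ) • ∑ i ∈ s, x i * star (x i) := by
  simp only [star_sum, star_smul, sum_mul_sum, smul_mul_smul_comm]
  rw [sum_comm, smul_sum]
  refine sum_congr rfl fun i hi => ?_
  rw [sum_comm]
  simp only [← sum_smul, hΦ, ite_smul, zero_smul, sum_ite_eq, hi, if_true]
  rfl

end Flat

open Flat in
theorem flatStmt_of (h : TF τ) (ha : AvgStmt τ) : FlatStmt τ := by
  intro D N hD hN hDN hI K C _ y Φ hy hn hΦ1 hΦ
  rcases isEmpty_or_nonempty C with hC | hC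
  · exact ⟨fun _ => 1, fun _ => ⟨D.one_mem, one_mem _⟩, by simp⟩
  have hC0 : (0 : ℝ) < Fintype.card C := by exact_mod_cast Fintype.card_pos
  have hle : ∀ c (s : Finset (Fin K)), ∑ i ∈ s, y c i * star (y c i) ≤ 1 := fun c s =>
    (sum_le_sum_of_subset_of_nonneg (subset_univ s) fun _ _ _ => mul_star_self_nonneg _).trans
      ((CStarAlgebra.norm_le_one_iff_of_nonneg _
        (sum_nonneg fun _ _ => mul_star_self_nonneg _)).1 (hn c))
  have hsq : ∀ z : M, n2 τ z ^ 2 = tr τ (z * star z) := fun z => by rw [n2_sq, h.tr_comm]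
  have key : ∀ s : Finset (Fin K), ∃ v : Fin K → M, (∀ i, v i ∈ D ∧ v i ∈ unitary M) ∧
      ∑ c, ∑ b, q4 τ (∑ i ∈ s, Φ i b • (y c i * v i)) ≤
        ∑ i ∈ s, (5 * K * ∑ c, n2 τ (y c i) ^ 2 + Fintype.card C) := by
    intro s
    induction s using Finset.induction_on with
    | empty => exact ⟨fun _ => 1, fun _ => ⟨D.one_mem, one_mem _⟩, by simp [q4]⟩
    | insert n s hns ih =>
      obtain ⟨v, hv, ih⟩ := ih
      set S : C → Fin K → M := fun c b => ∑ i ∈ s, Φ i b • (y c i * v i) with hS
      have hSS : ∀ c, ∑ b, S c b * star (S c b) = (K : ℝ) • ∑ i ∈ s, y c i * star (y c i) := by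
        intro c
        rw [hS, sum_mul_star _ Φ hΦ]
        congr 1
        refine sum_congr rfl fun i _ => ?_
        rw [star_mul, mul_assoc, ← mul_assoc (v i), (Unitary.mem_iff.1 (hv i).2).2, one_mul]
      obtain ⟨w, hwD, hw, hav⟩ := ha D N hD hN hDN hI (C × Fin K)
        (fun p => star (y p.1 n) * y p.1 n) (fun p => star (S p.1 p.2) * S p.1 p.2)
        (fun p => mul_mem (star_mem (hy _ _)) (hy _ _)) (Fintype.card C / 2) (by positivity)
      set Y : C → Fin K → M := fun c b => Φ n b • (y c n * w) with hY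
      have e1 : ∀ c b, star (Y c b) * Y c b = star w * (star (y c n) * y c n) * w := by
        intro c b
        rw [hY, star_smul, smul_mul_smul_comm, star_mul_self_of_norm (hΦ1 _ _), one_smul,
          star_mul]
        simp only [mul_assoc]
      have e2 : ∀ c b, Y c b * star (Y c b) = y c n * star (y c n) := by
        intro c b
        rw [hY, star_smul, smul_mul_smul_comm, mul_comm, star_mul_self_of_norm (hΦ1 _ _),
          one_smul, star_mul, mul_assoc, ← mul_assoc w, (Unitary.mem_iff.1 hw).2, one_mul]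
      have b1 : ∀ c b, q4 τ (Y c b) ≤ n2 τ (y c n) ^ 2 := by
        intro c b
        have : q4 τ (Y c b) = tr τ (Y c b * star (Y c b) * (Y c b * star (Y c b))) := by
          rw [q4, mul_assoc, h.tr_comm]; simp only [mul_assoc]
        rw [this, e2, hsq]
        simpa using h.tr_mul_mono (hle c {n}) (mul_star_self_nonneg (y c n))
      have b2 : ∀ c, ∑ b, tr τ (S c b * star (S c b) * (Y c b * star (Y c b))) ≤
          K * n2 τ (y c n) ^ 2 := by
        intro c
        simp only [e2]
        rw [← tr_sum, ← sum_mul, hSS, smul_mul_assoc, tr_smul, hsq]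
        gcongr
        simpa using h.tr_mul_mono (hle c s) (mul_star_self_nonneg (y c n))
      have b3 : ∑ c, ∑ b, tr τ (star (Y c b) * Y c b * (star (S c b) * S c b)) ≤
          ∑ c, K * n2 τ (y c n) ^ 2 + Fintype.card C / 2 := by
        simp only [e1]
        rw [Fintype.sum_prod_type, Fintype.sum_prod_type] at hav
        refine hav.trans (add_le_add_left (sum_le_sum fun c _ => ?_) _)
        have : ∀ b, (τ (star (y c n) * y c n) * τ (star (S c b) * S c b)).re =
            n2 τ (y c n) ^ 2 * tr τ (S c b * star (S c b)) := by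
          intro b
          rw [tau_eq_tr (IsSelfAdjoint.star_mul_self _), Complex.re_ofReal_mul, ← n2_sq,
            h.tr_comm]
          rfl
        simp only [this]
        rw [← mul_sum, ← tr_sum, hSS, tr_smul, mul_comm]
        gcongr
        have := tr_mono (τ := τ) (hle c s)
        rw [h.tr_one] at this
        exact mul_le_of_le_one_right (by positivity) this
      obtain ⟨ε, hε, hf⟩ := exists_le (f := fun ε => ∑ c, ∑ b, q4 τ (S c b + ε • Y c b))
        (T := ∑ c, ∑ b, q4 τ (S c b) + (5 * K * ∑ c, n2 τ (y c n) ^ 2 + Fintype.card C)) (by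
          simp only [← sum_add_distrib, four h, ← mul_sum]
          simp only [sum_add_distrib, ← mul_sum]
          have c1 : ∑ c, ∑ b, q4 τ (Y c b) ≤ ∑ c, K * n2 τ (y c n) ^ 2 :=
            sum_le_sum fun c _ => (sum_le_sum fun b _ => b1 c b).trans (by simp)
          have c2 := sum_le_sum fun c (_ : c ∈ univ) => b2 c
          rw [← mul_sum] at c1 c2 b3
          linarith)
      refine ⟨Function.update v n (ε • w), fun i => ?_, ?_⟩
      · rcases eq_or_ne i n with rfl | hi
        · rw [Function.update_self]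
          exact ⟨D.smul_mem hwD _, smul_unitary hε hw⟩
        · rw [Function.update_of_ne hi]; exact hv i
      · rw [sum_insert hns]
        refine le_trans (le_of_eq ?_) (hf.trans (by linarith))
        refine sum_congr rfl fun c _ => sum_congr rfl fun b _ => ?_
        rw [sum_insert hns, Function.update_self, add_comm, mul_smul_comm, smul_comm]
        congr 2
        refine sum_congr rfl fun i hi => ?_
        rw [Function.update_of_ne (ne_of_mem_of_not_mem hi hns)]
  obtain ⟨v, hv, hb⟩ := key univ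
  refine ⟨v, hv, hb.trans ?_⟩
  rw [sum_add_distrib, ← mul_sum, sum_comm]
  have : ∑ c, ∑ i, n2 τ (y c i) ^ 2 ≤ Fintype.card C := by
    calc _ ≤ ∑ _c : C, (1 : ℝ) := sum_le_sum fun c _ => by
          simp only [hsq]
          rw [← tr_sum, ← h.tr_one]
          exact tr_mono (hle c univ)
      _ = _ := by simp
  have h2 : (0 : ℝ) ≤ K := by positivity
  simp only [sum_const, card_univ, Fintype.card_fin, nsmul_eq_mul]
  nlinarith

end Crest.Agent.R95
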