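import Crest.Agent.R95.Basic

/-! Row 95: space-filling words of unitaries. -/

set_option autoImplicit false
set_option linter.unusedSectionVars false

open Finset Filter Topology
open scoped ComplexOrder Classical

namespace Crest.Agent.R95

universe u

variable {M : Type u} [CStarAlgebra M] [PartialOrder M] [StarOrderedRing M] {τ : M →ₚ[ℂ] ℂ}

namespace Key

variable {J : Type}

theorem word_succ (y : J → M) (pt : ℕ → J) (k : ℕ) :
    word y pt (k + 1) = word y pt k * y (pt k) := rfl

theorem word_mem {N : StarSubalgebra ℂ M} {y : J → M} (hy : ∀ j, y j ∈ N ∧ y j ∈ unitary M)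
    (pt : ℕ → J) (k : ℕ) : word y pt k ∈ N ∧ word y pt k ∈ unitary M := by
  induction k with
  | zero => exact ⟨one_mem _, one_mem _⟩
  | succ k ih => exact ⟨mul_mem ih.1 (hy _).1, mul_mem ih.2 (hy _).2⟩

theorem word_congr {y y' : J → M} {pt : ℕ → J} {n : ℕ} (h : ∀ k < n, y' (pt k) = y (pt k)) :
    word y' pt n = word y pt n := by
  induction n with
  | zero => rfl
  | succ n ih => rw [word_succ, word_succ, ih fun k hk => h k (by omega), h n (by omega)]

theorem word_change {y y' : J → M} {pt : ℕ → J} {n b : ℕ} {X : M} (hb : b < n)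
    (hu : word y pt b ∈ unitary M) (h : ∀ k < n, k ≠ b → y' (pt k) = y (pt k))
    (hX : y' (pt b) = X * y (pt b)) :
    word y' pt n = word y pt b * X * star (word y pt b) * word y pt n := by
  induction n, hb using Nat.le_induction with
  | base =>
    rw [word_succ, word_succ, word_congr fun k hk => h k (by omega) (by omega), hX]
    simp only [mul_assoc]
    rw [← mul_assoc (star _), (Unitary.mem_iff.1 hu).1, one_mul]
  | succ n hn ih =>
    rw [word_succ, word_succ, ih fun k hk => h k (by omega), h n (by omega) (by omega)]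
    simp only [mul_assoc]

/-- insert `g` along the relation `pt` of length `K` -/
noncomputable def upd (y : J → M) (pt : ℕ → J) (K : ℕ) (g : M) (j : J) : M :=
  if h : ∃ k < K, pt k = j then star (word y pt h.choose) * g * word y pt h.choose * y j else y j

theorem upd_of_not {y : J → M} {pt : ℕ → J} {K : ℕ} {g : M} {j : J} (h : ¬ ∃ k < K, pt k = j) :
    upd y pt K g j = y j := dif_neg h

theorem upd_pt {y : J → M} {pt : ℕ → J} {K : ℕ} {g : M}
    (inj : ∀ a < K, ∀ b < K, pt a = pt b → a = b) {a : ℕ} (ha : a < K) :
    upd y pt K g (pt a) = star (word y pt a) * g * word y pt a * y (pt a) := by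
  have h : ∃ k < K, pt k = pt a := ⟨a, ha, rfl⟩
  rw [upd, dif_pos h, inj _ h.choose_spec.1 _ ha h.choose_spec.2]

theorem upd_mem {N : StarSubalgebra ℂ M} {y : J → M} (hy : ∀ j, y j ∈ N ∧ y j ∈ unitary M)
    (pt : ℕ → J) (K : ℕ) {g : M} (hg : g ∈ N) (hg' : g ∈ unitary M) (j : J) :
    upd y pt K g j ∈ N ∧ upd y pt K g j ∈ unitary M := by
  unfold upd
  split_ifs with h
  · have := word_mem hy pt h.choose
    exact ⟨mul_mem (mul_mem (mul_mem (star_mem this.1) hg) this.1) (hy j).1,
      mul_mem (mul_mem (mul_mem (Unitary.star_mem this.2) hg') this.2) (hy j).2⟩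
  · exact hy j

theorem word_upd {N : StarSubalgebra ℂ M} {y : J → M} (hy : ∀ j, y j ∈ N ∧ y j ∈ unitary M)
    {pt : ℕ → J} {K : ℕ} (g : M) (inj : ∀ a < K, ∀ b < K, pt a = pt b → a = b) {k : ℕ}
    (hk : k ≤ K) : word (upd y pt K g) pt k = g ^ k * word y pt k := by
  induction k with
  | zero => simp [word]
  | succ k ih =>
    rw [word_succ, word_succ, ih (by omega), upd_pt inj (by omega), pow_succ]
    simp only [mul_assoc]
    rw [← mul_assoc (word y pt k) (star _), (Unitary.mem_iff.1 (word_mem hy pt k).2).2, one_mul]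

theorem smul_unitary {c : ℂ} (hc : ‖c‖ = 1) {t : M} (ht : t ∈ unitary M) :
    c • t ∈ unitary M := by
  have e : star c * c = 1 := by
    rw [Complex.star_def, mul_comm, Complex.mul_conj, Complex.normSq_eq_norm_sq, hc]; simp
  rw [Unitary.mem_iff] at ht ⊢
  constructor
  · rw [star_smul, smul_mul_smul_comm, ht.1, e, one_smul]
  · rw [star_smul, smul_mul_smul_comm, ht.2, mul_comm, e, one_smul]

end Key

open Key in
theorem keyStmt_of (h : TF τ) (hr : RootStmt τ) : KeyStmt τ := by
  intro N hN J R _ K pt rank δ η hη hD t ht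
  have := h.nontrivial
  have main : ∀ s : Finset R, ∃ (y : J → M) (c : R → ℂ), (∀ j, y j ∈ N ∧ y j ∈ unitary M) ∧
      (∀ i, ‖c i‖ = 1) ∧ ∑ i ∈ s, (1 - tr τ (word y (pt i) (K i) * star (c i • t i))) ≤
        #s * (η / 2 + 5 * δ) := by
    intro s
    induction s using Finset.induction_on_max_value rank with
    | empty => exact ⟨fun _ => 1, fun _ => 1, fun _ => ⟨one_mem _, one_mem _⟩, by simp, by simp⟩
    | insert i s his hrank ih =>
      obtain ⟨y, c, hy, hc, hsum⟩ := ih
      let meets : R → Prop := fun i' => ∃ a < K i, ∃ b < K i', pt i a = pt i' b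
      have hG : ∀ i', ∃ G ∈ unitary M, i' ∈ s → meets i' → ∀ g,
          word (upd y (pt i) (K i) g) (pt i') (K i') = G * g * star G * word y (pt i') (K i') := by
        intro i'
        by_cases hm : i' ∈ s ∧ meets i'
        · obtain ⟨hs, a, ha, b, hb, hab⟩ := hm
          have hne : i' ≠ i := fun e => his (e ▸ hs)
          refine ⟨word y (pt i') b * star (word y (pt i) a),
            mul_mem (word_mem hy _ _).2 (Unitary.star_mem (word_mem hy _ _).2), fun _ _ g => ?_⟩
          rw [word_change (X := star (word y (pt i) a) * g * word y (pt i) a) hb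
            (word_mem hy _ _).2 (fun k hk hkb => upd_of_not ?_)
            (by rw [← hab, upd_pt (hD.inj i) ha])]
          · simp only [star_mul, star_star, mul_assoc]
          · rintro ⟨a', ha', e⟩
            exact hkb (hD.meet i' i hne k hk b hb a' ha' a ha e.symm hab.symm)
        · exact ⟨1, one_mem _, fun h1 h2 => absurd ⟨h1, h2⟩ hm⟩
      choose G hGu hG using hG
      have hW := word_mem hy (pt i) (K i)
      obtain ⟨c₀, g, hc₀, hgN, hgU, hle⟩ := hr N hN (t i * star (word y (pt i) (K i)))
        (mul_mem (ht i).1 (star_mem hW.1)) (mul_mem (ht i).2 (Unitary.star_mem hW.2)) (K i)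
        (hD.pos i) (η / 2) (by positivity) R (s.filter meets)
        (fun i' => star (G i') * (word y (pt i') (K i') * star (c i' • t i')) * G i')
        fun i' => (CStarRing.norm_of_mem_unitary (mul_mem (mul_mem (Unitary.star_mem (hGu i'))
          (mul_mem (word_mem hy _ _).2 (Unitary.star_mem (smul_unitary (hc i') (ht i').2))))
          (hGu i'))).le
      refine ⟨upd y (pt i) (K i) g, Function.update c i c₀, upd_mem hy _ _ hgN hgU, fun i' => ?_,
        ?_⟩
      · rcases eq_or_ne i' i with rfl | hne
        · simpa using hc₀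
        · simpa [hne] using hc i'
      rw [sum_insert his, card_insert_of_notMem his, Function.update_self,
        word_upd hy g (hD.inj i) le_rfl]
      have e1 : g ^ K i * star (c₀ • (t i * star (word y (pt i) (K i)))) =
          g ^ K i * word y (pt i) (K i) * star (c₀ • t i) := by
        simp only [star_smul, star_mul, star_star, mul_smul_comm, mul_assoc]
      rw [e1] at hle
      have e2 : ∑ i' ∈ s, (1 - tr τ (word (upd y (pt i) (K i) g) (pt i') (K i') *
          star (Function.update c i c₀ i' • t i'))) =
          ∑ i' ∈ s, (1 - tr τ (word y (pt i') (K i') * star (c i' • t i'))) +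
          ∑ i' ∈ s.filter meets,
            (tr τ (star (G i') * (word y (pt i') (K i') * star (c i' • t i')) * G i') -
              tr τ (g * (star (G i') * (word y (pt i') (K i') * star (c i' • t i')) * G i'))) := by
        rw [sum_filter, ← sum_add_distrib]
        refine sum_congr rfl fun i' hi' => ?_
        have hne : i' ≠ i := fun e => his (e ▸ hi')
        rw [Function.update_of_ne hne]
        split_ifs with hm
        · rw [hG i' hi' hm g, h.tr_conj (hGu i'), ← mul_assoc g, h.tr_comm _ (G i')]
          simp only [mul_assoc]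
          ring
        · rw [word_congr fun k hk => upd_of_not ?_, add_zero]
          rintro ⟨a, ha, e⟩
          exact hm ⟨a, ha, k, hk, e⟩
      rw [e2]
      have hcard : (#(s.filter meets) : ℝ) ≤ δ * (K i : ℝ) ^ 2 := by
        refine le_trans ?_ (hD.few i)
        exact_mod_cast card_le_card fun i' hi' => by
          rw [mem_filter] at hi' ⊢
          exact ⟨mem_univ _, fun e => his (e ▸ hi'.1), hrank i' hi'.1, hi'.2⟩
      have hK : (0 : ℝ) < K i := by exact_mod_cast hD.pos i
      have h5 : (#(s.filter meets) : ℝ) * (5 / (K i : ℝ) ^ 2) ≤ 5 * δ := by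
        refine (mul_le_mul_of_nonneg_right hcard (by positivity)).trans_eq ?_
        field_simp
      push_cast
      linarith
  obtain ⟨y, c, hy, hc, hsum⟩ := main univ
  refine ⟨y, fun i => star (c i), hy, ?_⟩
  have e : ∀ i, n2 τ (t i - star (c i) • word y (pt i) (K i)) ^ 2 =
      2 * (1 - tr τ (word y (pt i) (K i) * star (c i • t i))) := fun i => by
    rw [n2_sub_sq, h.n2_unitary (ht i).2,
      h.n2_unitary (smul_unitary (by rw [norm_star, hc]) (word_mem hy _ _).2),
      h.tr_comm (word _ _ _), star_smul, smul_mul_assoc, mul_smul_comm]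
    ring
  simp only [e]
  rw [← mul_sum]
  rw [card_univ] at hsum
  linarith

end Crest.Agent.R95
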