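import Crest.Agent.R95.Basic

set_option autoImplicit false
set_option linter.unusedSectionVars false

open Finset Filter Topology
open scoped ComplexOrder Classical InnerProductSpace

namespace Crest.Agent.R95

universe u

variable {M : Type u} [CStarAlgebra M] [PartialOrder M] [StarOrderedRing M] {τ : M →ₚ[ℂ] ℂ}

namespace MUaux

theorem split (hs : SubStmt τ) {P : StarSubalgebra ℂ M} (h1 : L2Closed τ P) (h2 : Irr P P)
    (h3 : ¬ FiniteDimensional ℂ P) {s : ℝ} (hs0 : 0 ≤ s) (h : TF τ) (K : ℕ) :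
    ∀ p ∈ P, IsStarProjection p → tr τ p = K * s →
      ∃ g : Fin K → M, (∀ i, g i ∈ P ∧ IsStarProjection (g i) ∧ tr τ (g i) = s ∧ p * g i = g i) ∧
        (∀ i j, i ≠ j → g i * g j = 0) ∧ ∑ i, g i = p := by
  induction K with
  | zero =>
      intro p _ hp ht
      refine ⟨Fin.elim0, fun i => i.elim0, fun i => i.elim0, ?_⟩
      rw [h.eq_zero_of_tr hp.nonneg (by simpa using ht)]
      simp
  | succ K ih =>
      intro p hpP hp ht
      push_cast at ht
      obtain ⟨q, hqP, hq, hpq, htq⟩ := hs P h1 h2 h3 p hpP hp s hs0 (by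
        rw [ht]; nlinarith [mul_nonneg (Nat.cast_nonneg (α := ℝ) K) hs0])
      have hqp : q * p = q := by
        have := congrArg star hpq
        rwa [star_mul, hp.isSelfAdjoint.star_eq, hq.isSelfAdjoint.star_eq] at this
      have hr : IsStarProjection (p - q) := hq.sub_of_mul_eq_left hp hqp
      obtain ⟨g, hg, hgo, hgs⟩ := ih (p - q) (sub_mem hpP hqP) hr (by rw [tr_sub, ht, htq]; ring)
      have hq0 : ∀ i, q * g i = 0 := by
        intro i
        rw [← (hg i).2.2.2, ← mul_assoc, mul_sub, hqp, hq.isIdempotentElem.eq, sub_self, zero_mul]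
      have hq0' : ∀ i, g i * q = 0 := by
        intro i
        have := congrArg star (hq0 i)
        rwa [star_mul, (hg i).2.1.isSelfAdjoint.star_eq, hq.isSelfAdjoint.star_eq, star_zero] at this
      refine ⟨Fin.cons q g, fun i => ?_, fun i j hij => ?_, ?_⟩
      · refine Fin.cases ⟨hqP, hq, htq, hpq⟩ (fun i => ?_) i
        refine ⟨(hg i).1, (hg i).2.1, (hg i).2.2.1, ?_⟩
        have := (hg i).2.2.2
        rwa [sub_mul, hq0, sub_zero] at this
      · revert hij
        refine Fin.cases ?_ (fun i => ?_) i <;> refine Fin.cases ?_ (fun j => ?_) j <;> intro hij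
        · exact absurd rfl hij
        · exact hq0 j
        · exact hq0' i
        · exact hgo i j fun e => hij (by rw [e])
      · rw [Fin.sum_univ_succ]
        simp [hgs]

end MUaux

theorem muStmt_of (h : TF τ) (hc : CompStmt τ) (hs : SubStmt τ) : MUStmt τ := by
  intro P h1 h2 h3 T _ r hr K hK
  have hK' : (K : ℝ) ≠ 0 := by positivity
  have hT : Nonempty T := by
    by_contra hT
    rw [not_nonempty_iff] at hT
    have := hr.sum
    rw [Fintype.sum_empty] at this
    have h1 := h.tr_one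
    rw [← this, tr_zero] at h1
    exact zero_ne_one h1
  obtain ⟨t₀⟩ := hT
  have hs0 : 0 ≤ tr τ (r t₀) / K := div_nonneg (tr_nonneg (hr.proj t₀).nonneg) (by positivity)
  choose g hg hgo hgs using fun t => MUaux.split hs h1 h2 h3 hs0 h K (r t) (hr.mem t) (hr.proj t)
    (by rw [hr.tr_eq t t₀]; field_simp)
  set G : T × Fin K → M := fun j => g j.1 j.2 with hG
  have hGo : ∀ i j, i ≠ j → G i * G j = 0 := by
    rintro ⟨t, i⟩ ⟨t', j⟩ hij
    by_cases ht : t = t'
    · subst ht
      exact hgo t i j fun e => hij (by rw [e])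
    · have e1 : g t i * r t = g t i := by
        have := congrArg star (hg t i).2.2.2
        rwa [star_mul, (hg t i).2.1.isSelfAdjoint.star_eq, (hr.proj t).isSelfAdjoint.star_eq] at this
      show g t i * g t' j = 0
      rw [← e1, ← (hg t' j).2.2.2, mul_assoc, ← mul_assoc (r t), hr.orth t t' ht, zero_mul, mul_zero]
  let j₀ : T × Fin K := (t₀, ⟨0, hK⟩)
  have hex : ∀ j, ∃ w ∈ P, star w * w = G j₀ ∧ G j * w = w ∧ w * star w = G j := by
    intro j
    have e : tr τ (G j₀) = tr τ (G j) := (hg _ _).2.2.1.trans (hg _ _).2.2.1.symm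
    obtain ⟨w, hw, a1, a2, a3⟩ := hc P h1 h2 (G j₀) (hg _ _).1 (G j) (hg _ _).1 (hg _ _).2.1
      (hg _ _).2.1 e.le
    exact ⟨w, hw, a1, a2, a3 e⟩
  choose w hwP hw1 hw2 hw3 using hex
  have hw4 : ∀ j, w j * G j₀ = w j := fun j => by rw [← hw1 j, ← mul_assoc, hw3, hw2]
  have hw5 : ∀ j k, j ≠ k → star (w j) * w k = 0 := by
    intro j k hjk
    have e : star (w j) * G j = star (w j) := by
      have := congrArg star (hw2 j)
      rwa [star_mul, (hg j.1 j.2).2.1.isSelfAdjoint.star_eq] at this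
    rw [← e, ← hw2 k, mul_assoc, ← mul_assoc (G j), hGo j k hjk, zero_mul, mul_zero]
  refine ⟨fun i j => w i * star (w j), ⟨fun i j k l => ?_, fun i j => by simp, ?_⟩,
    fun i j => mul_mem (hwP i) (star_mem (hwP j)), fun t => ?_⟩
  · rw [mul_assoc, ← mul_assoc (star (w j))]
    split_ifs with hjk
    · subst hjk
      rw [hw1, ← mul_assoc, hw4]
    · rw [hw5 j k hjk, zero_mul, mul_zero]
  · simp only [hw3, Fintype.sum_prod_type, hG, hgs, hr.sum]
  · simp only [hw3, hG, hgs]

end Crest.Agent.R95
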