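import Crest.Agent.R95.Entries

/-! Row 95: the encoding lemma. -/

set_option autoImplicit false
set_option linter.unusedSectionVars false

open Finset Filter Topology
open scoped ComplexOrder Classical

namespace Crest.Agent.R95

universe u

variable {M : Type u} [CStarAlgebra M] [PartialOrder M] [StarOrderedRing M] {τ : M →ₚ[ℂ] ℂ}

namespace Main

open Ent

theorem fourier (K : ℕ) (hK : 1 ≤ K) : ∃ Φ : Fin K → Fin K → ℂ, (∀ i b, ‖Φ i b‖ = 1) ∧
    ∀ i j, ∑ b, Φ i b * star (Φ j b) = if i = j then (K : ℂ) else 0 := by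
  have hζ := Complex.isPrimitiveRoot_exp K (by omega)
  set ζ := Complex.exp (2 * Real.pi * Complex.I / K) with hζdef
  have hn : ‖ζ‖ = 1 := hζ.norm'_eq_one (by omega)
  have hs : ζ * star ζ = 1 := by
    rw [Complex.star_def, Complex.mul_conj, Complex.normSq_eq_norm_sq, hn]; simp
  refine ⟨fun i b => (ζ ^ (i : ℕ)) ^ (b : ℕ), fun i b => by simp [hn], fun i j => ?_⟩
  have e1 : ∀ b : Fin K, (ζ ^ (i : ℕ)) ^ (b : ℕ) * star ((ζ ^ (j : ℕ)) ^ (b : ℕ)) =
      (ζ ^ (i : ℕ) * star ζ ^ (j : ℕ)) ^ (b : ℕ) := fun b => by rw [star_pow, star_pow, mul_pow]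
  simp only [e1]
  rw [Fin.sum_univ_eq_sum_range (fun b => (ζ ^ (i : ℕ) * star ζ ^ (j : ℕ)) ^ b)]
  split_ifs with hij
  · subst hij
    rw [← mul_pow, hs]
    simp
  · have h1 : ζ ^ (i : ℕ) * star ζ ^ (j : ℕ) ≠ 1 := by
      intro h1
      apply hij
      have h2 : ζ ^ (i : ℕ) = ζ ^ (j : ℕ) := by
        have h3 : star ζ ^ (j : ℕ) * ζ ^ (j : ℕ) = 1 := by rw [← mul_pow, mul_comm, hs, one_pow]
        rw [← mul_one (ζ ^ (i : ℕ)), ← h3, ← mul_assoc, h1, one_mul]
      exact Fin.ext (hζ.pow_inj i.2 j.2 h2)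
    have h2 : (ζ ^ (i : ℕ) * star ζ ^ (j : ℕ)) ^ K = 1 := by
      rw [mul_pow, ← pow_mul, ← pow_mul, mul_comm _ K, mul_comm _ K, pow_mul, pow_mul, ← star_pow,
        hζ.pow_eq_one]
      simp
    have h3 := mul_geom_sum (ζ ^ (i : ℕ) * star ζ ^ (j : ℕ)) K
    rw [h2, sub_self] at h3
    exact (mul_eq_zero.1 h3).resolve_left (sub_ne_zero.2 h1)

theorem q4_smul (c : ℝ) (z : M) : q4 τ ((c : ℂ) • z) = c ^ 4 * q4 τ z := by
  have : star ((c : ℂ) • z) * ((c : ℂ) • z) = ((c ^ 2 : ℝ) : ℂ) • (star z * z) := by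
    rw [star_smul, smul_mul_smul_comm, Complex.star_def, Complex.conj_ofReal]
    push_cast
    rw [sq]
  rw [q4_eq, q4_eq, this, n2_smul, mul_pow, Complex.norm_real, Real.norm_eq_abs, sq_abs]
  ring

/-- flattening the entries -/
theorem flatV (h : TF τ) (hf : FlatStmt τ) {P : StarSubalgebra ℂ M} (hP : L2Closed τ P)
    (hirr : Irr P ⊤) {T : Type} [Fintype T] {K : ℕ} (hK : 1 ≤ K)
    {e : T × Fin K → T × Fin K → M} (he : MU e) (heP : ∀ i j, e i j ∈ P) {r : T → M}
    (hr : ∀ t, IsStarProjection (r t)) (her : ∀ t, ∑ i, e (t, i) (t, i) = r t) {x : M}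
    (hx : ‖x‖ ≤ 1) :
    ∃ V ∈ P, V ∈ unitary M ∧ (∀ t, V * r t = r t * V) ∧ ∃ z : T × Fin K → T × Fin K → M,
      (∀ i j, z i j ∈ comm e) ∧ x * V = asm e z ∧
      ∑ i, ∑ j, q4 τ (z i j) ≤ 6 * (Fintype.card T : ℝ) ^ 2 := by
  obtain ⟨Φ, hΦ1, hΦ2⟩ := fourier K hK
  have hN : L2Closed τ (comm e) := h.l2Closed_centralizer _
  have hrow : ∀ (t : T) (c : T × Fin K),
      ‖∑ i, ent e x c (t, i) * star (ent e x c (t, i))‖ ≤ 1 := by
    intro t c
    simp only [ent_mul_star he]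
    rw [← ent_sum, ← Finset.sum_mul, ← Finset.mul_sum, her]
    refine norm_ent_diag_le he (star_right_conjugate_nonneg (hr t).nonneg x) ?_ c
    calc x * r t * star x ≤ x * 1 * star x := star_right_conjugate_le_conjugate (hr t).le_one x
      _ ≤ 1 := by
        rw [mul_one, ← CStarAlgebra.norm_le_one_iff_of_nonneg _ (mul_star_self_nonneg x),
          CStarRing.norm_self_mul_star]
        nlinarith [norm_nonneg x]
  choose v hv1 hv2 using fun t : T => hf (P ⊓ comm e) (comm e) (hP.inf hN) hN inf_le_right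
    (irr he heP hirr) K (T × Fin K) (fun c i => ent e x c (t, i)) Φ
    (fun c i => ent_mem_comm he x _ _) (hrow t) hΦ1 hΦ2
  have hK0 : (0 : ℝ) < K := by exact_mod_cast hK
  obtain ⟨κ, hκ⟩ : ∃ κ : ℝ, κ ^ 2 * K = 1 :=
    ⟨√(1 / K), by rw [Real.sq_sqrt (by positivity)]; field_simp⟩
  let W : T × Fin K → T × Fin K → M := fun i j =>
    if i.1 = j.1 then ((κ : ℂ) * Φ i.2 j.2) • v i.1 i.2 else 0
  have hWc : ∀ i j, W i j ∈ comm e := fun i j => by
    simp only [W]
    split_ifs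
    · exact SMulMemClass.smul_mem _ (hv1 _ _).1.2
    · exact zero_mem _
  have hWP : ∀ i j, W i j ∈ P := fun i j => by
    simp only [W]
    split_ifs
    · exact SMulMemClass.smul_mem _ (hv1 _ _).1.1
    · exact zero_mem _
  have hrt : ∀ t, r t = asm e fun i j => if i = j then (if i.1 = t then 1 else 0) else 0 := by
    intro t
    rw [asm_diag, Fintype.sum_prod_type, Finset.sum_eq_single t, ← her]
    · simp
    · intro t' _ ht'
      simp [ht']
    · simp
  refine ⟨asm e W, asm_mem heP hWP, h.mem_unitary_of_mul_star ?_, fun t => ?_,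
    fun c j => ∑ i, ent e x c i * W i j, fun c j => sum_mem fun i _ =>
      mul_mem (ent_mem_comm he x _ _) (hWc _ _), ?_, ?_⟩
  · rw [star_asm he hWc, asm_mul he _ (fun i j => star_mem (hWc j i))]
    have : ∀ i k : T × Fin K, ∑ j, W i j * star (W k j) = if i = k then 1 else 0 := by
      rintro ⟨t, i⟩ ⟨t', k⟩
      rw [Fintype.sum_prod_type, Finset.sum_eq_single t]
      · by_cases htt : t' = t
        · subst htt
          simp only [W, if_true, star_smul, smul_mul_smul_comm, ← Finset.sum_smul]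
          have e1 : ∀ b, (κ : ℂ) * Φ i b * star ((κ : ℂ) * Φ k b) =
              (κ : ℂ) ^ 2 * (Φ i b * star (Φ k b)) := fun b => by
            rw [star_mul, Complex.star_def, Complex.conj_ofReal]; ring
          simp only [e1, ← Finset.mul_sum, hΦ2]
          by_cases hik : i = k
          · subst hik
            have : (κ : ℂ) ^ 2 * K = 1 := by exact_mod_cast hκ
            simp [this, (Unitary.mem_iff.1 (hv1 t' i).2).2]
          · simp [hik]
        · simp [W, htt, Ne.symm htt]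
      · intro t'' _ ht
        simp [W, Ne.symm ht]
      · simp
    simp only [this]
    rw [asm_diag]
    simp [he.sum]
  · rw [hrt t, asm_mul he _ (fun i j => by split_ifs <;> simp [one_mem, zero_mem]),
      asm_mul he _ hWc]
    congr 1
    funext i j
    simp only [mul_ite, ite_mul, mul_one, one_mul, mul_zero, zero_mul, Finset.sum_ite_eq,
      Finset.sum_ite_eq', mem_univ, if_true]
    by_cases hij : i.1 = j.1
    · rw [hij]
    · simp [W, hij]
  · conv_lhs => rw [← asm_ent he x]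
    rw [asm_mul he _ hWc]
  · have e1 : ∀ (c : T × Fin K) (t : T) (b : Fin K), ∑ i, ent e x c i * W i (t, b) =
        (κ : ℂ) • ∑ i, Φ i b • (ent e x c (t, i) * v t i) := by
      intro c t b
      rw [Fintype.sum_prod_type, Finset.sum_eq_single t, Finset.smul_sum]
      · refine Finset.sum_congr rfl fun i _ => ?_
        simp only [W, if_true, mul_smul_comm, smul_smul]
      · intro t' _ ht'
        simp [W, ht']
      · simp
    calc _ = ∑ t, κ ^ 4 * ∑ c, ∑ b, q4 τ (∑ i, Φ i b • (ent e x c (t, i) * v t i)) := by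
          have e2 : ∀ c, ∑ j, q4 τ (∑ i, ent e x c i * W i j) =
              ∑ t, ∑ b, κ ^ 4 * q4 τ (∑ i, Φ i b • (ent e x c (t, i) * v t i)) := fun c => by
            rw [Fintype.sum_prod_type]
            simp only [e1, q4_smul]
          simp only [e2, Finset.mul_sum]
          exact Finset.sum_comm
      _ ≤ ∑ _t : T, κ ^ 4 * (6 * K * Fintype.card (T × Fin K)) :=
          Finset.sum_le_sum fun t _ => mul_le_mul_of_nonneg_left (hv2 t) (by positivity)
      _ = 6 * (Fintype.card T : ℝ) ^ 2 * (κ ^ 2 * K) ^ 2 := by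
          simp only [Finset.sum_const, card_univ, nsmul_eq_mul, Fintype.card_prod,
            Fintype.card_fin]
          push_cast
          ring
      _ = _ := by rw [hκ]; ring

/-- encoding flat entries in a small corner -/
theorem encode (h : TF τ) (ht : TruncStmt τ) {ι : Type} [Fintype ι] [DecidableEq ι] [Nonempty ι]
    {e : ι → ι → M} (he : MU e) {z : ι → ι → M} (hz : ∀ i j, z i j ∈ comm e) {Q C η : ℝ}
    (hC : 0 < C) (hQ : ∑ i, ∑ j, q4 τ (z i j) ≤ Q) {l : ℕ} (σ₁ σ₂ : Fin l → ι)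
    (h₁ : Function.Injective σ₁) (h₂ : Function.Injective σ₂) (h₁₂ : ∀ a b, σ₁ a ≠ σ₂ b)
    (hcarr : ∀ t : ι × ι × Bool → M, (∀ i, t i ∈ comm e ∧ t i ∈ unitary M) →
      ∃ (y : Fin l × Fin l → M) (s : ι × ι × Bool → M), (∀ j, y j ∈ comm e ∧ y j ∈ unitary M) ∧
        (∀ A : StarSubalgebra ℂ M, (∀ j, y j ∈ A) → ∀ i, s i ∈ A) ∧
        ∑ i, n2 τ (t i - s i) ^ 2 ≤ η * Fintype.card (ι × ι × Bool)) :
    ∃ B : M, IsSelfAdjoint B ∧ ‖B‖ ≤ 1 ∧
      (∑ s ∈ univ.image σ₁ ∪ univ.image σ₂, e s s) * B = B ∧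
      ∀ A : StarSubalgebra ℂ M, (∀ i j, e i j ∈ A) → B ∈ A →
        ∃ a ∈ A, n2 τ (asm e z - a) ^ 2 ≤ 4 * Q / C + 8 * C * η := by
  have hN : L2Closed τ (comm e) := h.l2Closed_centralizer _
  have hk : (0 : ℝ) < Fintype.card ι := by exact_mod_cast Fintype.card_pos
  obtain ⟨Λ, hΛ0, hΛ⟩ : ∃ Λ : ℝ, 0 < Λ ∧ Λ ^ 2 * Fintype.card ι = C :=
    ⟨√(C / Fintype.card ι), by positivity, by rw [Real.sq_sqrt (by positivity)]; field_simp⟩
  choose w₁ hw₁ w₂ hw₂ hu₁ hu₂ hw using fun i j => ht (comm e) (h.isClosed hN) (z i j) (hz i j) Λ hΛ0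
  obtain ⟨y, s, hy, hs, hsum⟩ := hcarr
    (fun p => if p.2.2 = true then w₂ p.1 p.2.1 else w₁ p.1 p.2.1)
    (fun p => by split_ifs <;> exact ⟨by simp [hw₁, hw₂], by simp [hu₁, hu₂]⟩)
  let A₀ : M := ∑ p : Fin l × Fin l, y p * e (σ₁ p.1) (σ₂ p.2)
  have hA₀ : star A₀ = ∑ p : Fin l × Fin l, star (y p) * e (σ₂ p.2) (σ₁ p.1) := by
    simp only [A₀, star_sum, star_mul, he.star]
    exact Finset.sum_congr rfl fun p _ => (mem_comm he).1 (star_mem (hy p).1) _ _
  have hA₀n : ‖A₀‖ ≤ (l : ℝ) ^ 2 := by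
    calc ‖A₀‖ ≤ ∑ _p : Fin l × Fin l, (1 : ℝ) := by
          refine norm_sum_le_of_le _ fun p _ => ?_
          rw [CStarRing.norm_mem_unitary_mul _ (hy p).2]
          exact norm_e_le he _ _
      _ = _ := by simp [sq]
  let c : ℝ := 1 / (2 * (l : ℝ) ^ 2 + 1)
  have hc0 : 0 < c := by positivity
  have hent : ∀ p : Fin l × Fin l, ent e (A₀ + star A₀) (σ₁ p.1) (σ₂ p.2) = y p := by
    intro p
    rw [ent_add, hA₀, ent_sum, ent_sum, Finset.sum_eq_single p, Finset.sum_eq_zero, add_zero,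
      ent_single he (hy p).1, if_pos ⟨rfl, rfl⟩]
    · intro q _
      rw [ent_single he (star_mem (hy q).1), if_neg fun hh => h₁₂ _ _ hh.1]
    · intro q _ hq
      rw [ent_single he (hy q).1, if_neg fun hh => hq (Prod.ext (h₁ hh.1).symm (h₂ hh.2))]
    · simp
  refine ⟨(c : ℂ) • (A₀ + star A₀), ?_, ?_, ?_, fun A hAe hAB => ?_⟩
  · rw [IsSelfAdjoint, star_smul, star_add, star_star, add_comm, Complex.star_def,
      Complex.conj_ofReal]
  · rw [norm_smul, Complex.norm_real, Real.norm_eq_abs, abs_of_pos hc0]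
    have h1 := norm_add_le A₀ (star A₀)
    rw [norm_star] at h1
    rw [show c = 1 / (2 * (l : ℝ) ^ 2 + 1) from rfl, div_mul_eq_mul_div, div_le_one (by positivity)]
    linarith
  · have key : ∀ (g : M) (i j : ι), g ∈ comm e → i ∈ univ.image σ₁ ∪ univ.image σ₂ →
        (∑ s ∈ univ.image σ₁ ∪ univ.image σ₂, e s s) * (g * e i j) = g * e i j := by
      intro g i j hg hi
      rw [Finset.sum_mul, Finset.sum_eq_single i]
      · rw [← mul_assoc, (mem_comm he).1 hg, mul_assoc, he.mul, if_pos rfl]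
      · intro s _ hs
        rw [← mul_assoc, (mem_comm he).1 hg, mul_assoc, he.mul, if_neg hs, mul_zero]
      · exact fun hh => absurd hi hh
    rw [mul_smul_comm, mul_add, hA₀]
    congr 2
    · rw [Finset.mul_sum]
      exact Finset.sum_congr rfl fun p _ => key _ _ _ (hy p).1 (by simp)
    · rw [Finset.mul_sum]
      exact Finset.sum_congr rfl fun p _ => key _ _ _ (star_mem (hy p).1) (by simp)
  · have hyA : ∀ p, y p ∈ A := by
      intro p
      have h1 := ent_mem hAe (SMulMemClass.smul_mem ((c : ℂ)⁻¹) hAB) (σ₁ p.1) (σ₂ p.2)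
      rwa [smul_smul, inv_mul_cancel₀ (by exact_mod_cast hc0.ne'), one_smul, hent] at h1
    have hsA := hs A hyA
    have hsN := hs (comm e) fun j => (hy j).1
    let F : M → M → M := fun a b =>
      (Λ / 2 : ℂ) • (a + star a) + (Complex.I * (Λ / 2)) • (b + star b)
    have hF : ∀ (A' : StarSubalgebra ℂ M) a b, a ∈ A' → b ∈ A' → F a b ∈ A' := fun A' a b ha hb =>
      add_mem (SMulMemClass.smul_mem _ (add_mem ha (star_mem ha)))
        (SMulMemClass.smul_mem _ (add_mem hb (star_mem hb)))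
    have hFn : ∀ a b a' b', n2 τ (F a b - F a' b') ^ 2 ≤
        2 * Λ ^ 2 * (n2 τ (a - a') ^ 2 + n2 τ (b - b') ^ 2) := by
      intro a b a' b'
      have e1 : F a b - F a' b' = (Λ / 2 : ℂ) • ((a - a') + star (a - a')) +
          (Complex.I * (Λ / 2)) • ((b - b') + star (b - b')) := by
        simp only [F, star_sub, smul_add, smul_sub]
        abel
      have e2 : ‖(Λ / 2 : ℂ)‖ = Λ / 2 := by simp [abs_of_pos hΛ0]
      have e3 : ∀ d : M, n2 τ (d + star d) ≤ 2 * n2 τ d := fun d => by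
        have := n2_add_le (τ := τ) d (star d)
        rw [h.n2_star] at this
        linarith
      have e4 : ∀ d : M, (Λ / 2 * n2 τ (d + star d)) ^ 2 ≤ Λ ^ 2 * n2 τ d ^ 2 := fun d => by
        rw [← mul_pow]
        refine pow_le_pow_left₀ (mul_nonneg (by positivity) (n2_nonneg _)) ?_ 2
        nlinarith [e3 d]
      rw [e1]
      refine (n2_add_sq_le _ _).trans ?_
      rw [n2_smul, n2_smul, norm_mul, Complex.norm_I, one_mul, e2]
      nlinarith [e4 (a - a'), e4 (b - b')]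
    refine ⟨asm e fun i j => F (s (i, j, false)) (s (i, j, true)),
      asm_mem hAe fun i j => hF A _ _ (hsA _) (hsA _), ?_⟩
    rw [asm_sub]
    refine le_of_mul_le_mul_left ?_ hk
    rw [n2_asm h he fun i j => sub_mem (hz i j) (hF _ _ _ (hsN _) (hsN _))]
    have hb : ∀ i j, n2 τ (z i j - F (s (i, j, false)) (s (i, j, true))) ^ 2 ≤
        4 / Λ ^ 2 * q4 τ (z i j) + 4 * Λ ^ 2 *
          (n2 τ (w₁ i j - s (i, j, false)) ^ 2 + n2 τ (w₂ i j - s (i, j, true)) ^ 2) := by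
      intro i j
      have e1 := n2_add_sq_le (τ := τ) (z i j - F (w₁ i j) (w₂ i j))
        (F (w₁ i j) (w₂ i j) - F (s (i, j, false)) (s (i, j, true)))
      rw [sub_add_sub_cancel] at e1
      have e2 : n2 τ (z i j - F (w₁ i j) (w₂ i j)) ^ 2 ≤ 2 * q4 τ (z i j) / Λ ^ 2 := hw i j
      have e3 := hFn (w₁ i j) (w₂ i j) (s (i, j, false)) (s (i, j, true))
      have e4 : 4 / Λ ^ 2 * q4 τ (z i j) = 2 * (2 * q4 τ (z i j) / Λ ^ 2) := by ring
      linarith
    have hsum' : ∑ i, ∑ j, (n2 τ (w₁ i j - s (i, j, false)) ^ 2 +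
        n2 τ (w₂ i j - s (i, j, true)) ^ 2) ≤ η * (2 * (Fintype.card ι : ℝ) ^ 2) := by
      convert hsum using 1
      · simp only [Fintype.sum_prod_type, Fintype.sum_bool, if_true, Bool.false_eq_true, if_false]
        exact Finset.sum_congr rfl fun i _ => Finset.sum_congr rfl fun j _ => add_comm _ _
      · simp only [Fintype.card_prod, Fintype.card_bool]
        push_cast
        ring
    calc _ ≤ ∑ i, ∑ j, (4 / Λ ^ 2 * q4 τ (z i j) + 4 * Λ ^ 2 *
          (n2 τ (w₁ i j - s (i, j, false)) ^ 2 + n2 τ (w₂ i j - s (i, j, true)) ^ 2)) :=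
          Finset.sum_le_sum fun i _ => Finset.sum_le_sum fun j _ => hb i j
      _ = 4 / Λ ^ 2 * ∑ i, ∑ j, q4 τ (z i j) + 4 * Λ ^ 2 * ∑ i, ∑ j,
          (n2 τ (w₁ i j - s (i, j, false)) ^ 2 + n2 τ (w₂ i j - s (i, j, true)) ^ 2) := by
          simp only [Finset.sum_add_distrib (f := fun j => 4 / Λ ^ 2 * q4 τ (z _ j)),
            Finset.sum_add_distrib (f := fun i => ∑ j, 4 / Λ ^ 2 * q4 τ (z i j)), Finset.mul_sum]
      _ ≤ 4 / Λ ^ 2 * Q + 4 * Λ ^ 2 * (η * (2 * (Fintype.card ι : ℝ) ^ 2)) :=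
          add_le_add (mul_le_mul_of_nonneg_left hQ (by positivity))
            (mul_le_mul_of_nonneg_left hsum' (by positivity))
      _ = _ := by
          rw [← hΛ]
          field_simp
          ring

end Main

open Main Ent in
theorem mainStmt_of (h : TF τ) (hmu : MUStmt τ) (hf : FlatStmt τ) (ht : TruncStmt τ)
    (hc : CarrStmt τ) : MainStmt τ := by
  intro P hP hirr hfin T _ r hr x hx ε hε
  have hT : Nonempty T := by
    by_contra hT
    rw [not_nonempty_iff] at hT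
    have h1 := hr.sum
    have h2 := h.one
    rw [Finset.univ_eq_empty, Finset.sum_empty] at h1
    rw [← h1, map_zero] at h2
    exact zero_ne_one h2
  have hk0 : (1 : ℝ) ≤ Fintype.card T := by exact_mod_cast Fintype.card_pos
  obtain ⟨m, hm⟩ := exists_nat_ge (3 / ε + 3)
  have hε3 : 0 < 3 / ε := by positivity
  have hm3 : 3 ≤ m := by exact_mod_cast (show (3 : ℝ) ≤ m by linarith)
  obtain ⟨C, hC⟩ : ∃ C : ℝ, C = 96 * (Fintype.card T : ℝ) ^ 2 / ε ^ 2 := ⟨_, rfl⟩
  have hC0 : 0 < C := by rw [hC]; positivity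
  obtain ⟨n₀, hn₀⟩ := hc (ε ^ 2 / (32 * C)) (2 * Fintype.card T ^ 2 * m ^ 2) (by positivity)
  obtain ⟨l, hl⟩ : ∃ l : ℕ, l = n₀ + 1 := ⟨_, rfl⟩
  have hl1 : 1 ≤ l := by omega
  have hK3 : 3 * l ≤ m * l := Nat.mul_le_mul_right _ hm3
  have hK : 1 ≤ m * l := by omega
  obtain ⟨e, he, heP, her⟩ := hmu P hP (hirr.mono_right le_top) hfin T r hr (m * l) hK
  obtain ⟨V, hVP, hVu, hVr, z, hz, hxV, hq⟩ := flatV h hf hP hirr hK he heP hr.proj her hx
  obtain ⟨t₀⟩ := hT
  let σ₁ : Fin l → T × Fin (m * l) := fun a => (t₀, ⟨a, by omega⟩)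
  let σ₂ : Fin l → T × Fin (m * l) := fun a => (t₀, ⟨l + a, by omega⟩)
  let σ : T × Fin (m * l) := (t₀, ⟨2 * l, by omega⟩)
  have : Nonempty (T × Fin (m * l)) := ⟨σ⟩
  obtain ⟨B, hB1, hB2, hB3, hB4⟩ := encode h ht he hz hC0 hq σ₁ σ₂
    (fun a b hab => Fin.ext (by simpa [σ₁] using hab))
    (fun a b hab => Fin.ext (by simpa [σ₂] using hab))
    (fun a b hab => by
      have := a.2
      simp only [σ₁, σ₂, Prod.mk.injEq, Fin.mk.injEq, true_and] at hab
      omega)
    (hn₀ (comm e) (h.isClosed (h.l2Closed_centralizer _)) (Fin l × Fin l) _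
      (by simp only [Fintype.card_prod, Fintype.card_fin]; nlinarith)
      (by simp only [Fintype.card_prod, Fintype.card_fin, Fintype.card_bool]; apply le_of_eq; ring))
  refine ⟨m * l, e, univ.image σ₁ ∪ univ.image σ₂, σ, V, B, he, heP, her, ?_, ?_, hVP, hVu, hVr,
    hB1, hB2, hB3, fun A hA hB => ?_⟩
  · simp only [mem_union, mem_image, mem_univ, true_and, σ₁, σ₂, σ, Prod.mk.injEq, Fin.mk.injEq]
    rintro (⟨a, ha⟩ | ⟨a, ha⟩) <;> have := a.2 <;> omega
  · have h1 : #(univ.image σ₁ ∪ univ.image σ₂) ≤ l + l :=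
      (card_union_le _ _).trans (add_le_add (card_image_le.trans (by simp))
        (card_image_le.trans (by simp)))
    have h2 : (#(univ.image σ₁ ∪ univ.image σ₂) : ℝ) ≤ l + l := by exact_mod_cast h1
    have h3 : (1 : ℝ) ≤ l := by exact_mod_cast hl1
    have h4 : 3 ≤ ε * m := by
      have : 3 / ε ≤ m := by linarith
      rwa [div_le_iff₀ hε, mul_comm] at this
    simp only [Fintype.card_prod, Fintype.card_fin]
    push_cast
    have h5 : 3 * (l : ℝ) ≤ ε * m * l := mul_le_mul_of_nonneg_right h4 (by linarith)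
    have h6 : ε * m * l * 1 ≤ ε * m * l * Fintype.card T :=
      mul_le_mul_of_nonneg_left hk0 (by linarith)
    nlinarith
  · obtain ⟨a, ha, hn⟩ := hB4 A hA hB
    refine ⟨a, ha, ?_⟩
    rw [hxV]
    have e1 : 4 * (6 * (Fintype.card T : ℝ) ^ 2) / C + 8 * C * (ε ^ 2 / (32 * C)) = ε ^ 2 / 2 := by
      rw [hC]
      field_simp
      ring
    rw [e1] at hn
    exact lt_of_pow_lt_pow_left₀ 2 hε.le (hn.trans_lt (by nlinarith [pow_pos hε 2]))

end Crest.Agent.R95
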