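import Crest.Agent.R95.Basic

set_option autoImplicit false
set_option linter.unusedSectionVars false

open Finset Filter Topology
open scoped ComplexOrder Classical InnerProductSpace

namespace Crest.Agent.R95

universe u

variable {M : Type u} [CStarAlgebra M] [PartialOrder M] [StarOrderedRing M] {τ : M →ₚ[ℂ] ℂ}

namespace Near

theorem pi_mul {v : M} (hv : IsStarProjection (star v * v)) : v * (star v * v) = v := by
  have e := hv.isIdempotentElem.eq
  have : star (v * (star v * v) - v) * (v * (star v * v) - v) = 0 := by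
    simp only [star_sub, star_mul, star_star]
    have e2 : star v * v * star v * (v * (star v * v)) = star v * v := by
      rw [show star v * v * star v * (v * (star v * v)) =
        star v * v * (star v * v) * (star v * v) by noncomm_ring, e, e]
    have e3 : star v * v * star v * v = star v * v := by rw [mul_assoc, e]
    have e4 : star v * (v * (star v * v)) = star v * v := by rw [← mul_assoc, e]
    rw [sub_mul, mul_sub, mul_sub, e2, e3, e4]
    simp
  exact sub_eq_zero.1 ((CStarRing.star_mul_self_eq_zero_iff _).1 this)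

end Near

theorem nearStmt_of (h : TF τ) (hp : PolarStmt τ) (hc : CompStmt τ) : NearStmt τ := by
  intro hI u hu p hpp
  obtain ⟨hu1, hu2⟩ := Unitary.mem_iff.1 hu
  have ps : star p = p := hpp.isSelfAdjoint.star_eq
  have pp : p * p = p := hpp.isIdempotentElem.eq
  obtain ⟨q, hq⟩ : ∃ q, q = 1 - p := ⟨_, rfl⟩
  have hqq : IsStarProjection q := hq ▸ hpp.one_sub
  have qs : star q = q := hqq.isSelfAdjoint.star_eq
  have qq : q * q = q := hqq.isIdempotentElem.eq
  have pq : p * q = 0 := by rw [hq, mul_sub, mul_one, pp, sub_self]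
  have qp : q * p = 0 := by rw [hq, sub_mul, one_mul, pp, sub_self]
  have hpq : p + q = 1 := by rw [hq]; abel
  obtain ⟨y, hy⟩ : ∃ y, y = p + q * u * q := ⟨_, rfl⟩
  have ys : star y = p + q * star u * q := by rw [hy]; simp [ps, qs, mul_assoc]
  have yp : y * p = p := by rw [hy, add_mul, pp, mul_assoc, qp, mul_zero, add_zero]
  have ysp : star y * p = p := by rw [ys, add_mul, pp, mul_assoc, qp, mul_zero, add_zero]
  have hc1 : 1 - star y * y = star (p * u * q) * (p * u * q) := by
    have e1 : star y * y = p + q * star u * q * u * q := by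
      rw [ys, hy, add_mul, mul_add, mul_add, pp, ← mul_assoc p, ← mul_assoc p, pq,
        mul_assoc _ q p, qp, show q * star u * q * (q * u * q) = q * star u * (q * q) * u * q by
          noncomm_ring, qq]
      simp
    have e2 : star (p * u * q) * (p * u * q) = q * star u * p * u * q := by
      rw [star_mul, star_mul, ps, qs, show q * (star u * p) * (p * u * q) =
        q * star u * (p * p) * u * q by noncomm_ring, pp]
    have e3 : q * star u * p * u * q + q * star u * q * u * q = q := by
      rw [show q * star u * p * u * q + q * star u * q * u * q =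
        q * (star u * (p + q) * u) * q by noncomm_ring, hpq, mul_one, hu1, mul_one, qq]
    rw [e1, e2, ← hpq, eq_sub_of_add_eq e3]
    abel
  have hyn : ‖y‖ ≤ 1 := by
    have h1 : star y * y ≤ 1 := sub_nonneg.1 (hc1 ▸ star_mul_self_nonneg _)
    rw [← CStarAlgebra.norm_le_one_iff_of_nonneg _ (star_mul_self_nonneg y),
      CStarRing.norm_star_mul_self] at h1
    nlinarith [norm_nonneg y]
  obtain ⟨v, -, hv, hv1, hv2, -, -⟩ := hp ⊤ l2Closed_top y trivial
  obtain ⟨a, ha⟩ : ∃ a, a = CFC.abs y := ⟨_, rfl⟩
  rw [← ha] at hv1 hv2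
  have a0 : 0 ≤ a := ha ▸ CFC.abs_nonneg y
  have aa : a * a = star y * y := ha ▸ CFC.abs_mul_abs y
  have a1 : a ≤ 1 := by
    rw [← CStarAlgebra.norm_le_one_iff_of_nonneg _ a0, ha, CFC.norm_abs]; exact hyn
  have vv := Near.pi_mul hv
  have vv' : star v * (v * star v) = star v := by
    have := congrArg star vv
    rwa [star_mul, star_mul, star_star, mul_assoc] at this
  have hv' : IsStarProjection (v * star v) :=
    ⟨by rw [IsIdempotentElem, mul_assoc, vv'], by simp [IsSelfAdjoint]⟩
  have ht : tr τ (1 - star v * v) = tr τ (1 - v * star v) := by rw [tr_sub, tr_sub, h.tr_comm]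
  obtain ⟨v', -, b1, b2, b3⟩ := hc ⊤ l2Closed_top hI _ trivial _ trivial hv.one_sub hv'.one_sub ht.le
  have b3 := b3 ht
  have b4 : v' * (1 - star v * v) = v' := by rw [← b1, ← mul_assoc, b3, b2]
  have c1 : star v * v' = 0 := by rw [← b2, ← mul_assoc, mul_sub, vv', mul_one, sub_self, zero_mul]
  have c2 : v' * star v = 0 := by
    rw [← b4, mul_assoc, sub_mul, mul_assoc, vv', one_mul, sub_self, mul_zero]
  have c1' : star v' * v = 0 := by simpa using congrArg star c1
  have c2' : v * star v' = 0 := by simpa using congrArg star c2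
  have hw : v + v' ∈ unitary M := by
    rw [Unitary.mem_iff, star_add, add_mul, add_mul, mul_add, mul_add, mul_add, mul_add, c1, c2,
      c1', c2', b1, b3]
    constructor <;> abel
  obtain ⟨w, hw'⟩ : ∃ w, w = v + v' := ⟨_, rfl⟩
  rw [← hw'] at hw
  have wa : w * a = y := by
    rw [hw', add_mul, hv1, ← b4, mul_assoc, sub_mul, mul_assoc, hv1, hv2, one_mul, sub_self,
      mul_zero, add_zero]
  have ap : a * p = p := by
    have hunit : IsUnit (1 + a) :=
      CStarAlgebra.isUnit_of_le 1 (le_add_of_nonneg_right a0) isStrictlyPositive_one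
    have : (1 + a) * (a * p - p) = 0 := by
      rw [show (1 + a) * (a * p - p) = a * a * p - p by noncomm_ring, aa, mul_assoc, yp, ysp,
        sub_self]
    exact sub_eq_zero.1 (hunit.mul_right_eq_zero.1 this)
  have wp : w * p = p := by rw [← ap, ← mul_assoc, wa, yp, ap]
  have pw : p * w = p := by
    have : star w * p = p := by rw [← wp, ← mul_assoc, (Unitary.mem_iff.1 hw).1, one_mul, wp]
    simpa [ps] using congrArg star this
  refine ⟨w, hw, pw, ?_⟩
  have qn : ‖q‖ ≤ 1 := hqq.norm_le
  have n0 := n2_nonneg (τ := τ) p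
  have d1 : n2 τ (w - y) ≤ n2 τ p := by
    have e1 : n2 τ (w - y) = n2 τ (1 - a) := by
      rw [← n2_unitary_mul hw (1 - a), mul_sub, mul_one, wa]
    have e2 : n2 τ (1 - a) ^ 2 ≤ n2 τ (p * u * q) ^ 2 := by
      rw [n2_sq, n2_sq, ← hc1, ← aa, star_sub, star_one, a0.isSelfAdjoint.star_eq]
      have := h.tr_mul_nonneg a0 (sub_nonneg.2 a1)
      rw [show 1 - a * a = (1 - a) * (1 - a) + (a * (1 - a) + a * (1 - a)) by noncomm_ring,
        tr_add, tr_add]
      linarith
    have e3 : n2 τ (p * u * q) ≤ n2 τ p := by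
      refine (h.n2_mul_le_right _ _).trans ?_
      rw [h.n2_mul_unitary _ hu]
      exact mul_le_of_le_one_right n0 qn
    rw [e1]
    exact (pow_le_pow_iff_left₀ (n2_nonneg _) (n2_nonneg _) two_ne_zero).1 e2 |>.trans e3
  have d2 : n2 τ (y - u) ≤ 3 * n2 τ p := by
    have e1 : y - u = p - p * u - q * (u * p) := by
      rw [hy, hq]
      noncomm_ring
    have e2 := n2_sub_le (τ := τ) (p - p * u) (q * (u * p))
    have e3 := n2_sub_le (τ := τ) p (p * u)
    have e4 := n2_mul_le_left (τ := τ) q (u * p)
    rw [h.n2_mul_unitary _ hu] at e3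
    rw [n2_unitary_mul hu] at e4
    have e5 : ‖q‖ * n2 τ p ≤ n2 τ p := mul_le_of_le_one_left n0 qn
    rw [e1]
    linarith
  have := n2_triangle (τ := τ) w y u
  linarith

end Crest.Agent.R95
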