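import Crest.Agent.R95.Avg

/-! Row 95: polar decomposition. -/

set_option autoImplicit false
set_option linter.unusedSectionVars false

open Finset Filter Topology
open scoped ComplexOrder Classical

namespace Crest.Agent.R95

universe u

variable {M : Type u} [CStarAlgebra M] [PartialOrder M] [StarOrderedRing M] {τ : M →ₚ[ℂ] ℂ}

theorem abs_mem {P : StarSubalgebra ℂ M} (hP : IsClosed (P : Set M)) {y : M} (hy : y ∈ P) :
    CFC.abs y ∈ P := by
  rw [CFC.abs, CFC.sqrt_eq_real_sqrt _ (star_mul_self_nonneg y)]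
  exact cfcₙ_mem (𝕜' := ℂ) _ (mul_mem (star_mem hy) hy)

/-- limits in 2-norm are unique -/
theorem TF.eq_of_tendsto (h : TF τ) {x : ℕ → M} {a b : M}
    (ha : Tendsto (fun n => n2 τ (x n - a)) atTop (𝓝 0))
    (hb : Tendsto (fun n => n2 τ (x n - b)) atTop (𝓝 0)) : a = b := by
  refine h.eq_of_n2 (le_antisymm ?_ (n2_nonneg _))
  have := ha.add hb
  rw [add_zero] at this
  refine ge_of_tendsto' this fun n => ?_
  rw [n2_sub_comm (x n) a]
  exact n2_triangle _ _ _

theorem TF.tendsto_mul_right (h : TF τ) {x : ℕ → M} {a : M}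
    (ha : Tendsto (fun n => n2 τ (x n - a)) atTop (𝓝 0)) (c : M) :
    Tendsto (fun n => n2 τ (x n * c - a * c)) atTop (𝓝 0) := by
  refine squeeze_zero (fun _ => n2_nonneg _) (fun n => ?_) (by simpa using ha.mul_const ‖c‖)
  rw [← sub_mul]
  exact h.n2_mul_le_right _ _

theorem tendsto_mul_left {x : ℕ → M} {a : M}
    (ha : Tendsto (fun n => n2 τ (x n - a)) atTop (𝓝 0)) (c : M) :
    Tendsto (fun n => n2 τ (c * x n - c * a)) atTop (𝓝 0) := by
  refine squeeze_zero (fun _ => n2_nonneg _) (fun n => ?_) (by simpa using ha.const_mul ‖c‖)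
  rw [← mul_sub]
  exact n2_mul_le_left _ _

theorem TF.tendsto_star (h : TF τ) {x : ℕ → M} {a : M}
    (ha : Tendsto (fun n => n2 τ (x n - a)) atTop (𝓝 0)) :
    Tendsto (fun n => n2 τ (star (x n) - star a)) atTop (𝓝 0) := by
  simpa only [← star_sub, h.n2_star] using ha

namespace Polar

noncomputable def c (n : ℕ) : ℝ := 1 / ((n : ℝ) + 1)
noncomputable def g (n : ℕ) (t : ℝ) : ℝ := (|t| + c n)⁻¹
noncomputable def f (n : ℕ) (t : ℝ) : ℝ := |t| * g n t

theorem c_pos (n : ℕ) : 0 < c n := Nat.one_div_pos_of_nat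
theorem den_pos (n : ℕ) (t : ℝ) : 0 < |t| + c n := add_pos_of_nonneg_of_pos (abs_nonneg t) (c_pos n)
@[fun_prop] theorem g_cont (n : ℕ) : Continuous (g n) :=
  (continuous_abs.add continuous_const).inv₀ fun t => (den_pos n t).ne'
@[fun_prop] theorem f_cont (n : ℕ) : Continuous (f n) := continuous_abs.mul (g_cont n)
theorem f_nonneg (n : ℕ) (t : ℝ) : 0 ≤ f n t := mul_nonneg (abs_nonneg t) (inv_pos.2 (den_pos n t)).le
theorem f_le_one (n : ℕ) (t : ℝ) : f n t ≤ 1 := by
  rw [f, g, ← div_eq_mul_inv, div_le_one (den_pos n t)]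
  linarith [c_pos n]
theorem f_mono {m n : ℕ} (hmn : m ≤ n) (t : ℝ) : f m t ≤ f n t := by
  refine mul_le_mul_of_nonneg_left (inv_anti₀ (den_pos n t) ?_) (abs_nonneg t)
  have : c n ≤ c m := Nat.one_div_le_one_div hmn
  linarith
theorem abs_sub_le_c (n : ℕ) (t : ℝ) : ‖|t| * f n t - |t|‖ ≤ c n := by
  have h1 : |t| * f n t - |t| = -(c n * f n t) := by
    have := (den_pos n t).ne'
    rw [f, g]
    field_simp
    ring
  rw [h1, norm_neg, Real.norm_of_nonneg (mul_nonneg (c_pos n).le (f_nonneg n t))]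
  nlinarith [c_pos n, f_le_one n t]
theorem c_tendsto : Tendsto c atTop (𝓝 0) := tendsto_one_div_add_atTop_nhds_zero_nat

end Polar

open Polar in
theorem polarStmt (h : TF τ) : PolarStmt τ := by
  intro P hP y hy
  have hPc := h.isClosed hP
  obtain ⟨b, hbdef⟩ : ∃ b, b = CFC.abs y := ⟨_, rfl⟩
  rw [← hbdef]
  have hb0 : 0 ≤ b := hbdef ▸ CFC.abs_nonneg y
  have hbs : IsSelfAdjoint b := hb0.isSelfAdjoint
  have hbP : b ∈ P := hbdef ▸ abs_mem hPc hy
  have hbb : star y * y = b * b := by rw [hbdef, CFC.abs_mul_abs]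
  have hbabs : cfc (fun t : ℝ => |t|) b = b := by
    conv_rhs => rw [← cfc_id' ℝ b]
    exact cfc_congr fun t ht => abs_of_nonneg (spectrum_nonneg_of_nonneg hb0 ht)
  let G : ℕ → M := fun n => cfc (g n) b
  let F : ℕ → M := fun n => cfc (f n) b
  have hGs : ∀ n, star (G n) = G n := fun n => (cfc_predicate (g n) b : IsSelfAdjoint _)
  have hbG : ∀ n, b * G n = F n := fun n => by
    conv_lhs => rw [← hbabs]
    rw [hbabs]
    nth_rewrite 1 [← hbabs]
    exact (cfc_mul _ _ b).symm
  have hGb : ∀ n, G n * b = F n := fun n => by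
    have := congrArg star (hbG n)
    rwa [star_mul, hGs, hbs.star_eq, (cfc_predicate (f n) b : IsSelfAdjoint _).star_eq] at this
  let v : ℕ → M := fun n => y * G n
  have hvv : ∀ m n, star (v m) * v n = cfc (fun t => f m t * f n t) b := fun m n => by
    rw [cfc_mul _ _ b]
    simp only [v, star_mul, hGs]
    rw [mul_assoc, ← mul_assoc (star y), hbb, mul_assoc b, hbG, ← mul_assoc, hGb]
  have hvn : ∀ n, ‖v n‖ ≤ 1 := fun n => by
    have h1 : ‖v n‖ * ‖v n‖ ≤ 1 := by
      rw [← CStarRing.norm_star_mul_self, hvv]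
      refine norm_cfc_le zero_le_one fun t _ => ?_
      rw [Real.norm_of_nonneg (mul_nonneg (f_nonneg n t) (f_nonneg n t))]
      nlinarith [f_nonneg n t, f_le_one n t]
    nlinarith [norm_nonneg (v n)]
  have hdiff : ∀ m n, m ≤ n → n2 τ (v n - v m) ^ 2 ≤ tr τ (F n) - tr τ (F m) := by
    intro m n hmn
    rw [n2_sq, ← tr_sub]
    refine tr_mono ?_
    simp only [star_sub, sub_mul, mul_sub, hvv, F]
    rw [← cfc_sub _ _ b, ← cfc_sub _ _ b, ← cfc_sub _ _ b, ← cfc_sub _ _ b]
    refine cfc_mono fun t _ => ?_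
    nlinarith [f_nonneg m t, f_le_one n t, f_mono hmn t]
  have hmono : Monotone fun n => tr τ (F n) := fun m n hmn => by
    have := hdiff m n hmn
    simp only
    nlinarith [sq_nonneg (n2 τ (v n - v m))]
  have hbdd : BddAbove (Set.range fun n => tr τ (F n)) := ⟨1, by
    rintro _ ⟨n, rfl⟩
    rw [← h.tr_one]
    exact tr_mono (cfc_le_one _ _ fun t _ => f_le_one n t)⟩
  have hcau := (tendsto_atTop_ciSup hmono hbdd).cauchySeq
  obtain ⟨w, -, hw⟩ := h.complete v 1 hvn fun ε hε => by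
    obtain ⟨N, hN⟩ := Metric.cauchySeq_iff.1 hcau (ε ^ 2) (by positivity)
    refine ⟨N, fun m hm n hn => lt_of_pow_lt_pow_left₀ 2 hε.le ?_⟩
    have h1 := hN m hm n hn
    rw [Real.dist_eq, abs_lt] at h1
    rcases le_total m n with hmn | hmn
    · rw [n2_sub_comm]
      linarith [hdiff m n hmn]
    · linarith [hdiff n m hmn]
  have hFb : Tendsto (fun n => n2 τ (b * F n - b)) atTop (𝓝 0) := by
    refine squeeze_zero (fun _ => n2_nonneg _) (fun n => (h.n2_le_norm _).trans ?_) c_tendsto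
    have : b * F n - b = cfc (fun t => |t| * f n t - |t|) b := by
      rw [cfc_sub _ _ b, cfc_mul _ _ b, hbabs]
    rw [this]
    exact norm_cfc_le (c_pos n).le fun t _ => abs_sub_le_c n t
  have hn2 : ∀ z, n2 τ (y * z) = n2 τ (b * z) := fun z => by
    rw [← sq_eq_sq₀ (n2_nonneg _) (n2_nonneg _), n2_sq, n2_sq, star_mul, star_mul, hbs.star_eq,
      mul_assoc, ← mul_assoc (star y), hbb]
    simp only [mul_assoc]
  have h1 : w * b = y := by
    refine h.eq_of_tendsto (h.tendsto_mul_right hw b) ?_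
    have : ∀ n, n2 τ (v n * b - y) = n2 τ (b * F n - b) := fun n => by
      have e1 : v n * b - y = y * (F n - 1) := by
        simp only [v, mul_sub, mul_one, mul_assoc, hGb]
      rw [e1, hn2, mul_sub, mul_one]
    simpa only [this] using hFb
  have h2 : star w * y = b := by
    refine h.eq_of_tendsto (h.tendsto_mul_right (h.tendsto_star hw) y) ?_
    have : ∀ n, star (v n) * y = b * F n := fun n => by
      simp only [v, star_mul, hGs]
      rw [mul_assoc, hbb, ← mul_assoc, hGb, ← hbG, mul_assoc, hGb, hbG]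
    simpa only [this] using hFb
  have h3' : ∀ z, b * z = 0 → w * z = 0 := by
    intro z hz
    refine h.eq_of_tendsto (h.tendsto_mul_right hw z) ?_
    have : ∀ n, n2 τ (v n * z - 0) = 0 := fun n => by
      have e1 : b * G n = G n * b := by rw [hbG, hGb]
      rw [sub_zero, mul_assoc, hn2, ← mul_assoc, e1, mul_assoc, hz, mul_zero, n2_zero]
    simpa only [this] using tendsto_const_nhds
  have h3 : ∀ z, y * z = 0 → w * z = 0 := fun z hz =>
    h3' z (h.faithful _ (by rw [← hn2, hz, n2_zero]))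
  have h4 : ∀ z, z * y = 0 → z * w = 0 := by
    intro z hz
    refine h.eq_of_tendsto (tendsto_mul_left hw z) ?_
    have : ∀ n, n2 τ (z * v n - 0) = 0 := fun n => by
      rw [sub_zero, ← mul_assoc, hz, zero_mul, n2_zero]
    simpa only [this] using tendsto_const_nhds
  have h5 : w * (1 - star w * w) = 0 := by
    refine h3' _ ?_
    have : star w * w * b = b := by rw [mul_assoc, h1, h2]
    have h6 := congrArg star this
    rw [star_mul, star_mul, star_star, hbs.star_eq] at h6
    rw [mul_sub, mul_one, h6, sub_self]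
  refine ⟨w, hP.mem_of_tendsto (fun n => mul_mem hy (cfc_mem (𝕜' := ℂ) _ hbP)) hw,
    ⟨?_, IsSelfAdjoint.star_mul_self w⟩, h1, h2, h3, h4⟩
  rw [mul_sub, mul_one, sub_eq_zero] at h5
  rw [IsIdempotentElem, mul_assoc, ← h5]

end Crest.Agent.R95
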