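import Crest.Agent.R95.Basic

/-! Row 95: approximate roots of a unitary that are on average almost `1`. -/

set_option autoImplicit false
set_option linter.unusedSectionVars false

open Finset Filter Topology
open scoped ComplexOrder Classical Real

namespace Crest.Agent.R95

universe u

variable {M : Type u} [CStarAlgebra M] [PartialOrder M] [StarOrderedRing M] {τ : M →ₚ[ℂ] ℂ}

namespace Root

open Complex

/-- the point of the unit circle of angle `t` -/
noncomputable def ex (t : ℝ) : ℂ := Complex.exp (t * I)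

theorem ex_cont : Continuous ex := by unfold ex; fun_prop
theorem norm_ex (t : ℝ) : ‖ex t‖ = 1 := Complex.norm_exp_ofReal_mul_I t
theorem ex_add (s t : ℝ) : ex (s + t) = ex s * ex t := by
  simp [ex, add_mul, Complex.exp_add]
theorem ex_neg (t : ℝ) : ex (-t) = (starRingEnd ℂ) (ex t) := by
  simp [ex, ← Complex.exp_conj]
theorem ex_two_pi : ex (2 * π) = 1 := by
  simp [ex]
theorem ex_re (t : ℝ) : (ex t).re = Real.cos t := Complex.exp_ofReal_mul_I_re t
theorem ex_im (t : ℝ) : (ex t).im = Real.sin t := Complex.exp_ofReal_mul_I_im t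
theorem ex_mul_conj (t : ℝ) : ex t * (starRingEnd ℂ) (ex t) = 1 := by
  rw [← ex_neg, ← ex_add]; simp [ex]
theorem ex_pow (t : ℝ) (k : ℕ) : ex t ^ k = ex (k * t) := by
  simp [ex, ← Complex.exp_nat_mul, mul_assoc]
theorem exists_ex {z : ℂ} (hz : ‖z‖ = 1) : ∃ θ, z = ex θ := by
  refine ⟨arg z, ?_⟩
  have := Complex.norm_mul_exp_arg_mul_I z
  rw [hz] at this
  simpa [ex] using this.symm

/-- cut-off vanishing on the nonpositive reals -/
noncomputable def chi (n : ℕ) (z : ℂ) : ℝ := min 1 (n * (‖z‖ + z.re))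

theorem chi_cont (n : ℕ) : Continuous (chi n) := by unfold chi; fun_prop
theorem chi_nonneg (n : ℕ) (z : ℂ) : 0 ≤ chi n z := by
  have := Complex.abs_re_le_norm z
  have h2 := neg_abs_le z.re
  exact le_min zero_le_one (mul_nonneg (Nat.cast_nonneg _) (by linarith))
theorem chi_le (n : ℕ) (z : ℂ) : chi n z ≤ 1 := min_le_left _ _
theorem chi_zero (n : ℕ) {z : ℂ} (h1 : z.re ≤ 0) (h2 : z.im = 0) : chi n z = 0 := by
  have : ‖z‖ = -z.re := by
    have e : z = (z.re : ℂ) := Complex.ext (by simp) (by simp [h2])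
    rw [e, Complex.norm_real, Real.norm_eq_abs, abs_of_nonpos h1]; simp
  simp [chi, this]

/-- a continuous odd approximation of the argument -/
noncomputable def phi (n : ℕ) (z : ℂ) : ℝ := arg z * chi n z

theorem abs_phi_le (n : ℕ) (z : ℂ) : |phi n z| ≤ π := by
  rw [phi, abs_mul, abs_of_nonneg (chi_nonneg n z)]
  have := Complex.abs_arg_le_pi z
  nlinarith [chi_le n z, chi_nonneg n z, abs_nonneg (arg z)]

theorem phi_cont (n : ℕ) : Continuous (phi n) := by
  rw [continuous_iff_continuousAt]
  intro z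
  by_cases hz : z ∈ slitPlane
  · exact (Complex.continuousAt_arg hz).mul (chi_cont n).continuousAt
  · rw [mem_slitPlane_iff, not_or, not_lt, not_not] at hz
    have h0 := chi_zero n hz.1 hz.2
    have : phi n z = 0 := by simp [phi, h0]
    rw [ContinuousAt, this]
    refine squeeze_zero_norm (a := fun w => π * chi n w) (fun w => ?_) ?_
    · rw [Real.norm_eq_abs, phi, abs_mul, abs_of_nonneg (chi_nonneg n w)]
      exact mul_le_mul_of_nonneg_right (Complex.abs_arg_le_pi w) (chi_nonneg n w)
    · have := ((chi_cont n).tendsto z).const_mul π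
      rwa [h0, mul_zero] at this

theorem phi_conj (n : ℕ) (z : ℂ) : phi n ((starRingEnd ℂ) z) = -phi n z := by
  have hc : chi n ((starRingEnd ℂ) z) = chi n z := by simp [chi]
  rw [phi, phi, hc, Complex.arg_conj]
  split_ifs with h
  · rw [Complex.arg_eq_pi_iff] at h
    simp [chi_zero n h.1.le h.2]
  · ring

theorem exists_phi {η : ℝ} (hη : 0 < η) :
    ∃ n, ∫ t in (-π)..π, (1 - (ex (phi n (ex t)) * (starRingEnd ℂ) (ex t)).re) ≤ η := by
  have key : Tendsto (fun n => ∫ t in (-π)..π,
      (1 - (ex (phi n (ex t)) * (starRingEnd ℂ) (ex t)).re)) atTop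
      (𝓝 (∫ _t in (-π)..π, (0 : ℝ))) := by
    refine intervalIntegral.tendsto_integral_filter_of_dominated_convergence (fun _ => 2)
      (Eventually.of_forall fun n => ?_) (Eventually.of_forall fun n => ?_)
      intervalIntegrable_const ?_
    · refine Continuous.aestronglyMeasurable ?_
      have h1 := phi_cont n
      have h2 := ex_cont
      fun_prop
    · refine Eventually.of_forall fun t _ => ?_
      have := Complex.abs_re_le_norm (ex (phi n (ex t)) * (starRingEnd ℂ) (ex t))
      rw [norm_mul, Complex.norm_conj, norm_ex, norm_ex, one_mul, abs_le] at this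
      rw [Real.norm_eq_abs, abs_le]
      constructor <;> linarith [this.1, this.2]
    · have hne : ∀ᵐ t : ℝ, t ≠ π := by
        rw [MeasureTheory.ae_iff]; simp
      filter_upwards [hne] with t ht hmem
      rw [Set.uIoc_of_le (by linarith [Real.pi_pos])] at hmem
      have hlt : t < π := lt_of_le_of_ne hmem.2 ht
      have harg : arg (ex t) = t := by
        rw [ex, Complex.exp_mul_I]
        exact Complex.arg_cos_add_sin_mul_I hmem
      have hpos : 0 < 1 + Real.cos t := by
        have h1 : Real.cos t = Real.cos |t| := (Real.cos_abs t).symm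
        have h2 : Real.cos π < Real.cos |t| :=
          Real.cos_lt_cos_of_nonneg_of_le_pi (abs_nonneg t) le_rfl (abs_lt.2 ⟨hmem.1, hlt⟩)
        rw [Real.cos_pi] at h2
        linarith
      refine tendsto_const_nhds.congr' ?_
      have hev : ∀ᶠ n : ℕ in atTop, 1 ≤ (n : ℝ) * (1 + Real.cos t) :=
        (tendsto_natCast_atTop_atTop.atTop_mul_const hpos).eventually_ge_atTop 1
      filter_upwards [hev] with n hn
      have hchi : chi n (ex t) = 1 := by
        rw [chi, norm_ex, ex_re]; exact min_eq_left hn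
      rw [phi, hchi, harg, mul_one, ex_mul_conj]; simp
  simp only [intervalIntegral.integral_zero] at key
  exact (key.eventually (ge_mem_nhds hη)).exists

/-- rotation invariance of the average over the circle -/
theorem integral_rot (H : ℂ → ℂ) {z : ℂ} (hz : ‖z‖ = 1) :
    ∫ t in (-π)..π, H (ex t * z) = ∫ t in (-π)..π, H (ex t) := by
  obtain ⟨θ, rfl⟩ := exists_ex hz
  have hp : Function.Periodic (fun t => H (ex t)) (2 * π) := fun t => by
    simp only [ex_add, ex_two_pi, mul_one]
  simp only [← ex_add]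
  rw [intervalIntegral.integral_comp_add_right (fun t => H (ex t)) θ]
  have h1 := hp.intervalIntegral_add_eq (-π + θ) (-π)
  rw [show -π + θ + 2 * π = π + θ by ring, show -π + 2 * π = π by ring] at h1
  exact h1

/-- the family `t ↦ (ζ ↦ H (e^{it} ζ))` -/
noncomputable def fam (σ : Set ℂ) (H : C(ℂ, ℂ)) : C(ℝ, C(σ, ℂ)) :=
  ContinuousMap.curry ⟨fun p : ℝ × σ => H (ex p.1 * p.2), by
    have := ex_cont
    fun_prop⟩

@[simp] theorem fam_apply (σ : Set ℂ) (H : C(ℂ, ℂ)) (t : ℝ) (z : σ) :
    fam σ H t z = H (ex t * z) := rfl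

theorem integral_fam {σ : Set ℂ} [CompactSpace σ] (hσ : ∀ z ∈ σ, ‖z‖ = 1) (H : C(ℂ, ℂ))
    (l : C(σ, ℂ) →L[ℂ] ℂ) :
    ∫ t in (-π)..π, l (fam σ H t) = (∫ t in (-π)..π, H (ex t)) * l 1 := by
  have hi : IntervalIntegrable (fam σ H) MeasureTheory.volume (-π) π :=
    (fam σ H).continuous.intervalIntegrable _ _
  rw [l.intervalIntegral_comp_comm hi, ← smul_eq_mul, ← map_smul]
  congr 1
  ext z
  have := (ContinuousMap.evalCLM ℂ z : C(σ, ℂ) →L[ℂ] ℂ).intervalIntegral_comp_comm hi
  simp only [ContinuousMap.evalCLM_apply, fam_apply] at this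
  rw [← this, integral_rot H (hσ z z.2)]
  simp

theorem one_sub_cos_le {x : ℝ} {K : ℕ} (hK : 1 ≤ K) (hx : |x| ≤ π) :
    1 - Real.cos (x / K) ≤ 5 / (K : ℝ) ^ 2 := by
  have h1 := Real.one_sub_sq_div_two_le_cos (x := x / K)
  have hK' : (0 : ℝ) < K := by exact_mod_cast hK
  have h2 : x ^ 2 ≤ 10 := by
    have := Real.pi_lt_d2
    have h3 : x ^ 2 = |x| ^ 2 := (sq_abs x).symm
    nlinarith [abs_nonneg x]
  have h3 : (x / K) ^ 2 / 2 ≤ 5 / (K : ℝ) ^ 2 := by
    rw [div_pow, div_div, div_le_div_iff₀ (by positivity) (by positivity)]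
    nlinarith [sq_nonneg (K : ℝ)]
  linarith

theorem integral_ex_phi (n K : ℕ) :
    ∫ t in (-π)..π, ex (phi n (ex t) / K) =
      ((∫ t in (-π)..π, Real.cos (phi n (ex t) / K) : ℝ) : ℂ) := by
  have h1 := phi_cont n
  have h2 := ex_cont
  have hs : ∫ t in (-π)..π, Real.sin (phi n (ex t) / K) = 0 := by
    have := intervalIntegral.integral_comp_neg (a := -π) (b := π)
      (fun t => Real.sin (phi n (ex t) / K))
    simp only [ex_neg, phi_conj, neg_div, Real.sin_neg, neg_neg,
      intervalIntegral.integral_neg] at this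
    linarith
  have e : ∀ t : ℝ, ex (phi n (ex t) / K) = ((Real.cos (phi n (ex t) / K) : ℝ) : ℂ) +
      ((Real.sin (phi n (ex t) / K) : ℝ) : ℂ) * I := fun t => by
    rw [← ex_re, ← ex_im, Complex.re_add_im]
  simp only [e]
  rw [intervalIntegral.integral_add (Continuous.intervalIntegrable (by fun_prop) _ _)
    (Continuous.intervalIntegrable (by fun_prop) _ _), intervalIntegral.integral_mul_const,
    intervalIntegral.integral_ofReal, intervalIntegral.integral_ofReal, hs]
  simp

end Root

open Root in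
theorem rootStmt (h : TF τ) : RootStmt τ := by
  intro N hN U hUN hU K hK η hη A s Z hZ
  obtain ⟨n, hn⟩ := exists_phi (η := 2 * π * η) (by have := Real.pi_pos; positivity)
  have hUn : IsStarNormal U := isStarNormal_of_mem_unitary hU
  have hσ : ∀ z ∈ spectrum ℂ U, ‖z‖ = 1 := fun z hz => by
    simpa using spectrum.subset_circle_of_unitary hU hz
  have h1 := phi_cont n
  have h2 := ex_cont
  let H1 : C(ℂ, ℂ) := ⟨fun z => ex (phi n z / K), by fun_prop⟩
  let H2 : C(ℂ, ℂ) := ⟨fun z => ex (phi n z) * (starRingEnd ℂ) z, by fun_prop⟩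
  let L : C(spectrum ℂ U, ℂ) →⋆ₐ[ℂ] M := cfcHom hUn
  let l : M → C(spectrum ℂ U, ℂ) →L[ℂ] ℂ := fun z =>
    h.tauL ∘L ((ContinuousLinearMap.mul ℂ M).flip z) ∘L cfcL hUn
  have hl : ∀ z f, l z f = τ (L f * z) := fun z f => rfl
  let g : ℝ → M := fun t => L (fam _ H1 t)
  have hgN : ∀ t, g t ∈ N := fun t =>
    StarAlgebra.elemental.le_of_mem hN hUN (cfcHom_mem_elemental hUn _)
  have hgU : ∀ t, g t ∈ unitary M := fun t => by
    have e : fam (spectrum ℂ U) H1 t * star (fam (spectrum ℂ U) H1 t) = 1 := by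
      ext z
      exact ex_mul_conj _
    rw [Unitary.mem_iff]
    constructor
    · simp only [g, ← map_star, ← map_mul]
      rw [mul_comm, e, map_one]
    · simp only [g, ← map_star, ← map_mul]
      rw [e, map_one]
  have hK' : (K : ℝ) ≠ 0 := by exact_mod_cast (by omega : K ≠ 0)
  have hgK : ∀ t, g t ^ K * star (ex t • U) = L (fam _ H2 t) := fun t => by
    have e : U = L ((ContinuousMap.id ℂ).restrict (spectrum ℂ U)) := (cfcHom_id hUn).symm
    have e2 : ex t • U = L (ex t • (ContinuousMap.id ℂ).restrict (spectrum ℂ U)) := by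
      rw [map_smul, ← e]
    rw [e2]
    simp only [g, ← map_star, ← map_pow, ← map_mul]
    congr 1
    ext z
    simp only [ContinuousMap.mul_apply, ContinuousMap.pow_apply, fam_apply, H1, H2,
      ContinuousMap.coe_mk, ex_pow, ContinuousMap.star_apply, ContinuousMap.smul_apply]
    rw [mul_div_cancel₀ _ hK']
    rfl
  let Ψ : ℝ → ℝ := fun t => (1 - (l 1 (fam _ H2 t)).re) +
    ∑ a ∈ s, (tr τ (Z a) - (l (Z a) (fam _ H1 t)).re)
  have c1 : ∀ z (H : C(ℂ, ℂ)), Continuous fun t => l z (fam (spectrum ℂ U) H t) := fun z H =>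
    (l z).continuous.comp (fam _ H).continuous
  have c2 : ∀ z (H : C(ℂ, ℂ)), Continuous fun t => (l z (fam (spectrum ℂ U) H t)).re :=
    fun z H => Complex.continuous_re.comp (c1 z H)
  have c3 : ∀ (x : ℝ) z (H : C(ℂ, ℂ)),
      Continuous fun t => x - (l z (fam (spectrum ℂ U) H t)).re :=
    fun x z H => continuous_const.sub (c2 z H)
  have hΨ : Continuous Ψ := (c3 _ _ _).add (continuous_finsetSum _ fun a _ => c3 _ _ _)
  have hre : ∀ z (H : C(ℂ, ℂ)), ∫ t in (-π)..π, (l z (fam (spectrum ℂ U) H t)).re =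
      ((∫ t in (-π)..π, H (ex t)) * τ z).re := fun z H => by
    have := Complex.reCLM.intervalIntegral_comp_comm
      ((c1 z H).intervalIntegrable (μ := MeasureTheory.volume) (-π) π)
    simp only [Complex.reCLM_apply] at this
    rw [this, integral_fam hσ H (l z), hl, map_one, one_mul]
  have hpi := Real.pi_pos
  have hI : ∫ t in (-π)..π, Ψ t ≤ 2 * π * (η + #s * (5 / (K : ℝ) ^ 2)) := by
    simp only [Ψ]
    rw [intervalIntegral.integral_add ((c3 _ _ _).intervalIntegrable _ _)
      ((continuous_finsetSum _ fun a _ => c3 _ _ _).intervalIntegrable _ _),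
      intervalIntegral.integral_finsetSum fun a _ => (c3 _ _ _).intervalIntegrable _ _, mul_add]
    refine add_le_add ?_ ?_
    · rw [intervalIntegral.integral_sub intervalIntegrable_const
        ((c2 _ _).intervalIntegrable _ _), hre, h.one, mul_one]
      rw [intervalIntegral.integral_sub intervalIntegrable_const
        (Continuous.intervalIntegrable (by fun_prop) _ _)] at hn
      have := Complex.reCLM.intervalIntegral_comp_comm
        ((H2.continuous.comp h2).intervalIntegrable (μ := MeasureTheory.volume) (-π) π)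
      simp only [Complex.reCLM_apply, Function.comp_def] at this
      rw [← this]
      exact hn
    · have hk : 2 * π - ∫ t in (-π)..π, Real.cos (phi n (ex t) / K) =
          ∫ t in (-π)..π, (1 - Real.cos (phi n (ex t) / K)) := by
        rw [intervalIntegral.integral_sub intervalIntegrable_const
          (Continuous.intervalIntegrable (by fun_prop) _ _)]
        simp; ring
      have hk0 : 0 ≤ 2 * π - ∫ t in (-π)..π, Real.cos (phi n (ex t) / K) := by
        rw [hk]
        exact intervalIntegral.integral_nonneg (by linarith) fun t _ =>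
          sub_nonneg.2 (Real.cos_le_one _)
      have hk1 : 2 * π - ∫ t in (-π)..π, Real.cos (phi n (ex t) / K) ≤
          2 * π * (5 / (K : ℝ) ^ 2) := by
        rw [hk]
        refine (intervalIntegral.integral_mono_on (g := fun _ => 5 / (K : ℝ) ^ 2) (by linarith)
          (Continuous.intervalIntegrable (by fun_prop) _ _) intervalIntegrable_const
          fun t _ => one_sub_cos_le hK (abs_phi_le _ _)).trans_eq ?_
        simp; ring
      have hterm : ∀ a ∈ s, ∫ t in (-π)..π, (tr τ (Z a) - (l (Z a) (fam _ H1 t)).re) ≤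
          2 * π * (5 / (K : ℝ) ^ 2) := fun a _ => by
        rw [intervalIntegral.integral_sub intervalIntegrable_const
          ((c2 _ _).intervalIntegrable _ _), hre]
        simp only [H1, ContinuousMap.coe_mk]
        rw [integral_ex_phi, Complex.re_ofReal_mul]
        have ht : tr τ (Z a) ≤ 1 := (le_abs_self _).trans ((h.abs_tr_le _).trans (hZ a))
        simp only [intervalIntegral.integral_const, smul_eq_mul]
        change (π - -π) * tr τ (Z a) - _ * tr τ (Z a) ≤ _
        nlinarith
      refine (sum_le_sum hterm).trans_eq ?_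
      simp; ring
  by_contra hcon
  push Not at hcon
  have hlt : ∀ t, η + #s * (5 / (K : ℝ) ^ 2) < Ψ t := fun t => by
    have := hcon (ex t) (g t) (norm_ex t) (hgN t) (hgU t)
    rw [hgK] at this
    simp only [Ψ, hl, mul_one]
    exact this
  have := intervalIntegral.integral_lt_integral_of_continuousOn_of_le_of_exists_lt
    (f := fun _ => η + #s * (5 / (K : ℝ) ^ 2)) (g := Ψ) (a := -π) (b := π) (by linarith)
    continuousOn_const hΨ.continuousOn (fun t _ => (hlt t).le)
    ⟨0, ⟨by linarith, by linarith⟩, hlt 0⟩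
  simp only [intervalIntegral.integral_const, smul_eq_mul] at this
  linarith

end Crest.Agent.R95
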