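import Crest.Agent.R95.Comp

/-! Row 95: subprojections of any trace in an infinite-dimensional finite factor. -/

set_option autoImplicit false
set_option linter.unusedSectionVars false

open Finset Filter Topology
open scoped ComplexOrder Classical InnerProductSpace

namespace Crest.Agent.R95

universe u

variable {M : Type u} [CStarAlgebra M] [PartialOrder M] [StarOrderedRing M] {τ : M →ₚ[ℂ] ℂ}

open _root_.Crest.Agent.R95.Comp

namespace Sub

/-- `e` has no proper nonzero subprojection in `P` -/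
def Minimal (P : StarSubalgebra ℂ M) (e : M) : Prop :=
  ∀ f ∈ P, IsStarProjection f → e * f = f → f = 0 ∨ f = e

theorem Minimal.kill (hp : PolarStmt τ) {P : StarSubalgebra ℂ M} (hP : L2Closed τ P) {e : M}
    (he : IsStarProjection e) (hm : Minimal P e) {x z : M} (hxP : x ∈ P) (hxe : x * e = x)
    (hx0 : x ≠ 0) (hxz : x * z = 0) : e * z = 0 := by
  obtain ⟨v, hvP, hv, hvx, -, hr, -⟩ := hp P hP x hxP
  have e1 : v * e = v := by
    have := hr (1 - e) (by rw [mul_sub, mul_one, hxe, sub_self])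
    rwa [mul_sub, mul_one, sub_eq_zero, eq_comm] at this
  have e2 : e * star v = star v := by simpa [he.isSelfAdjoint.star_eq] using congrArg star e1
  rcases hm (star v * v) (mul_mem (star_mem hvP) hvP) hv (by rw [← mul_assoc, e2]) with h0 | h0
  · rw [CStarRing.star_mul_self_eq_zero_iff] at h0
    rw [h0, zero_mul] at hvx
    exact absurd hvx.symm hx0
  · rw [← h0, mul_assoc, hr z hxz, mul_zero]

theorem Minimal.sa_zero (h : TF τ) (hp : PolarStmt τ) {P : StarSubalgebra ℂ M}
    (hP : L2Closed τ P) {e : M} (he : IsStarProjection e) (hm : Minimal P e) {b : M}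
    (hbP : b ∈ P) (hb : IsSelfAdjoint b) (hbe : b * e = b) (h0 : tr τ b = 0) : b = 0 := by
  obtain ⟨v, hvP, -, -, habs, -, -⟩ := hp P hP b hbP
  have haP : CFC.abs b ∈ P := habs ▸ mul_mem (star_mem hvP) hbP
  have hpos : b⁺ ∈ P := by
    have : b⁺ = (1 / 2 : ℂ) • (CFC.abs b + b) := by
      rw [CFC.abs_add_self b hb, two_smul, ← two_smul ℂ, smul_smul]; norm_num
    rw [this]; exact SMulMemClass.smul_mem _ (add_mem haP hbP)
  have hsub := CFC.posPart_sub_negPart b hb
  have hpn := CFC.posPart_mul_negPart b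
  have hnp := CFC.negPart_mul_posPart b
  have hp0 := CFC.posPart_nonneg b
  have hn0 := CFC.negPart_nonneg b
  have hb1 : b * (1 - e) = 0 := by rw [mul_sub, mul_one, hbe, sub_self]
  generalize b⁺ = b₁ at hpos hsub hpn hnp hp0
  generalize b⁻ = b₂ at hsub hpn hnp hn0
  have htr : tr τ b₁ = tr τ b₂ := by rw [← sub_eq_zero, ← tr_sub, hsub, h0]
  have kill : ∀ c : M, IsSelfAdjoint c → c * c * (1 - e) = 0 → c * (1 - e) = 0 := by
    intro c hc hcc
    have := star_mul_eq_zero (a := c) (z := 1 - e) (by rwa [hc.star_eq])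
    rwa [hc.star_eq] at this
  have e1 : b₁ * (1 - e) = 0 := kill _ hp0.isSelfAdjoint (by
    have : b₁ * b₁ = b₁ * b := by rw [← hsub, mul_sub, hpn, sub_zero]
    rw [this, mul_assoc, hb1, mul_zero])
  have e2 : b₂ * (1 - e) = 0 := kill _ hn0.isSelfAdjoint (by
    have : b₂ * b₂ = -(b₂ * b) := by rw [← hsub, mul_sub, hnp, zero_sub, neg_neg]
    rw [this, neg_mul, mul_assoc, hb1, mul_zero, neg_zero])
  have e3 : e * b₂ = b₂ := by
    rw [mul_sub, mul_one, sub_eq_zero] at e2
    simpa [he.isSelfAdjoint.star_eq, hn0.isSelfAdjoint.star_eq] using congrArg star e2.symm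
  have hn : b₂ = 0 := by
    by_cases hz : b₁ = 0
    · exact h.eq_zero_of_tr hn0 (by rw [← htr, hz, tr_zero])
    · rw [← e3]
      refine hm.kill hp hP he hpos ?_ hz hpn
      rwa [mul_sub, mul_one, sub_eq_zero, eq_comm] at e1
  have hq : b₁ = 0 := h.eq_zero_of_tr hp0 (by rw [htr, hn, tr_zero])
  rw [← hsub, hn, hq, sub_zero]

theorem Minimal.sa_scalar (h : TF τ) (hp : PolarStmt τ) {P : StarSubalgebra ℂ M}
    (hP : L2Closed τ P) {e : M} (heP : e ∈ P) (he : IsStarProjection e) (he0 : e ≠ 0)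
    (hm : Minimal P e) {a : M} (haP : a ∈ P) (ha : IsSelfAdjoint a) (hae : a * e = a) :
    ∃ c : ℂ, a = c • e := by
  have hpos := proj_tr_pos h he he0
  refine ⟨((tr τ a / tr τ e : ℝ) : ℂ), sub_eq_zero.1 (hm.sa_zero h hp hP he
    (sub_mem haP (SMulMemClass.smul_mem _ heP)) (ha.sub ?_) ?_ ?_)⟩
  · exact IsSelfAdjoint.smul (by simp [IsSelfAdjoint]) he.isSelfAdjoint
  · rw [sub_mul, hae, smul_mul_assoc, he.isIdempotentElem.eq]
  · rw [tr_sub, tr_smul_ofReal]; field_simp; ring

theorem Minimal.scalar (h : TF τ) (hp : PolarStmt τ) {P : StarSubalgebra ℂ M}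
    (hP : L2Closed τ P) {e : M} (heP : e ∈ P) (he : IsStarProjection e) (he0 : e ≠ 0)
    (hm : Minimal P e) {x : M} (hxP : x ∈ P) (hxe : x * e = x) (hex : e * x = x) :
    ∃ c : ℂ, x = c • e := by
  have hs : star x * e = star x := by simpa [he.isSelfAdjoint.star_eq] using congrArg star hex
  obtain ⟨c1, h1⟩ := hm.sa_scalar h hp hP heP he he0 (a := x + star x)
    (add_mem hxP (star_mem hxP)) (IsSelfAdjoint.add_star_self x) (by rw [add_mul, hxe, hs])
  obtain ⟨c2, h2⟩ := hm.sa_scalar h hp hP heP he he0 (a := Complex.I • (x - star x))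
    (SMulMemClass.smul_mem _ (sub_mem hxP (star_mem hxP)))
    (by
      show star _ = _
      rw [star_smul, star_sub, star_star, Complex.star_def, Complex.conj_I, neg_smul, ← smul_neg,
        neg_sub])
    (by rw [smul_mul_assoc, sub_mul, hxe, hs])
  refine ⟨(1 / 2) * c1 - (Complex.I / 2) * c2, ?_⟩
  rw [sub_smul, mul_smul, mul_smul, ← h1, ← h2, smul_smul]
  have : Complex.I / 2 * Complex.I = -(1 / 2) := by
    rw [div_mul_eq_mul_div, Complex.I_mul_I]; ring
  rw [this]
  module

theorem Minimal.cover (h : TF τ) (hc : CompStmt τ) {P : StarSubalgebra ℂ M}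
    (hP : L2Closed τ P) (hI : Irr P P) {e : M} (heP : e ∈ P) (he : IsStarProjection e)
    (hm : Minimal P e) (n : ℕ) : ∀ r ∈ P, IsStarProjection r → tr τ r < n * tr τ e →
      ∃ (k : ℕ) (v : Fin k → M), (∀ i, v i ∈ P ∧ v i * e = v i) ∧ ∑ i, v i * star (v i) = r := by
  induction n with
  | zero =>
      intro r _ hr hlt
      have := tr_nonneg (τ := τ) hr.nonneg
      simp at hlt; linarith
  | succ n ih =>
      intro r hrP hr hlt
      rcases lt_or_ge (tr τ r) (tr τ e) with hlt' | hge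
      · obtain ⟨w, hwP, hw, hew, -⟩ := hc P hP hI r hrP e heP hr he hlt'.le
        refine ⟨0, Fin.elim0, fun i => i.elim0, ?_⟩
        rcases hm (w * star w) (mul_mem hwP (star_mem hwP)) (pi_star (hw ▸ hr))
          (by rw [← mul_assoc, hew]) with h0 | h0
        · rw [CStarRing.mul_star_self_eq_zero_iff] at h0
          rw [← hw, h0]; simp
        · rw [← hw, h.tr_comm, h0] at hlt'
          exact absurd hlt' (lt_irrefl _)
      · obtain ⟨w, hwP, hw, hrw, -⟩ := hc P hP hI e heP r hrP he hr hge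
        have hw' : IsStarProjection (star w * w) := hw ▸ he
        obtain ⟨k, v, hv, hs⟩ := ih (r - w * star w) (sub_mem hrP (mul_mem hwP (star_mem hwP)))
          ((pi_star hw').sub_of_mul_eq_right hr (by rw [← mul_assoc, hrw])) (by
            rw [tr_sub, h.tr_comm w, hw]; push_cast at hlt; linarith)
        refine ⟨k + 1, Fin.cons w v, fun i => ?_, ?_⟩
        · refine Fin.cases ?_ (fun i => ?_) i
          · exact ⟨hwP, by rw [← hw]; exact pi_mul hw'⟩
          · exact hv i
        · rw [Fin.sum_univ_succ]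
          simp only [Fin.cons_zero, Fin.cons_succ, hs]
          abel

theorem Minimal.finite (h : TF τ) (hp : PolarStmt τ) (hc : CompStmt τ) {P : StarSubalgebra ℂ M}
    (hP : L2Closed τ P) (hI : Irr P P) {e : M} (heP : e ∈ P) (he : IsStarProjection e)
    (he0 : e ≠ 0) (hm : Minimal P e) : FiniteDimensional ℂ P := by
  have hpos := proj_tr_pos h he he0
  obtain ⟨n, hn⟩ := exists_nat_gt (tr τ (1 : M) / tr τ e)
  obtain ⟨k, v, hv, hs⟩ := hm.cover h hc hP hI heP he n 1 (one_mem _) (IsStarProjection.one _)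
    (by rwa [div_lt_iff₀ hpos] at hn)
  let W : Submodule ℂ M := Submodule.span ℂ (Set.range fun ij : Fin k × Fin k =>
    v ij.1 * star (v ij.2))
  have : FiniteDimensional ℂ W := FiniteDimensional.span_of_finite ℂ (Set.finite_range _)
  have hle : P.toSubalgebra.toSubmodule ≤ W := by
    intro x hx
    have hx : x ∈ P := hx
    have e1 : x = ∑ i, ∑ j, v i * (star (v i) * x * v j) * star (v j) := by
      calc x = (∑ i, v i * star (v i)) * x * ∑ j, v j * star (v j) := by rw [hs]; simp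
        _ = _ := by
          simp only [Finset.sum_mul, Finset.mul_sum, mul_assoc]
          exact Finset.sum_comm
    rw [e1]
    refine Submodule.sum_mem _ fun i _ => Submodule.sum_mem _ fun j _ => ?_
    have hi : e * star (v i) = star (v i) := by
      simpa [he.isSelfAdjoint.star_eq] using congrArg star (hv i).2
    obtain ⟨c, hc⟩ := hm.scalar h hp hP heP he he0 (x := star (v i) * x * v j)
      (mul_mem (mul_mem (star_mem (hv i).1) hx) (hv j).1) (by rw [mul_assoc, (hv j).2])
      (by rw [← mul_assoc, ← mul_assoc, hi])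
    rw [hc, mul_smul_comm, smul_mul_assoc, (hv i).2]
    exact Submodule.smul_mem _ _ (Submodule.subset_span ⟨(i, j), rfl⟩)
  exact Submodule.finiteDimensional_of_le hle

theorem exists_half (h : TF τ) (hp : PolarStmt τ) (hc : CompStmt τ) {P : StarSubalgebra ℂ M}
    (hP : L2Closed τ P) (hI : Irr P P) (hF : ¬ FiniteDimensional ℂ P) {e : M} (heP : e ∈ P)
    (he : IsStarProjection e) (he0 : e ≠ 0) :
    ∃ f ∈ P, IsStarProjection f ∧ e * f = f ∧ f ≠ 0 ∧ tr τ f ≤ tr τ e / 2 := by
  have : ¬ Minimal P e := fun hm => hF (hm.finite h hp hc hP hI heP he he0)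
  unfold Minimal at this
  push Not at this
  obtain ⟨f, hfP, hf, hef, hf0, hfe⟩ := this
  rcases le_total (tr τ f) (tr τ e / 2) with h1 | h1
  · exact ⟨f, hfP, hf, hef, hf0, h1⟩
  · refine ⟨e - f, sub_mem heP hfP, hf.sub_of_mul_eq_right he hef, ?_, sub_ne_zero.2 hfe.symm, ?_⟩
    · rw [mul_sub, he.isIdempotentElem.eq, hef]
    · rw [tr_sub]; linarith

theorem exists_small (h : TF τ) (hp : PolarStmt τ) (hc : CompStmt τ) {P : StarSubalgebra ℂ M}
    (hP : L2Closed τ P) (hI : Irr P P) (hF : ¬ FiniteDimensional ℂ P) {e : M} (heP : e ∈ P)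
    (he : IsStarProjection e) (he0 : e ≠ 0) {δ : ℝ} (hδ : 0 < δ) :
    ∃ f ∈ P, IsStarProjection f ∧ e * f = f ∧ f ≠ 0 ∧ tr τ f ≤ δ := by
  have key : ∀ n : ℕ, ∃ f ∈ P, IsStarProjection f ∧ e * f = f ∧ f ≠ 0 ∧
      tr τ f ≤ (1 / 2) ^ n := by
    intro n
    induction n with
    | zero =>
        exact ⟨e, heP, he, he.isIdempotentElem.eq, he0,
          by simpa using (le_abs_self _).trans ((h.abs_tr_le e).trans he.norm_le)⟩
    | succ n ih =>
        obtain ⟨f, hfP, hf, hef, hf0, hft⟩ := ih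
        obtain ⟨g, hgP, hg, hfg, hg0, hgt⟩ := exists_half h hp hc hP hI hF hfP hf hf0
        refine ⟨g, hgP, hg, by rw [← hfg, ← mul_assoc, hef], hg0, ?_⟩
        rw [pow_succ]; linarith
  obtain ⟨n, hn⟩ := exists_pow_lt_of_lt_one hδ (show (1 / 2 : ℝ) < 1 by norm_num)
  obtain ⟨f, hfP, hf, hef, hf0, hft⟩ := key n
  exact ⟨f, hfP, hf, hef, hf0, hft.trans hn.le⟩

end Sub

open _root_.Crest.Agent.R95.Sub

theorem subStmt_of (h : TF τ) (hp : PolarStmt τ) (hc : CompStmt τ) : SubStmt τ := by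
  intro P hP hI hF p hpP hpp t ht0 ht
  obtain ⟨q, ⟨hqP, hq, hpq, hqt⟩, hmax⟩ := exists_max h
    {q | q ∈ P ∧ IsStarProjection q ∧ p * q = q ∧ tr τ q ≤ t}
    ⟨0, zero_mem _, by simp, by simp, by simpa using ht0⟩ (fun v hv => hv.2.1.norm_le) (by
      intro x a hx ha
      have hn : ∀ n, ‖x n‖ ≤ 1 := fun n => (hx n).2.1.norm_le
      refine ⟨hP.mem_of_tendsto (fun n => (hx n).1) ha, ⟨?_, ?_⟩, ?_,
        le_of_tendsto' (ha.tr h) fun n => (hx n).2.2.2⟩
      · have := ha.mul h ha hn
        simp only [(hx _).2.1.isIdempotentElem.eq] at this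
        exact this.unique h ha
      · have := ha.star h
        simp only [(hx _).2.1.isSelfAdjoint.star_eq] at this
        exact this.unique h ha
      · have := (Lim.const (τ := τ) p).mul h ha hn
        simp only [(hx _).2.2.1] at this
        exact this.unique h ha)
  refine ⟨q, hqP, hq, hpq, le_antisymm hqt (not_lt.1 fun hlt => ?_)⟩
  have hqp : q * p = q := by
    simpa [hpp.isSelfAdjoint.star_eq, hq.isSelfAdjoint.star_eq] using congrArg star hpq
  have hd : IsStarProjection (p - q) := hq.sub_of_mul_eq_right hpp hpq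
  have hd0 : p - q ≠ 0 := fun e => by rw [sub_eq_zero.1 e] at ht; linarith
  obtain ⟨f, hfP, hf, hdf, hf0, hft⟩ := exists_small h hp hc hP hI hF (sub_mem hpP hqP) hd hd0
    (sub_pos.2 hlt)
  have e1 : q * f = 0 := by
    rw [← hdf, ← mul_assoc, mul_sub, hqp, hq.isIdempotentElem.eq, sub_self, zero_mul]
  have e2 : f * q = 0 := by
    simpa [hf.isSelfAdjoint.star_eq, hq.isSelfAdjoint.star_eq] using congrArg star e1
  have e3 : p * f = f := by rwa [sub_mul, e1, sub_zero] at hdf
  have := hmax (q + f) ⟨add_mem hqP hfP, hq.add hf e1, by rw [mul_add, hpq, e3],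
    by rw [tr_add]; linarith⟩
    (sle_add (by rwa [hq.isSelfAdjoint.star_eq]) (by rwa [hq.isSelfAdjoint.star_eq]))
  exact hf0 (add_eq_left.1 this)

end Crest.Agent.R95
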