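import Crest.Agent.R95.Basic

set_option autoImplicit false
set_option linter.unusedSectionVars false

open Finset Filter Topology
open scoped ComplexOrder Classical InnerProductSpace

namespace Crest.Agent.R95

universe u

variable {M : Type u} [CStarAlgebra M] [PartialOrder M] [StarOrderedRing M] {τ : M →ₚ[ℂ] ℂ}

namespace Trunc

/-- truncation at level `Λ` -/
noncomputable def clip (Λ t : ℝ) : ℝ := max (-Λ) (min Λ t)

theorem continuous_clip (Λ : ℝ) : Continuous (clip Λ) := by unfold clip; fun_prop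

theorem abs_clip_le {Λ : ℝ} (hΛ : 0 < Λ) (t : ℝ) : |clip Λ t| ≤ Λ :=
  abs_le.2 ⟨le_max_left _ _, max_le (by linarith) (min_le_left _ _)⟩

theorem sq_sub_clip {Λ : ℝ} (hΛ : 0 < Λ) (t : ℝ) :
    (t - clip Λ t) * (t - clip Λ t) ≤ (Λ ^ 2)⁻¹ * t ^ 4 := by
  rw [inv_mul_eq_div, le_div_iff₀ (by positivity)]
  unfold clip
  rcases le_total t Λ with h1 | h1
  · rw [min_eq_right h1]
    rcases le_total (-Λ) t with h2 | h2
    · rw [max_eq_right h2, sub_self, zero_mul, zero_mul]; positivity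
    · rw [max_eq_left h2]
      have a1 : (t - -Λ) * (t - -Λ) ≤ t ^ 2 := by nlinarith
      have a2 : Λ ^ 2 ≤ t ^ 2 := by nlinarith
      calc _ ≤ t ^ 2 * t ^ 2 := by gcongr
        _ = _ := by ring
  · rw [min_eq_left h1, max_eq_right (by linarith)]
    have a1 : (t - Λ) * (t - Λ) ≤ t ^ 2 := by nlinarith
    have a2 : Λ ^ 2 ≤ t ^ 2 := by nlinarith
    calc _ ≤ t ^ 2 * t ^ 2 := by gcongr
      _ = _ := by ring

theorem sa_trunc {N : StarSubalgebra ℂ M} (hN : IsClosed (N : Set M)) {a : M} (haN : a ∈ N)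
    (ha : IsSelfAdjoint a) {Λ : ℝ} (hΛ : 0 < Λ) :
    ∃ w ∈ N, w ∈ unitary M ∧
      n2 τ (a - (Λ / 2 : ℂ) • (w + star w)) ^ 2 ≤ tr τ (a ^ 4) / Λ ^ 2 := by
  have hc := continuous_clip Λ
  obtain ⟨b, hb⟩ : ∃ b, b = cfc (fun t : ℝ => Λ⁻¹ * clip Λ t) a := ⟨_, rfl⟩
  have hbs : IsSelfAdjoint b := hb ▸ IsSelfAdjoint.cfc
  have hbN : b ∈ N := hb ▸ cfc_mem (𝕜' := ℂ) _ haN
  have hbn : ‖b‖ ≤ 1 := by
    rw [hb]
    refine norm_cfc_le zero_le_one fun t _ => ?_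
    rw [Real.norm_eq_abs, abs_mul, abs_of_pos (inv_pos.2 hΛ), inv_mul_le_iff₀ hΛ, mul_one]
    exact abs_clip_le hΛ t
  have h0 : 0 ≤ 1 - b ^ 2 := by
    rwa [sub_nonneg, ← CStarAlgebra.norm_le_one_iff_of_nonneg (b ^ 2), sq, hbs.norm_mul_self,
      sq_le_one_iff₀ (by positivity)]
  have hsN : CFC.sqrt (1 - b ^ 2) ∈ N := by
    rw [CFC.sqrt_eq_real_sqrt _ h0, cfcₙ_eq_cfc]
    exact cfc_mem (𝕜' := ℂ) _ (sub_mem (one_mem _) (pow_mem hbN 2))
  refine ⟨b + Complex.I • CFC.sqrt (1 - b ^ 2), add_mem hbN (SMulMemClass.smul_mem _ hsN),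
    hbs.self_add_I_smul_cfcSqrt_sub_sq_mem_unitary _ hbn, ?_⟩
  have e1 : b + Complex.I • CFC.sqrt (1 - b ^ 2) + star (b + Complex.I • CFC.sqrt (1 - b ^ 2)) =
      (2 : ℂ) • b := by
    have hs : star (CFC.sqrt (1 - b ^ 2)) = CFC.sqrt (1 - b ^ 2) :=
      (IsSelfAdjoint.of_nonneg (CFC.sqrt_nonneg (1 - b ^ 2))).star_eq
    rw [star_add, star_smul, hbs.star_eq, hs, two_smul, Complex.star_def, Complex.conj_I, neg_smul]
    abel
  have e2 : (Λ / 2 : ℂ) • (2 : ℂ) • b = cfc (clip Λ) a := by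
    rw [smul_smul, div_mul_cancel₀ _ two_ne_zero, Complex.coe_smul, hb, ← cfc_const_mul _ _ a]
    refine cfc_congr fun t _ => ?_
    rw [← mul_assoc, mul_inv_cancel₀ hΛ.ne', one_mul]
  have e3 : a - cfc (clip Λ) a = cfc (fun t : ℝ => t - clip Λ t) a := by
    rw [cfc_sub _ _ a, cfc_id' ℝ a]
  rw [e1, e2, e3, n2_sq, IsSelfAdjoint.cfc.star_eq, ← cfc_mul _ _ a, ← inv_mul_eq_div, ← tr_smul,
    ← cfc_pow_id (R := ℝ) a 4, ← cfc_const_mul _ _ a]
  exact tr_mono (cfc_mono fun t _ => sq_sub_clip hΛ t)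

theorem fourth (h : TF τ) {a b : M} (ha : IsSelfAdjoint a) (hb : IsSelfAdjoint b) :
    tr τ (a ^ 4) + tr τ (b ^ 4) ≤ q4 τ (a + Complex.I • b) := by
  obtain ⟨z, hz⟩ : ∃ z, z = a + Complex.I • b := ⟨_, rfl⟩
  have hzs : star z = a - Complex.I • b := by
    rw [hz, star_add, star_smul, ha.star_eq, hb.star_eq]; simp [sub_eq_add_neg]
  have e1 : star z * z + z * star z = (2 : ℝ) • (a * a + b * b) := by
    rw [hzs, hz]
    simp only [add_mul, sub_mul, mul_add, mul_sub, smul_mul_assoc, mul_smul_comm, smul_smul,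
      Complex.I_mul_I, neg_smul, one_smul, two_smul, smul_add, smul_sub]
    abel
  have e2 : n2 τ (z * star z) ^ 2 = q4 τ z := by
    rw [n2_sq, q4, star_mul, star_star, mul_assoc, h.tr_comm]
    simp only [mul_assoc]
  have e3 := n2_add_sq_le (τ := τ) (star z * z) (z * star z)
  rw [e1, e2, ← q4_eq, n2_smul_real, mul_pow, sq_abs, n2_add_sq, n2_sq, n2_sq] at e3
  have a0 : 0 ≤ a * a := by simpa [ha.star_eq] using star_mul_self_nonneg a
  have b0 : 0 ≤ b * b := by simpa [hb.star_eq] using star_mul_self_nonneg b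
  rw [a0.isSelfAdjoint.star_eq, b0.isSelfAdjoint.star_eq] at e3
  have := h.tr_mul_nonneg a0 b0
  rw [← hz, show a ^ 4 = a * a * (a * a) by noncomm_ring, show b ^ 4 = b * b * (b * b) by noncomm_ring]
  linarith

end Trunc

theorem truncStmt (h : TF τ) : TruncStmt τ := by
  intro N hN z hz Λ hΛ
  obtain ⟨a, ha⟩ : ∃ a, a = (2⁻¹ : ℂ) • (z + star z) := ⟨_, rfl⟩
  obtain ⟨b, hb⟩ : ∃ b, b = (-(2⁻¹ * Complex.I) : ℂ) • (z - star z) := ⟨_, rfl⟩
  have has : IsSelfAdjoint a := by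
    rw [ha, IsSelfAdjoint, star_smul, star_add, star_star, add_comm]; simp
  have hbs : IsSelfAdjoint b := by
    rw [hb, IsSelfAdjoint, star_smul, star_sub, star_star, ← neg_sub z, smul_neg, ← neg_smul]; simp
  have hab : a + Complex.I • b = z := by
    rw [ha, hb, smul_smul, show Complex.I * -(2⁻¹ * Complex.I) = 2⁻¹ by
      linear_combination (-2⁻¹ : ℂ) * Complex.I_mul_I, ← smul_add]
    rw [show z + star z + (z - star z) = (2 : ℂ) • z by rw [two_smul]; abel, smul_smul]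
    simp
  obtain ⟨w₁, m1, u1, d1⟩ := Trunc.sa_trunc (τ := τ) hN
    (ha ▸ SMulMemClass.smul_mem _ (add_mem hz (star_mem hz))) has hΛ
  obtain ⟨w₂, m2, u2, d2⟩ := Trunc.sa_trunc (τ := τ) hN
    (hb ▸ SMulMemClass.smul_mem _ (sub_mem hz (star_mem hz))) hbs hΛ
  refine ⟨w₁, m1, w₂, m2, u1, u2, ?_⟩
  have e : z - ((Λ / 2 : ℂ) • (w₁ + star w₁) + (Complex.I * (Λ / 2)) • (w₂ + star w₂)) =
      (a - (Λ / 2 : ℂ) • (w₁ + star w₁)) + Complex.I • (b - (Λ / 2 : ℂ) • (w₂ + star w₂)) := by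
    rw [← hab, smul_sub, smul_smul]; abel
  have f := Trunc.fourth h has hbs
  rw [hab] at f
  rw [e]
  refine (n2_add_sq_le _ _).trans ?_
  rw [n2_smul, Complex.norm_I, one_mul]
  have : tr τ (a ^ 4) / Λ ^ 2 + tr τ (b ^ 4) / Λ ^ 2 ≤ q4 τ z / Λ ^ 2 := by
    rw [← add_div]; gcongr
  rw [mul_div_assoc]
  linarith

end Crest.Agent.R95
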