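import Crest.Agent.R95.A
import Crest.Agent.R95.B
import Crest.Agent.R95.Avg
import Crest.Agent.R95.Polar
import Crest.Agent.R95.Comp
import Crest.Agent.R95.Sub
import Crest.Agent.R95.MU
import Crest.Agent.R95.Near
import Crest.Agent.R95.Cont
import Crest.Agent.R95.Trunc
import Crest.Agent.R95.Des
import Crest.Agent.R95.Flat
import Crest.Agent.R95.Root
import Crest.Agent.R95.Key
import Crest.Agent.R95.Main
import Crest.Agent.R95.Conc2

/-! Row 95: assembly. -/

set_option autoImplicit false

namespace Crest.Agent.R95

universe u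

theorem allStmt : AllStmt.{u} := by
  intro M _ _ _ τ h hs
  have ha := avgStmt h
  have hp := polarStmt h
  have hc := compStmt_of h ha hp
  have hsub := subStmt_of h hp hc
  have hm := mainStmt_of h (muStmt_of h hc hsub) (flatStmt_of h ha) (truncStmt h)
    (carrStmt_of desStmt (keyStmt_of h (rootStmt h)))
  exact ⟨contStmt h, aStmt_of h hs hm (nearStmt_of h hp hc) (contStmt h),
    bStmt_of h hs hm hc hsub (contStmt h)⟩

end Crest.Agent.R95
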