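import Crest.Agent.R95.Basic

/-! Row 95: a Baire category lemma for the trace 2-norm, and facts on matrix units. -/

set_option autoImplicit false
set_option linter.unusedSectionVars false

open Finset Filter Topology
open scoped ComplexOrder Classical

namespace Crest.Agent.R95

universe u

variable {M : Type u} [CStarAlgebra M] [PartialOrder M] [StarOrderedRing M] {τ : M →ₚ[ℂ] ℂ}

namespace Baire

theorem baire (h : TF τ) (Cs : Set M) (R : ℝ) (hR : ∀ w ∈ Cs, ‖w‖ ≤ R) (O : ℕ → Set M)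
    (hO : ∀ k, ∀ w ∈ O k, ∃ δ > 0, ∀ v, ‖v‖ ≤ R → n2 τ (v - w) < δ → v ∈ O k)
    (hd : ∀ k, ∀ w ∈ Cs, ∀ ε > 0, ∃ w' ∈ Cs, w' ∈ O k ∧ n2 τ (w' - w) < ε)
    {w : M} (hw : w ∈ Cs) {ε : ℝ} (hε : 0 < ε) :
    ∃ a, ‖a‖ ≤ R ∧ n2 τ (a - w) < ε ∧ (∀ k, a ∈ O k) ∧ ∀ η > 0, ∃ c ∈ Cs, n2 τ (c - a) < η := by
  have step : ∀ (k : ℕ) (p : {p : M × ℝ // p.1 ∈ Cs ∧ 0 < p.2}),
      ∃ q : {p : M × ℝ // p.1 ∈ Cs ∧ 0 < p.2}, n2 τ (q.1.1 - p.1.1) ≤ p.1.2 / 2 ∧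
        q.1.2 ≤ p.1.2 / 2 ∧ ∀ v, ‖v‖ ≤ R → n2 τ (v - q.1.1) ≤ q.1.2 → v ∈ O k := by
    rintro k ⟨⟨c, r⟩, hc, hr⟩
    obtain ⟨c', hc', hO', hn⟩ := hd k c hc (r / 2) (half_pos hr)
    obtain ⟨δ, hδ, hδ'⟩ := hO k c' hO'
    refine ⟨⟨(c', min (r / 2) (δ / 2)), hc', lt_min (half_pos hr) (half_pos hδ)⟩, hn.le,
      min_le_left _ _, fun v hv hvn => hδ' v hv ?_⟩
    exact lt_of_le_of_lt (hvn.trans (min_le_right _ _)) (half_lt_self hδ)
  choose F hF1 hF2 hF3 using step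
  let s : ℕ → {p : M × ℝ // p.1 ∈ Cs ∧ 0 < p.2} := fun n =>
    Nat.rec ⟨(w, ε / 2), hw, half_pos hε⟩ (fun k p => F k p) n
  have hs : ∀ k, s (k + 1) = F k (s k) := fun _ => rfl
  have hr : ∀ k, (s k).1.2 ≤ ε / 2 * (1 / 2) ^ k := by
    intro k
    induction k with
    | zero => simp [s]
    | succ k ih => rw [hs, pow_succ]; linarith [hF2 k (s k)]
  have hdist : ∀ k m, k ≤ m → n2 τ ((s m).1.1 - (s k).1.1) ≤ (s k).1.2 - (s m).1.2 := by
    intro k m hkm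
    induction m, hkm using Nat.le_induction with
    | base => simp
    | succ m _ ih =>
      have h1 := n2_triangle (τ := τ) (s (m + 1)).1.1 (s m).1.1 (s k).1.1
      rw [hs] at h1 ⊢
      linarith [hF1 m (s m), hF2 m (s m)]
  have hsmall : ∀ η > 0, ∃ N, (s N).1.2 < η := by
    intro η hη
    obtain ⟨N, hN⟩ := exists_pow_lt_of_lt_one (show 0 < η / (ε / 2) by positivity)
      (show (1 / 2 : ℝ) < 1 by norm_num)
    refine ⟨N, (hr N).trans_lt ?_⟩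
    rwa [lt_div_iff₀' (half_pos hε)] at hN
  obtain ⟨a, haR, ha⟩ := h.complete (fun n => (s n).1.1) R (fun n => hR _ (s n).2.1) (by
    intro η hη
    obtain ⟨N, hN⟩ := hsmall (η / 2) (half_pos hη)
    refine ⟨N, fun m hm n hn => ?_⟩
    have h1 := n2_triangle (τ := τ) (s m).1.1 (s N).1.1 (s n).1.1
    have h2 := hdist N m hm
    have h3 := hdist N n hn
    rw [n2_sub_comm] at h3
    linarith [(s m).2.2, (s n).2.2])
  have hlim : ∀ k, n2 τ (a - (s k).1.1) ≤ (s k).1.2 := by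
    intro k
    refine le_of_forall_pos_le_add fun η hη => ?_
    obtain ⟨m, hm1, hm2⟩ := ((ha.eventually (gt_mem_nhds hη)).and (eventually_ge_atTop k)).exists
    have h1 := n2_triangle (τ := τ) a (s m).1.1 (s k).1.1
    rw [n2_sub_comm] at hm1
    linarith [hdist k m hm2, (s m).2.2]
  refine ⟨a, haR, ?_, fun k => ?_, fun η hη => ?_⟩
  · have := hlim 0
    exact lt_of_le_of_lt this (half_lt_self hε)
  · exact hF3 k (s k) a haR (hlim (k + 1))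
  · obtain ⟨m, hm⟩ := (ha.eventually (gt_mem_nhds hη)).exists
    exact ⟨_, (s m).2.1, hm⟩

/-- the open sets used in both applications -/
def Op (τ : M →ₚ[ℂ] ℂ) (D : Set M) (x : ℕ → M) (k : ℕ) : Set M :=
  {v | ∃ a ∈ StarAlgebra.adjoin ℂ (insert v D),
    n2 τ (x (Nat.unpair k).1 - a) < 1 / (((Nat.unpair k).2 : ℝ) + 1)}

theorem op_open (hc : ContStmt τ) (D : Set M) (x : ℕ → M) (R : ℝ) (k : ℕ) (w : M)
    (hw : w ∈ Op τ D x k) : ∃ δ > 0, ∀ v, ‖v‖ ≤ R → n2 τ (v - w) < δ → v ∈ Op τ D x k := by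
  obtain ⟨a, ha, hn⟩ := hw
  obtain ⟨δ, hδ, H⟩ := hc D w R a ha _ (sub_pos.2 hn)
  refine ⟨δ, hδ, fun v hv hvw => ?_⟩
  obtain ⟨a', ha', hn'⟩ := H v hv hvw
  refine ⟨a', ha', ?_⟩
  have := n2_triangle (τ := τ) (x (Nat.unpair k).1) a a'
  rw [n2_sub_comm] at hn'
  linarith

theorem op_all {D : Set M} {x : ℕ → M} {v : M} (hv : ∀ k, v ∈ Op τ D x k) (n : ℕ) {ε : ℝ}
    (hε : 0 < ε) : ∃ a ∈ StarAlgebra.adjoin ℂ (insert v D), n2 τ (x n - a) < ε := by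
  obtain ⟨m, hm⟩ := exists_nat_one_div_lt hε
  obtain ⟨a, ha, hn⟩ := hv (Nat.pair n m)
  simp only [Nat.unpair_pair] at hn
  exact ⟨a, ha, hn.trans hm⟩

section MU
variable {ι : Type} [Fintype ι] {e : ι → ι → M}

theorem mu_mul_same (he : MU e) (i j l : ι) : e i j * e j l = e i l := by
  rw [he.mul, if_pos rfl]

theorem mu_mul_ne (he : MU e) (i : ι) {j k : ι} (l : ι) (hjk : j ≠ k) : e i j * e k l = 0 := by
  rw [he.mul, if_neg hjk]

theorem mu_proj (he : MU e) (i : ι) : IsStarProjection (e i i) :=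
  ⟨mu_mul_same he i i i, he.star i i⟩

theorem mu_norm (he : MU e) (i j : ι) : ‖e i j‖ ≤ 1 := by
  have h1 : ‖e i j‖ * ‖e i j‖ ≤ 1 := by
    rw [← CStarRing.norm_star_mul_self, he.star, mu_mul_same he]
    exact IsStarProjection.norm_le _ (mu_proj he j)
  nlinarith [norm_nonneg (e i j)]

theorem mu_tr_eq (h : TF τ) (he : MU e) (i j : ι) : tr τ (e i i) = tr τ (e j j) := by
  rw [← mu_mul_same he i j i, h.tr_comm, mu_mul_same he]

theorem mu_tr (h : TF τ) (he : MU e) (i : ι) : (Fintype.card ι : ℝ) * tr τ (e i i) = 1 := by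
  have h1 := congrArg (tr τ) he.sum
  rw [tr_sum, h.tr_one, sum_congr rfl fun j _ => mu_tr_eq h he j i] at h1
  simpa using h1

theorem mu_sum_mul (he : MU e) (S : Finset ι) (i j : ι) :
    (∑ s ∈ S, e s s) * e i j = if i ∈ S then e i j else 0 := by
  rw [sum_mul, sum_congr rfl fun s _ => he.mul s s i j, sum_ite_eq']

theorem mu_mul_sum (he : MU e) (S : Finset ι) (i j : ι) :
    e i j * (∑ s ∈ S, e s s) = if j ∈ S then e i j else 0 := by
  rw [mul_sum, sum_congr rfl fun s _ => he.mul i j s s, sum_ite_eq]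

theorem mu_sum_proj (he : MU e) (S : Finset ι) : IsStarProjection (∑ s ∈ S, e s s) := by
  refine ⟨?_, ?_⟩
  · change _ * _ = _
    rw [mul_sum]
    exact sum_congr rfl fun s hs => by rw [mu_sum_mul he, if_pos hs]
  · change star _ = _
    rw [star_sum]
    exact sum_congr rfl fun s _ => he.star s s

theorem mu_n2_sum (h : TF τ) (he : MU e) (S : Finset ι) {ε : ℝ} (hε : 0 ≤ ε)
    (hS : (#S : ℝ) ≤ ε ^ 2 * Fintype.card ι) : n2 τ (∑ s ∈ S, e s s) ≤ ε := by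
  rw [← sq_le_sq₀ (n2_nonneg _) hε, n2_sq_proj (mu_sum_proj he S), tr_sum]
  rcases S.eq_empty_or_nonempty with rfl | ⟨i, -⟩
  · simp only [sum_empty]; positivity
  · rw [sum_congr rfl fun j _ => mu_tr_eq h he j i, sum_const, nsmul_eq_mul]
    have h1 := mu_tr h he i
    have h2 : 0 ≤ tr τ (e i i) := tr_nonneg (mu_proj he i).nonneg
    calc (#S : ℝ) * tr τ (e i i) ≤ ε ^ 2 * Fintype.card ι * tr τ (e i i) :=
          mul_le_mul_of_nonneg_right hS h2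
      _ = ε ^ 2 := by rw [mul_assoc, h1, mul_one]

end MU

/-- rescaling a target to the unit ball -/
theorem scale_norm (x : M) : ‖(((‖x‖ + 1)⁻¹ : ℝ) : ℂ) • x‖ ≤ 1 := by
  have : 0 < ‖x‖ + 1 := by positivity
  rw [norm_smul, Complex.norm_real, Real.norm_eq_abs, abs_of_pos (inv_pos.2 this),
    inv_mul_le_iff₀ this]
  linarith

theorem scale_n2 (x a : M) {ε : ℝ}
    (h : n2 τ ((((‖x‖ + 1)⁻¹ : ℝ) : ℂ) • x - a) < ε / (‖x‖ + 1)) :
    n2 τ (x - ((‖x‖ + 1 : ℝ) : ℂ) • a) < ε := by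
  have hp : 0 < ‖x‖ + 1 := by positivity
  have e : x - ((‖x‖ + 1 : ℝ) : ℂ) • a =
      ((‖x‖ + 1 : ℝ) : ℂ) • ((((‖x‖ + 1)⁻¹ : ℝ) : ℂ) • x - a) := by
    rw [smul_sub, smul_smul, ← Complex.ofReal_mul, mul_inv_cancel₀ hp.ne', Complex.ofReal_one,
      one_smul]
  rw [e, n2_smul, Complex.norm_real, Real.norm_eq_abs, abs_of_pos hp]
  rwa [lt_div_iff₀' hp] at h

end Baire

end Crest.Agent.R95
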