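import Crest.Agent.R95.Defs

/-! Row 95: elementary facts on the trace 2-norm. -/

set_option autoImplicit false
set_option linter.unusedSectionVars false

open Finset Filter Topology
open scoped ComplexOrder Classical InnerProductSpace

namespace Crest.Agent.R95

universe u

variable {M : Type u} [CStarAlgebra M] [PartialOrder M] [StarOrderedRing M] {τ : M →ₚ[ℂ] ℂ}

/-! ### no hypothesis on `τ` -/

theorem tau_star (τ : M →ₚ[ℂ] ℂ) (x : M) : τ (star x) = star (τ x) := map_star τ x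

theorem tr_star (x : M) : tr τ (star x) = tr τ x := by simp [tr, tau_star]
theorem tr_add (x y : M) : tr τ (x + y) = tr τ x + tr τ y := by simp [tr]
theorem tr_sub (x y : M) : tr τ (x - y) = tr τ x - tr τ y := by simp [tr]
theorem tr_neg (x : M) : tr τ (-x) = -tr τ x := by simp [tr]
@[simp] theorem tr_zero : tr τ (0 : M) = 0 := by simp [tr]
theorem tr_sum {ι : Type*} (s : Finset ι) (f : ι → M) :
    tr τ (∑ i ∈ s, f i) = ∑ i ∈ s, tr τ (f i) := by simp [tr, map_sum]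
theorem tr_smul (c : ℝ) (x : M) : tr τ (c • x) = c * tr τ x := by
  have : c • x = (c : ℂ) • x := rfl
  rw [tr, this, map_smul, smul_eq_mul, Complex.re_ofReal_mul, tr]
theorem tr_smul_ofReal (c : ℝ) (x : M) : tr τ ((c : ℂ) • x) = c * tr τ x := by simp [tr]
theorem tr_nonneg {x : M} (hx : 0 ≤ x) : 0 ≤ tr τ x := (τ.map_nonneg hx).1
theorem tr_mono {x y : M} (h : x ≤ y) : tr τ x ≤ tr τ y := by
  have := tr_nonneg (τ := τ) (sub_nonneg.2 h)
  rw [tr_sub] at this
  linarith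

/-- the trace of a self-adjoint element is real -/
theorem tau_eq_tr {x : M} (hx : IsSelfAdjoint x) : τ x = (tr τ x : ℂ) := by
  have h := tau_star τ x
  rw [hx.star_eq] at h
  exact (Complex.conj_eq_iff_re.1 h.symm).symm

theorem n2_nonneg (x : M) : 0 ≤ n2 τ x := norm_nonneg _
@[simp] theorem n2_zero : n2 τ (0 : M) = 0 := by simp [n2]
theorem n2_sq (x : M) : n2 τ x ^ 2 = tr τ (star x * x) := by
  have := τ.preGNS_norm_sq (τ.toPreGNS x)
  have h2 := congrArg Complex.re this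
  rw [← Complex.ofReal_pow, Complex.ofReal_re] at h2
  exact h2
theorem n2_add_le (x y : M) : n2 τ (x + y) ≤ n2 τ x + n2 τ y := by
  simp only [n2, map_add]; exact norm_add_le _ _
theorem n2_sub_le (x y : M) : n2 τ (x - y) ≤ n2 τ x + n2 τ y := by
  simp only [n2, map_sub]; exact norm_sub_le _ _
theorem n2_neg (x : M) : n2 τ (-x) = n2 τ x := by simp only [n2, map_neg, norm_neg]
theorem n2_sub_comm (x y : M) : n2 τ (x - y) = n2 τ (y - x) := by rw [← n2_neg, neg_sub]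
theorem n2_triangle (x y z : M) : n2 τ (x - z) ≤ n2 τ (x - y) + n2 τ (y - z) := by
  have := n2_add_le (τ := τ) (x - y) (y - z)
  rwa [sub_add_sub_cancel] at this
theorem n2_smul (c : ℂ) (x : M) : n2 τ (c • x) = ‖c‖ * n2 τ x := by
  simp only [n2, map_smul, norm_smul]
theorem n2_smul_real (c : ℝ) (x : M) : n2 τ (c • x) = |c| * n2 τ x := by
  have : c • x = (c : ℂ) • x := rfl
  rw [this, n2_smul, Complex.norm_real, Real.norm_eq_abs]
theorem n2_sum_le {ι : Type*} (s : Finset ι) (f : ι → M) :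
    n2 τ (∑ i ∈ s, f i) ≤ ∑ i ∈ s, n2 τ (f i) := by
  simp only [n2, map_sum]; exact norm_sum_le _ _
theorem n2_add_sq (x y : M) :
    n2 τ (x + y) ^ 2 = n2 τ x ^ 2 + 2 * tr τ (star x * y) + n2 τ y ^ 2 := by
  simp only [n2, map_add]
  rw [@norm_add_sq ℂ]
  rfl
theorem n2_sub_sq (x y : M) :
    n2 τ (x - y) ^ 2 = n2 τ x ^ 2 - 2 * tr τ (star x * y) + n2 τ y ^ 2 := by
  simp only [n2, map_sub]
  rw [@norm_sub_sq ℂ]
  rfl
theorem n2_add_sq_le (x y : M) : n2 τ (x + y) ^ 2 ≤ 2 * n2 τ x ^ 2 + 2 * n2 τ y ^ 2 := by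
  have h1 := n2_add_le (τ := τ) x y
  have h2 := n2_nonneg (τ := τ) (x + y)
  nlinarith [sq_nonneg (n2 τ x - n2 τ y), n2_nonneg (τ := τ) x, n2_nonneg (τ := τ) y]
theorem n2_parallelogram (x y : M) :
    n2 τ (x + y) ^ 2 + n2 τ (x - y) ^ 2 = 2 * (n2 τ x ^ 2 + n2 τ y ^ 2) := by
  rw [n2_add_sq, n2_sub_sq]; ring
/-- Cauchy-Schwarz -/
theorem norm_tau_star_mul_le (x y : M) : ‖τ (star x * y)‖ ≤ n2 τ x * n2 τ y :=
  norm_inner_le_norm (𝕜 := ℂ) (τ.toPreGNS x) (τ.toPreGNS y)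
theorem abs_tr_le_norm_tau (x : M) : |tr τ x| ≤ ‖τ x‖ := Complex.abs_re_le_norm _
theorem n2_mul_le_left (a x : M) : n2 τ (a * x) ≤ ‖a‖ * n2 τ x := by
  rw [← sq_le_sq₀ (n2_nonneg _) (mul_nonneg (norm_nonneg _) (n2_nonneg _)), mul_pow, n2_sq, n2_sq,
    ← tr_smul]
  refine tr_mono ?_
  rw [star_mul, ← mul_assoc, mul_assoc _ (star a), sq, ← CStarRing.norm_star_mul_self (x := a)]
  exact CStarAlgebra.star_left_conjugate_le_norm_smul
theorem n2_unitary_mul {u : M} (hu : u ∈ unitary M) (x : M) : n2 τ (u * x) = n2 τ x := by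
  rw [← sq_eq_sq₀ (n2_nonneg _) (n2_nonneg _), n2_sq, n2_sq, star_mul, mul_assoc,
    ← mul_assoc (star u), (Unitary.mem_iff.1 hu).1, one_mul]
theorem n2_sq_proj {p : M} (hp : IsStarProjection p) : n2 τ p ^ 2 = tr τ p := by
  rw [n2_sq, hp.isSelfAdjoint.star_eq, hp.isIdempotentElem.eq]
theorem q4_eq (z : M) : q4 τ z = n2 τ (star z * z) ^ 2 := by
  rw [n2_sq, q4, star_mul, star_star]
theorem q4_nonneg (z : M) : 0 ≤ q4 τ z := by rw [q4_eq]; positivity

namespace TF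
variable (h : TF τ)
include h

theorem tr_one : tr τ (1 : M) = 1 := by simp [tr, h.one]
theorem tr_comm (x y : M) : tr τ (x * y) = tr τ (y * x) := by simp [tr, h.tracial x y]
theorem nontrivial : Nontrivial M :=
  ⟨⟨1, 0, fun h1 => by have := h.one; rw [h1, map_zero] at this; exact zero_ne_one this⟩⟩
theorem n2_one : n2 τ (1 : M) = 1 := by
  rw [← sq_eq_sq₀ (n2_nonneg _) zero_le_one, n2_sq]; simp [h.tr_one]
theorem n2_le_norm (x : M) : n2 τ x ≤ ‖x‖ := by
  simpa [h.n2_one] using n2_mul_le_left (τ := τ) x 1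
theorem n2_star (x : M) : n2 τ (star x) = n2 τ x := by
  rw [← sq_eq_sq₀ (n2_nonneg _) (n2_nonneg _), n2_sq, n2_sq, star_star, h.tr_comm]
theorem n2_mul_le_right (x a : M) : n2 τ (x * a) ≤ n2 τ x * ‖a‖ := by
  rw [← h.n2_star, star_mul, mul_comm, ← h.n2_star x, ← norm_star a]
  exact n2_mul_le_left _ _
theorem n2_mul_unitary (x : M) {u : M} (hu : u ∈ unitary M) : n2 τ (x * u) = n2 τ x := by
  rw [← h.n2_star, star_mul, n2_unitary_mul (Unitary.star_mem hu), h.n2_star]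
theorem n2_unitary {u : M} (hu : u ∈ unitary M) : n2 τ u = 1 := by
  simpa [h.n2_one] using n2_unitary_mul (τ := τ) hu 1
theorem norm_tau_mul_le (x y : M) : ‖τ (x * y)‖ ≤ n2 τ x * n2 τ y := by
  simpa [h.n2_star] using norm_tau_star_mul_le (τ := τ) (star x) y
theorem norm_tau_le_n2 (x : M) : ‖τ x‖ ≤ n2 τ x := by
  simpa [h.n2_one] using h.norm_tau_mul_le 1 x
theorem norm_tau_le (x : M) : ‖τ x‖ ≤ ‖x‖ := (h.norm_tau_le_n2 x).trans (h.n2_le_norm x)
theorem abs_tr_le_n2 (x : M) : |tr τ x| ≤ n2 τ x := (abs_tr_le_norm_tau x).trans (h.norm_tau_le_n2 x)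
theorem abs_tr_le (x : M) : |tr τ x| ≤ ‖x‖ := (abs_tr_le_norm_tau x).trans (h.norm_tau_le x)
theorem abs_tr_mul_le (x y : M) : |tr τ (x * y)| ≤ n2 τ x * n2 τ y :=
  (abs_tr_le_norm_tau _).trans (h.norm_tau_mul_le x y)
/-- the trace as a continuous linear map -/
noncomputable def tauL : M →L[ℂ] ℂ :=
  τ.toLinearMap.mkContinuous 1 fun x => by simpa using h.norm_tau_le x
@[simp] theorem tauL_apply (x : M) : h.tauL x = τ x := rfl
theorem tr_conj {u : M} (hu : u ∈ unitary M) (x : M) : tr τ (star u * x * u) = tr τ x := by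
  rw [h.tr_comm, ← mul_assoc, (Unitary.mem_iff.1 hu).2, one_mul]
theorem tau_conj {u : M} (hu : u ∈ unitary M) (x : M) : τ (star u * x * u) = τ x := by
  rw [h.tracial, ← mul_assoc, (Unitary.mem_iff.1 hu).2, one_mul]
/-- the trace of a product of positive elements is nonnegative -/
theorem tr_mul_nonneg {a b : M} (ha : 0 ≤ a) (hb : 0 ≤ b) : 0 ≤ tr τ (a * b) := by
  obtain ⟨c, rfl⟩ := CStarAlgebra.nonneg_iff_eq_star_mul_self.1 ha
  rw [mul_assoc, h.tr_comm]
  exact tr_nonneg (star_right_conjugate_nonneg hb c)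
theorem tr_mul_mono {a b c : M} (hab : a ≤ b) (hc : 0 ≤ c) : tr τ (a * c) ≤ tr τ (b * c) := by
  have := h.tr_mul_nonneg (sub_nonneg.2 hab) hc
  rw [sub_mul, tr_sub] at this
  linarith
theorem tr_mul_le_norm {a c : M} (ha : IsSelfAdjoint a) (hc : 0 ≤ c) :
    tr τ (a * c) ≤ ‖a‖ * tr τ c := by
  have := h.tr_mul_mono ha.le_algebraMap_norm_self hc
  rwa [Algebra.algebraMap_eq_smul_one, smul_mul_assoc, one_mul, tr_smul] at this
theorem eq_of_n2 {x y : M} (hxy : n2 τ (x - y) = 0) : x = y := sub_eq_zero.1 (h.faithful _ hxy)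
theorem eq_of_forall_n2 {x y : M} (hxy : ∀ ε > 0, n2 τ (x - y) < ε) : x = y :=
  h.eq_of_n2 (le_antisymm (le_of_forall_pos_le_add fun ε hε => by simpa using (hxy ε hε).le)
    (n2_nonneg _))
theorem eq_zero_of_tr {x : M} (hx : 0 ≤ x) (h0 : tr τ x = 0) : x = 0 := by
  obtain ⟨c, rfl⟩ := CStarAlgebra.nonneg_iff_eq_star_mul_self.1 hx
  rw [← n2_sq] at h0
  rw [h.faithful c (pow_eq_zero_iff two_ne_zero |>.1 h0), mul_zero]
theorem n2_mul_sub_mul_le (a b a' b' : M) :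
    n2 τ (a * b - a' * b') ≤ n2 τ (a - a') * ‖b‖ + ‖a'‖ * n2 τ (b - b') := by
  have : a * b - a' * b' = (a - a') * b + a' * (b - b') := by noncomm_ring
  rw [this]
  exact (n2_add_le _ _).trans (add_le_add (h.n2_mul_le_right _ _) (n2_mul_le_left _ _))

theorem isClosed {N : StarSubalgebra ℂ M} (hN : L2Closed τ N) : IsClosed (N : Set M) := by
  refine isClosed_of_closure_subset fun x hx => hN x fun ε hε => ?_
  obtain ⟨a, ha, hd⟩ := Metric.mem_closure_iff.1 hx ε hε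
  exact ⟨a, ha, (h.n2_le_norm _).trans_lt (by rwa [← dist_eq_norm])⟩

/-- relative commutants are closed -/
theorem l2Closed_centralizer (S : Set M) : L2Closed τ (StarSubalgebra.centralizer ℂ S) := by
  intro x hx
  have key : ∀ g, (∀ a ∈ StarSubalgebra.centralizer ℂ S, g * a = a * g) → g * x = x * g := by
    intro g hg
    refine h.eq_of_forall_n2 fun ε hε => ?_
    obtain ⟨a, ha, hd⟩ := hx (ε / (2 * ‖g‖ + 1)) (by positivity)
    have e : g * x - x * g = g * (x - a) - (x - a) * g := by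
      rw [mul_sub, sub_mul, hg a ha]; abel
    rw [e]
    have h1 := n2_mul_le_left (τ := τ) g (x - a)
    have h2 := h.n2_mul_le_right (x - a) g
    have h3 := n2_sub_le (τ := τ) (g * (x - a)) ((x - a) * g)
    rw [lt_div_iff₀ (by positivity)] at hd
    nlinarith [n2_nonneg (τ := τ) (x - a)]
  rw [StarSubalgebra.mem_centralizer_iff]
  intro g hg
  exact ⟨key g fun a ha => ((StarSubalgebra.mem_centralizer_iff ℂ).1 ha g hg).1,
    key _ fun a ha => ((StarSubalgebra.mem_centralizer_iff ℂ).1 ha g hg).2⟩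

end TF

theorem l2Closed_top : L2Closed τ (⊤ : StarSubalgebra ℂ M) := fun _ _ => trivial

theorem L2Closed.inf {N N' : StarSubalgebra ℂ M} (h : L2Closed τ N) (h' : L2Closed τ N') :
    L2Closed τ (N ⊓ N') := fun x hx =>
  ⟨h x fun ε hε => (hx ε hε).imp fun _ ha => ⟨ha.1.1, ha.2⟩,
    h' x fun ε hε => (hx ε hε).imp fun _ ha => ⟨ha.1.2, ha.2⟩⟩

theorem L2Closed.mem_of_tendsto {N : StarSubalgebra ℂ M} (h : L2Closed τ N) {x : ℕ → M} {a : M}
    (hx : ∀ n, x n ∈ N) (ha : Tendsto (fun n => n2 τ (x n - a)) atTop (𝓝 0)) : a ∈ N := by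
  refine h a fun ε hε => ?_
  obtain ⟨n, hn⟩ := (ha.eventually (gt_mem_nhds hε)).exists
  exact ⟨x n, hx n, by rwa [n2_sub_comm]⟩

theorem Irr.mono_right {D N N' : StarSubalgebra ℂ M} (h : Irr D N) (hN : N' ≤ N) : Irr D N' :=
  fun y hy => h y (hN hy)

theorem Irr.mono_left {D D' N : StarSubalgebra ℂ M} (h : Irr D N) (hD : D ≤ D') : Irr D' N :=
  fun y hy hc => h y hy fun d hd => hc d (hD hd)

end Crest.Agent.R95
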