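import Crest.Agent.R95.Basic

/-! Row 95: Hilbert space part of the concrete step (amplification, strong limits,
bicommutant theorem). -/

set_option autoImplicit false
set_option linter.unusedSectionVars false

open Filter Topology
open scoped InnerProductSpace ENNReal

namespace Crest.Agent.R95.Conc

universe u

variable {H : Type u} [NormedAddCommGroup H] [InnerProductSpace ℂ H] [CompleteSpace H]

/-- the Hilbert sum of countably many copies of `H` -/
abbrev KK (H : Type u) [NormedAddCommGroup H] : Type u := lp (fun _ : ℕ => H) 2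

/-- the amplification of an operator -/
noncomputable def amp (x : H →L[ℂ] H) : KK H →L[ℂ] KK H :=
  lp.mapCLM 2 (fun _ => x) (norm_nonneg x) (fun _ => le_rfl)

theorem amp_apply (x : H →L[ℂ] H) (f : KK H) (n : ℕ) : amp x f n = x (f n) := rfl

theorem amp_mul (x y : H →L[ℂ] H) (f : KK H) : amp (x * y) f = amp x (amp y f) := by
  ext n; rfl

theorem amp_add (x y : H →L[ℂ] H) (f : KK H) : amp (x + y) f = amp x f + amp y f := by
  ext n; rfl

theorem amp_sub (x y : H →L[ℂ] H) (f : KK H) : amp (x - y) f = amp x f - amp y f := by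
  ext n; rfl

theorem amp_smul (c : ℂ) (x : H →L[ℂ] H) (f : KK H) : amp (c • x) f = c • amp x f := by
  ext n; rfl

theorem amp_one (f : KK H) : amp (1 : H →L[ℂ] H) f = f := by
  ext n; rfl

theorem inner_amp (x : H →L[ℂ] H) (f g : KK H) :
    ⟪f, amp x g⟫_ℂ = ⟪amp (star x) f, g⟫_ℂ := by
  rw [lp.inner_eq_tsum, lp.inner_eq_tsum]
  congr 1
  ext n
  rw [amp_apply, amp_apply, ContinuousLinearMap.star_eq_adjoint,
    ContinuousLinearMap.adjoint_inner_left]

theorem amp_single (x : H →L[ℂ] H) (n : ℕ) (v : H) :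
    amp x (lp.single 2 n v) = lp.single 2 n (x v) := by
  ext m
  rw [amp_apply, lp.single_apply, lp.single_apply]
  by_cases h : m = n
  · subst h; simp
  · simp [Pi.single_eq_of_ne h]

theorem hasSum_normSq (f : KK H) : HasSum (fun n => ‖f n‖ ^ 2) (‖f‖ ^ 2) := by
  have := lp.hasSum_norm (p := 2) (by norm_num) f
  simpa using this

/-- a square summable sequence as a vector -/
noncomputable def vec (ξ : ℕ → H) (h : Summable fun n => ‖ξ n‖ ^ 2) : KK H :=
  ⟨ξ, memℓp_gen (by simpa using h)⟩

theorem vec_apply (ξ : ℕ → H) (h : Summable fun n => ‖ξ n‖ ^ 2) (n : ℕ) : vec ξ h n = ξ n := rfl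

theorem traceNormSq_eq (Ξ : KK H) (x : H →L[ℂ] H) :
    Crest.OpAlg.traceNormSq (fun n => Ξ n) x = ‖amp x Ξ‖ ^ 2 :=
  (hasSum_normSq (amp x Ξ)).tsum_eq

theorem vectorState_eq (Ξ : KK H) (x : H →L[ℂ] H) :
    Crest.OpAlg.vectorState (fun n => Ξ n) x = ⟪Ξ, amp x Ξ⟫_ℂ := by
  rw [lp.inner_eq_tsum]; rfl

/-- the projection onto a reducing subspace commutes with the operator -/
theorem proj_comm {G : Type*} [NormedAddCommGroup G] [InnerProductSpace ℂ G]
    (V : Submodule ℂ G) [V.HasOrthogonalProjection] (T T' : G →L[ℂ] G)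
    (hadj : ∀ u w, ⟪u, T w⟫_ℂ = ⟪T' u, w⟫_ℂ) (hT : ∀ v ∈ V, T v ∈ V) (hT' : ∀ v ∈ V, T' v ∈ V)
    (v : G) : V.starProjection (T v) = T (V.starProjection v) := by
  have h1 : T (v - V.starProjection v) ∈ Vᗮ := by
    rw [Submodule.mem_orthogonal]
    intro u hu
    rw [hadj]
    exact (Submodule.mem_orthogonal _ _).1 (V.sub_starProjection_mem_orthogonal v) _ (hT' u hu)
  have h2 : V.starProjection (T (v - V.starProjection v)) = 0 :=
    (Submodule.starProjection_apply_eq_zero_iff V).2 h1
  have h3 : V.starProjection (T (V.starProjection v)) = T (V.starProjection v) :=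
    Submodule.starProjection_eq_self_iff.2 (hT _ (V.starProjection_apply_mem v))
  rw [map_sub, map_sub, h3, sub_eq_zero] at h2
  exact h2

theorem closure_inv {G : Type*} [NormedAddCommGroup G] [InnerProductSpace ℂ G]
    (V : Submodule ℂ G) (T : G →L[ℂ] G) (hT : ∀ v ∈ V, T v ∈ V) :
    ∀ v ∈ V.topologicalClosure, T v ∈ V.topologicalClosure := fun _ hv =>
  map_mem_closure T.continuous hv hT

theorem mem_vN {N : VonNeumannAlgebra H} {x : H →L[ℂ] H}
    (hx : ∀ y ∈ N.commutant, y * x = x * y) : x ∈ N := by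
  rw [← N.commutant_commutant, VonNeumannAlgebra.mem_commutant_iff]
  exact hx

theorem comm_of_mem {N : VonNeumannAlgebra H} {x y : H →L[ℂ] H} (hx : x ∈ N)
    (hy : y ∈ N.commutant) : y * x = x * y :=
  (VonNeumannAlgebra.mem_commutant_iff.1 hy x hx).symm

theorem inv_mem {N : VonNeumannAlgebra H} {b r : H →L[ℂ] H} (hb : b ∈ N) (h1 : r * b = 1)
    (h2 : b * r = 1) : r ∈ N := by
  refine mem_vN fun y hy => ?_
  have h := comm_of_mem hb hy
  calc y * r = r * b * y * r := by rw [h1, one_mul]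
    _ = r * (y * b) * r := by rw [h, mul_assoc r]
    _ = r * y := by rw [mul_assoc, mul_assoc, h2, mul_one]

theorem mem_of_strong {N : VonNeumannAlgebra H} {x : ℕ → H →L[ℂ] H} {a : H →L[ℂ] H}
    (hx : ∀ n, x n ∈ N) (ha : ∀ v, Tendsto (fun n => x n v) atTop (𝓝 (a v))) : a ∈ N := by
  refine mem_vN fun y hy => ?_
  ext v
  have h1 : Tendsto (fun n => y (x n v)) atTop (𝓝 (y (a v))) :=
    (y.continuous.tendsto _).comp (ha v)
  have h2 : (fun n => y (x n v)) = fun n => x n (y v) := by
    funext n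
    exact congrArg (fun T : H →L[ℂ] H => T v) (comm_of_mem (hx n) hy)
  rw [h2] at h1
  exact tendsto_nhds_unique h1 (ha (y v))

/-- a separating family is cyclic for the commutant -/
theorem dense_span (M : VonNeumannAlgebra H) (ξ : ℕ → H)
    (hf : ∀ x ∈ M, (∀ n, x (ξ n) = 0) → x = 0) :
    (Submodule.span ℂ {v | ∃ y ∈ M.commutant, ∃ n, v = y (ξ n)}).topologicalClosure = ⊤ := by
  set W := Submodule.span ℂ {v | ∃ y ∈ M.commutant, ∃ n, v = y (ξ n)} with hW
  have hinv : ∀ y ∈ M.commutant, ∀ v ∈ W.topologicalClosure, y v ∈ W.topologicalClosure := by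
    intro y hy
    refine closure_inv W y fun v hv => ?_
    induction hv using Submodule.span_induction with
    | mem v hv =>
      obtain ⟨z, hz, n, rfl⟩ := hv
      exact Submodule.subset_span ⟨y * z, mul_mem hy hz, n, rfl⟩
    | zero => simp
    | add v w _ _ hv hw => rw [map_add]; exact add_mem hv hw
    | smul c v _ hv => rw [map_smul]; exact W.smul_mem c hv
  have hp : W.topologicalClosure.starProjection ∈ M := by
    refine mem_vN fun y hy => ?_
    ext v
    refine (proj_comm W.topologicalClosure y (star y) (fun u w => ?_) (hinv y hy)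
      (hinv _ (star_mem hy)) v).symm
    rw [ContinuousLinearMap.star_eq_adjoint, ContinuousLinearMap.adjoint_inner_left]
  have h0 := hf (1 - W.topologicalClosure.starProjection) (sub_mem (one_mem _) hp) fun n => by
    have : ξ n ∈ W.topologicalClosure :=
      W.le_topologicalClosure (Submodule.subset_span ⟨1, one_mem _, n, rfl⟩)
    simp [Submodule.starProjection_eq_self_iff.2 this]
  rw [eq_top_iff]
  intro v _
  have : v = W.topologicalClosure.starProjection v := by
    have := congrArg (fun T : H →L[ℂ] H => T v) h0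
    simpa [sub_eq_zero] using this
  rw [this]
  exact Submodule.starProjection_apply_mem _ v

/-- bounded sequences that are Cauchy in the 2-norm converge strongly -/
theorem exists_strong_limit (M : VonNeumannAlgebra H) (Ξ : KK H)
    (hf : ∀ x ∈ M, (∀ n, x (Ξ n) = 0) → x = 0) (x : ℕ → H →L[ℂ] H) (R : ℝ)
    (hx : ∀ n, x n ∈ M) (hR : ∀ n, ‖x n‖ ≤ R) (hc : CauchySeq fun n => amp (x n) Ξ) :
    ∃ a : H →L[ℂ] H, ‖a‖ ≤ R ∧ (∀ v, Tendsto (fun n => x n v) atTop (𝓝 (a v))) ∧
      Tendsto (fun n => amp (x n) Ξ) atTop (𝓝 (amp a Ξ)) := by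
  have hR0 : 0 ≤ R := (norm_nonneg _).trans (hR 0)
  have h1 : ∀ v ∈ Submodule.span ℂ {v | ∃ y ∈ M.commutant, ∃ n, v = y (Ξ n)},
      CauchySeq fun n => x n v := by
    intro v hv
    induction hv using Submodule.span_induction with
    | mem v hv =>
      obtain ⟨y, hy, k, rfl⟩ := hv
      have e : (fun n => x n (y (Ξ k))) =
          (y.comp (lp.evalCLM ℂ (fun _ : ℕ => H) 2 k)) ∘ fun n => amp (x n) Ξ := by
        funext n
        exact (congrArg (fun T : H →L[ℂ] H => T (Ξ k)) (comm_of_mem (hx n) hy)).symm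
      rw [e]
      exact (ContinuousLinearMap.uniformContinuous _).comp_cauchySeq hc
    | zero => simpa using cauchySeq_const (0 : H)
    | add v w _ _ hv hw => simp only [map_add]; exact hv.add hw
    | smul c v _ hv =>
      simpa [Function.comp_def] using (uniformContinuous_const_smul c).comp_cauchySeq hv
  have h2 : ∀ v, CauchySeq fun n => x n v := by
    intro v
    have hv : v ∈ (Submodule.span ℂ
        {v | ∃ y ∈ M.commutant, ∃ n, v = y (Ξ n)}).topologicalClosure := by
      rw [dense_span M (fun n => Ξ n) hf]; trivial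
    rw [Metric.cauchySeq_iff]
    intro ε hε
    obtain ⟨w, hw, hd⟩ := Metric.mem_closure_iff.1 hv (ε / (3 * (R + 1))) (by positivity)
    obtain ⟨N, hN⟩ := Metric.cauchySeq_iff.1 (h1 w hw) (ε / 3) (by positivity)
    refine ⟨N, fun m hm n hn => ?_⟩
    have key : ∀ k, dist (x k v) (x k w) ≤ ε / 3 := by
      intro k
      rw [dist_eq_norm, ← map_sub]
      rw [dist_eq_norm, lt_div_iff₀ (by positivity)] at hd
      have := (x k).le_of_opNorm_le (hR k) (v - w)
      nlinarith [norm_nonneg (v - w)]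
    have h3 := hN m hm n hn
    have h4 := dist_triangle4 (x m v) (x m w) (x n w) (x n v)
    have h5 := key m
    have h6 := key n
    rw [dist_comm] at h6
    linarith
  choose f hf' using fun v => cauchySeq_tendsto_of_complete (h2 v)
  have hb : Bornology.IsBounded (Set.range x) :=
    isBounded_iff_forall_norm_le.2 ⟨R, by rintro _ ⟨n, rfl⟩; exact hR n⟩
  let a : H →L[ℂ] H :=
    ContinuousLinearMap.ofTendstoOfBoundedRange f x (tendsto_pi_nhds.2 hf') hb
  have ha : ∀ v, a v = f v := fun _ => rfl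
  refine ⟨a, ?_, fun v => by rw [ha]; exact hf' v, ?_⟩
  · refine a.opNorm_le_bound hR0 fun v => ?_
    rw [ha]
    exact le_of_tendsto' (hf' v).norm fun n => (x n).le_of_opNorm_le (hR n) v
  · obtain ⟨η, hη⟩ := cauchySeq_tendsto_of_complete hc
    have : η = amp a Ξ := by
      ext k
      have h3 := ((lp.evalCLM ℂ (fun _ : ℕ => H) 2 k).continuous.tendsto _).comp hη
      exact tendsto_nhds_unique h3 (hf' (Ξ k))
    rwa [← this]

instance separable_KK [TopologicalSpace.SeparableSpace H] :
    TopologicalSpace.SeparableSpace (KK H) := by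
  rw [← TopologicalSpace.isSeparable_univ_iff]
  have h1 : TopologicalSpace.IsSeparable
      (⋃ n : ℕ, Set.range (lp.singleContinuousLinearMap ℂ (fun _ : ℕ => H) 2 n)) :=
    .iUnion fun n => TopologicalSpace.isSeparable_range (map_continuous _)
  refine (h1.span (R := ℂ)).closure.mono fun f _ => ?_
  refine mem_closure_of_tendsto (lp.hasSum_single (by norm_num) f) (.of_forall fun s => ?_)
  exact Submodule.sum_mem _ fun n _ =>
    Submodule.subset_span (Set.mem_iUnion.2 ⟨n, f n, rfl⟩)

/-- the von Neumann algebra generated by a ⋆-subalgebra -/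
noncomputable def gen (B : StarSubalgebra ℂ (H →L[ℂ] H)) : VonNeumannAlgebra H :=
  VonNeumannAlgebra.commutant
    { toStarSubalgebra := StarSubalgebra.centralizer ℂ (B : Set (H →L[ℂ] H))
      centralizer_centralizer' := by simp }

theorem mem_gen {B : StarSubalgebra ℂ (H →L[ℂ] H)} {x : H →L[ℂ] H} :
    x ∈ gen B ↔ ∀ y, (∀ b ∈ B, b * y = y * b) → y * x = x * y := by
  rw [gen, VonNeumannAlgebra.mem_commutant_iff]
  refine forall_congr' fun y => imp_congr_left ?_
  change y ∈ StarSubalgebra.centralizer ℂ (B : Set (H →L[ℂ] H)) ↔ _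
  rw [StarSubalgebra.mem_centralizer_iff]
  exact ⟨fun h b hb => (h b hb).1, fun h b hb => ⟨h b hb, h _ (star_mem hb)⟩⟩

theorem le_gen {B : StarSubalgebra ℂ (H →L[ℂ] H)} {b : H →L[ℂ] H} (hb : b ∈ B) : b ∈ gen B :=
  mem_gen.2 fun _ hy => (hy b hb).symm

/-- the bicommutant theorem, σ-strong form -/
theorem bicomm (B : StarSubalgebra ℂ (H →L[ℂ] H)) {x : H →L[ℂ] H} (hx : x ∈ gen B) (Ξ : KK H)
    {ε : ℝ} (hε : 0 < ε) : ∃ b ∈ B, ‖amp (x - b) Ξ‖ < ε := by
  let W : Submodule ℂ (KK H) :=
    { carrier := {f | ∃ b ∈ B, f = amp b Ξ}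
      add_mem' := by
        rintro _ _ ⟨b, hb, rfl⟩ ⟨c, hc, rfl⟩
        exact ⟨b + c, add_mem hb hc, (amp_add _ _ _).symm⟩
      zero_mem' := ⟨0, zero_mem _, by ext n; rfl⟩
      smul_mem' := by
        rintro c _ ⟨b, hb, rfl⟩
        exact ⟨c • b, B.smul_mem hb c, (amp_smul _ _ _).symm⟩ }
  have hinv : ∀ b ∈ B, ∀ v ∈ W.topologicalClosure, amp b v ∈ W.topologicalClosure := by
    intro b hb
    refine closure_inv W _ ?_
    rintro _ ⟨c, hc, rfl⟩
    exact ⟨b * c, mul_mem hb hc, (amp_mul _ _ _).symm⟩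
  set p := W.topologicalClosure.starProjection with hp
  have hcomm : ∀ b ∈ B, ∀ v, p (amp b v) = amp b (p v) := fun b hb =>
    proj_comm W.topologicalClosure (amp b) (amp (star b)) (inner_amp b) (hinv b hb)
      (hinv _ (star_mem hb))
  have hent : ∀ m n : ℕ, ∀ v, p (lp.single 2 n (x v)) m = x (p (lp.single 2 n v) m) := by
    intro m n v
    have := mem_gen.1 hx ((lp.evalCLM ℂ (fun _ : ℕ => H) 2 m).comp
      (p.comp (lp.singleContinuousLinearMap ℂ (fun _ : ℕ => H) 2 n))) fun b hb => by
        ext w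
        change b (p (lp.single 2 n w) m) = p (lp.single 2 n (b w)) m
        rw [← amp_single, hcomm b hb, amp_apply]
    exact congrArg (fun T : H →L[ℂ] H => T v) this
  have hx' : p.comp (amp x) = (amp x).comp p := by
    refine lp.ext_continuousLinearMap (by norm_num) fun n => ?_
    ext v m
    change p (amp x (lp.single 2 n v)) m = x (p (lp.single 2 n v) m)
    rw [amp_single, hent]
  have hΞ : p Ξ = Ξ := Submodule.starProjection_eq_self_iff.2
    (W.le_topologicalClosure ⟨1, one_mem _, (amp_one _).symm⟩)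
  have hmem : amp x Ξ ∈ W.topologicalClosure := by
    have := congrArg (fun T : KK H →L[ℂ] KK H => T Ξ) hx'
    simp only [ContinuousLinearMap.comp_apply, hΞ] at this
    rw [← this]
    exact Submodule.starProjection_apply_mem _ _
  obtain ⟨_, ⟨b, hb, rfl⟩, hd⟩ := Metric.mem_closure_iff.1 hmem ε hε
  exact ⟨b, hb, by rwa [amp_sub, ← dist_eq_norm]⟩

end Crest.Agent.R95.Conc
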