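import Mathlib
import Crest.Prelude.Def_VNFactor

/-!
Row 95 (S0125, S0126: the generator problem for II₁ factors): interface.

Everything except the last step is done for an abstract C⋆-algebra `M` with a faithful tracial
state `τ` whose norm-bounded sets are complete for the trace 2-norm (`TF τ`).
-/

set_option autoImplicit false

open Finset Filter Topology
open scoped ComplexOrder Classical

namespace Crest.Agent.R95

universe u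

variable {M : Type u} [CStarAlgebra M] [PartialOrder M] [StarOrderedRing M]

/-- the trace 2-norm -/
noncomputable def n2 (τ : M →ₚ[ℂ] ℂ) (x : M) : ℝ := ‖τ.toPreGNS x‖

/-- real part of the trace -/
noncomputable def tr (τ : M →ₚ[ℂ] ℂ) (x : M) : ℝ := (τ x).re

/-- fourth power of the trace 4-norm -/
noncomputable def q4 (τ : M →ₚ[ℂ] ℂ) (z : M) : ℝ := tr τ (star z * z * (star z * z))

/-- faithful tracial state, bounded sets complete in 2-norm -/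
structure TF (τ : M →ₚ[ℂ] ℂ) : Prop where
  one : τ 1 = 1
  tracial : ∀ x y, τ (x * y) = τ (y * x)
  faithful : ∀ x, n2 τ x = 0 → x = 0
  complete : ∀ (x : ℕ → M) (R : ℝ), (∀ n, ‖x n‖ ≤ R) →
    (∀ ε > 0, ∃ N, ∀ m ≥ N, ∀ n ≥ N, n2 τ (x m - x n) < ε) →
    ∃ a, ‖a‖ ≤ R ∧ Tendsto (fun n => n2 τ (x n - a)) atTop (𝓝 0)

/-- separability in 2-norm -/
def Sep (τ : M →ₚ[ℂ] ℂ) : Prop := ∃ x : ℕ → M, ∀ y, ∀ ε > 0, ∃ n, n2 τ (y - x n) < ε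

/-- closed in 2-norm -/
def L2Closed (τ : M →ₚ[ℂ] ℂ) (N : StarSubalgebra ℂ M) : Prop :=
  ∀ x, (∀ ε > 0, ∃ a ∈ N, n2 τ (x - a) < ε) → x ∈ N

/-- dense in 2-norm -/
def L2Dense (τ : M →ₚ[ℂ] ℂ) (A : StarSubalgebra ℂ M) : Prop :=
  ∀ x, ∀ ε > 0, ∃ a ∈ A, n2 τ (x - a) < ε

/-- the elements of `N` that commute with `D` are scalars -/
def Irr (D N : StarSubalgebra ℂ M) : Prop :=
  ∀ y ∈ N, (∀ d ∈ D, y * d = d * y) → ∃ c : ℂ, y = c • (1 : M)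

/-- unital system of matrix units -/
structure MU {ι : Type} [Fintype ι] (e : ι → ι → M) : Prop where
  mul : ∀ i j k l, e i j * e k l = if j = k then e i l else 0
  star : ∀ i j, star (e i j) = e j i
  sum : ∑ i, e i i = 1

/-- partition of unity in `P` into projections of equal trace -/
structure Part (τ : M →ₚ[ℂ] ℂ) (P : StarSubalgebra ℂ M) {T : Type} [Fintype T] (r : T → M) :
    Prop where
  mem : ∀ t, r t ∈ P
  proj : ∀ t, IsStarProjection (r t)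
  orth : ∀ t t', t ≠ t' → r t * r t' = 0
  sum : ∑ t, r t = 1
  tr_eq : ∀ t t', tr τ (r t) = tr τ (r t')

/-! ## II₁ theory -/

/-- Dixmier averaging in 2-norm, dual form -/
def AvgStmt (τ : M →ₚ[ℂ] ℂ) : Prop :=
  ∀ D N : StarSubalgebra ℂ M, L2Closed τ D → L2Closed τ N → D ≤ N → Irr D N →
    ∀ (C : Type) [Fintype C] (A B : C → M), (∀ c, A c ∈ N) → ∀ η > 0,
      ∃ v ∈ D, v ∈ unitary M ∧
        ∑ c, tr τ (star v * A c * v * B c) ≤ ∑ c, (τ (A c) * τ (B c)).re + η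

/-- polar decomposition -/
def PolarStmt (τ : M →ₚ[ℂ] ℂ) : Prop :=
  ∀ P : StarSubalgebra ℂ M, L2Closed τ P → ∀ y ∈ P, ∃ v ∈ P,
    IsStarProjection (star v * v) ∧ v * CFC.abs y = y ∧ star v * y = CFC.abs y ∧
      (∀ z, y * z = 0 → v * z = 0) ∧ (∀ z, z * y = 0 → z * v = 0)

/-- comparison of projections -/
def CompStmt (τ : M →ₚ[ℂ] ℂ) : Prop :=
  ∀ P : StarSubalgebra ℂ M, L2Closed τ P → Irr P P → ∀ p ∈ P, ∀ q ∈ P,
    IsStarProjection p → IsStarProjection q → tr τ p ≤ tr τ q →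
      ∃ v ∈ P, star v * v = p ∧ q * v = v ∧ (tr τ p = tr τ q → v * star v = q)

/-- subprojections of any trace -/
def SubStmt (τ : M →ₚ[ℂ] ℂ) : Prop :=
  ∀ P : StarSubalgebra ℂ M, L2Closed τ P → Irr P P → ¬ FiniteDimensional ℂ P →
    ∀ p ∈ P, IsStarProjection p → ∀ t : ℝ, 0 ≤ t → t ≤ tr τ p →
      ∃ q ∈ P, IsStarProjection q ∧ p * q = q ∧ tr τ q = t

/-- matrix units refining a partition -/
def MUStmt (τ : M →ₚ[ℂ] ℂ) : Prop :=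
  ∀ P : StarSubalgebra ℂ M, L2Closed τ P → Irr P P → ¬ FiniteDimensional ℂ P →
    ∀ (T : Type) [Fintype T] (r : T → M), Part τ P r → ∀ K : ℕ, 1 ≤ K →
      ∃ e : T × Fin K → T × Fin K → M, MU e ∧ (∀ i j, e i j ∈ P) ∧
        ∀ t, ∑ i, e (t, i) (t, i) = r t

/-- a unitary can be made trivial on a small projection -/
def NearStmt (τ : M →ₚ[ℂ] ℂ) : Prop :=
  Irr (⊤ : StarSubalgebra ℂ M) ⊤ → ∀ u ∈ unitary M, ∀ p : M, IsStarProjection p →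
    ∃ w ∈ unitary M, p * w = p ∧ n2 τ (w - u) ≤ 4 * n2 τ p

/-! ## Space-filling words -/

/-- the product `y (pt 0) * ⋯ * y (pt (k-1))` -/
def word {J : Type} (y : J → M) (pt : ℕ → J) : ℕ → M
  | 0 => 1
  | k + 1 => word y pt k * y (pt k)

/-- relations `i : R` of length `K i` on the carriers `pt i 0, …`, any two meet at most once and
a relation meets few relations of smaller rank -/
structure Design {J R : Type} [Fintype R] (K : R → ℕ) (pt : R → ℕ → J) (rank : R → ℕ)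
    (δ : ℝ) : Prop where
  pos : ∀ i, 1 ≤ K i
  inj : ∀ i, ∀ a < K i, ∀ b < K i, pt i a = pt i b → a = b
  meet : ∀ i i', i ≠ i' → ∀ a < K i, ∀ a' < K i, ∀ b < K i', ∀ b' < K i',
    pt i a = pt i' b → pt i a' = pt i' b' → a = a'
  few : ∀ i, (#{i' | i' ≠ i ∧ rank i' ≤ rank i ∧ ∃ a < K i, ∃ b < K i', pt i a = pt i' b} : ℝ)
    ≤ δ * (K i : ℝ) ^ 2

/-- an approximate `K`-th root of a phase times `U` that is on average almost `1` -/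
def RootStmt (τ : M →ₚ[ℂ] ℂ) : Prop :=
  ∀ N : StarSubalgebra ℂ M, IsClosed (N : Set M) → ∀ U ∈ N, U ∈ unitary M → ∀ K : ℕ, 1 ≤ K →
    ∀ η > 0, ∀ (A : Type) (s : Finset A) (Z : A → M), (∀ a, ‖Z a‖ ≤ 1) →
      ∃ (c : ℂ) (g : M), ‖c‖ = 1 ∧ g ∈ N ∧ g ∈ unitary M ∧
        (1 - tr τ (g ^ K * star (c • U))) + ∑ a ∈ s, (tr τ (Z a) - tr τ (g * Z a))
          ≤ η + #s * (5 / (K : ℝ) ^ 2)

def KeyStmt (τ : M →ₚ[ℂ] ℂ) : Prop :=
  ∀ N : StarSubalgebra ℂ M, IsClosed (N : Set M) →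
    ∀ (J R : Type) [Fintype R] (K : R → ℕ) (pt : R → ℕ → J) (rank : R → ℕ) (δ η : ℝ), 0 < η →
      Design K pt rank δ → ∀ t : R → M, (∀ i, t i ∈ N ∧ t i ∈ unitary M) →
      ∃ (y : J → M) (c : R → ℂ), (∀ j, y j ∈ N ∧ y j ∈ unitary M) ∧
        ∑ i, n2 τ (t i - c i • word y (pt i) (K i)) ^ 2 ≤ (η + 10 * δ) * Fintype.card R

def DesStmt : Prop :=
  ∀ (δ : ℝ) (ρ : ℕ), 0 < δ → ∃ n₀ : ℕ, ∀ (J R : Type) [Fintype J] [Fintype R],
    n₀ ≤ Fintype.card J → Fintype.card R ≤ ρ * Fintype.card J →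
      ∃ (K : R → ℕ) (pt : R → ℕ → J) (rank : R → ℕ), Design K pt rank δ

/-- `n` carriers encode `ρ n` unitaries -/
def CarrStmt (τ : M →ₚ[ℂ] ℂ) : Prop :=
  ∀ (η : ℝ) (ρ : ℕ), 0 < η → ∃ n₀ : ℕ, ∀ N : StarSubalgebra ℂ M, IsClosed (N : Set M) →
    ∀ (J R : Type) [Fintype J] [Fintype R],
      n₀ ≤ Fintype.card J → Fintype.card R ≤ ρ * Fintype.card J →
      ∀ t : R → M, (∀ i, t i ∈ N ∧ t i ∈ unitary M) →
      ∃ (y : J → M) (s : R → M), (∀ j, y j ∈ N ∧ y j ∈ unitary M) ∧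
        (∀ A : StarSubalgebra ℂ M, (∀ j, y j ∈ A) → ∀ i, s i ∈ A) ∧
        ∑ i, n2 τ (t i - s i) ^ 2 ≤ η * Fintype.card R

/-! ## Flat matrix entries -/

def FlatStmt (τ : M →ₚ[ℂ] ℂ) : Prop :=
  ∀ D N : StarSubalgebra ℂ M, L2Closed τ D → L2Closed τ N → D ≤ N → Irr D N →
    ∀ (K : ℕ) (C : Type) [Fintype C] (y : C → Fin K → M) (Φ : Fin K → Fin K → ℂ),
      (∀ c i, y c i ∈ N) → (∀ c, ‖∑ i, y c i * star (y c i)‖ ≤ 1) → (∀ i b, ‖Φ i b‖ = 1) →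
      (∀ i j, ∑ b, Φ i b * star (Φ j b) = if i = j then (K : ℂ) else 0) →
      ∃ v : Fin K → M, (∀ i, v i ∈ D ∧ v i ∈ unitary M) ∧
        ∑ c, ∑ b, q4 τ (∑ i, Φ i b • (y c i * v i)) ≤ 6 * K * Fintype.card C

def TruncStmt (τ : M →ₚ[ℂ] ℂ) : Prop :=
  ∀ N : StarSubalgebra ℂ M, IsClosed (N : Set M) → ∀ z ∈ N, ∀ Λ : ℝ, 0 < Λ →
    ∃ w₁ ∈ N, ∃ w₂ ∈ N, w₁ ∈ unitary M ∧ w₂ ∈ unitary M ∧
      n2 τ (z - ((Λ / 2 : ℂ) • (w₁ + star w₁) + (Complex.I * (Λ / 2)) • (w₂ + star w₂))) ^ 2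
        ≤ 2 * q4 τ z / Λ ^ 2

/-- `x * V` is encoded by matrix units and an element of a small corner -/
def MainStmt (τ : M →ₚ[ℂ] ℂ) : Prop :=
  ∀ P : StarSubalgebra ℂ M, L2Closed τ P → Irr P ⊤ → ¬ FiniteDimensional ℂ P →
    ∀ (T : Type) [Fintype T] (r : T → M), Part τ P r → ∀ x : M, ‖x‖ ≤ 1 → ∀ ε > 0,
      ∃ (K : ℕ) (e : T × Fin K → T × Fin K → M) (S : Finset (T × Fin K)) (σ : T × Fin K)
        (V B : M), MU e ∧ (∀ i j, e i j ∈ P) ∧ (∀ t, ∑ i, e (t, i) (t, i) = r t) ∧ σ ∉ S ∧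
        (#S + 1 : ℝ) ≤ ε * Fintype.card (T × Fin K) ∧ V ∈ P ∧ V ∈ unitary M ∧
        (∀ t, V * r t = r t * V) ∧ IsSelfAdjoint B ∧ ‖B‖ ≤ 1 ∧ (∑ s ∈ S, e s s) * B = B ∧
        ∀ A : StarSubalgebra ℂ M, (∀ i j, e i j ∈ A) → B ∈ A → ∃ a ∈ A, n2 τ (x * V - a) < ε

/-! ## The abstract results -/

/-- ⋆-polynomials in `u` are 2-norm continuous on bounded sets -/
def ContStmt (τ : M →ₚ[ℂ] ℂ) : Prop :=
  ∀ (D : Set M) (u : M) (R : ℝ), ∀ a ∈ StarAlgebra.adjoin ℂ (insert u D), ∀ η > 0, ∃ δ > 0,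
    ∀ v : M, ‖v‖ ≤ R → n2 τ (v - u) < δ →
      ∃ a' ∈ StarAlgebra.adjoin ℂ (insert v D), n2 τ (a' - a) < η

def AStmt (τ : M →ₚ[ℂ] ℂ) : Prop :=
  ∀ P : StarSubalgebra ℂ M, L2Closed τ P → Irr P ⊤ → ¬ FiniteDimensional ℂ P →
    ∀ u ∈ unitary M, ∀ ε > 0, ∃ v ∈ unitary M, n2 τ (v - u) < ε ∧
      L2Dense τ (StarAlgebra.adjoin ℂ (insert v (P : Set M)))

def BStmt (τ : M →ₚ[ℂ] ℂ) : Prop :=
  Irr (⊤ : StarSubalgebra ℂ M) ⊤ → ¬ FiniteDimensional ℂ (⊤ : StarSubalgebra ℂ M) →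
    ∃ w : M, ∀ N : StarSubalgebra ℂ M, L2Closed τ N → w ∈ N → N = ⊤

/-- everything the concrete step needs, in every algebra of the universe -/
def AllStmt : Prop :=
  ∀ (M : Type u) [CStarAlgebra M] [PartialOrder M] [StarOrderedRing M] (τ : M →ₚ[ℂ] ℂ),
    TF τ → Sep τ → ContStmt τ ∧ AStmt τ ∧ BStmt τ

end Crest.Agent.R95
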