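import Crest.Agent.R95.Basic

/-! Row 95: matrix entries with respect to matrix units. -/

set_option autoImplicit false
set_option linter.unusedSectionVars false

open Finset Filter Topology
open scoped ComplexOrder Classical

namespace Crest.Agent.R95

universe u

variable {M : Type u} [CStarAlgebra M] [PartialOrder M] [StarOrderedRing M] {τ : M →ₚ[ℂ] ℂ}

theorem TF.mem_unitary_of_mul_star (h : TF τ) {v : M} (hv : v * star v = 1) : v ∈ unitary M := by
  refine Unitary.mem_iff.2 ⟨?_, hv⟩
  symm
  refine h.eq_of_n2 (pow_eq_zero_iff two_ne_zero |>.1 ?_)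
  have : star (1 - star v * v) * (1 - star v * v) = 1 - star v * v := by
    have e : star v * v * (star v * v) = star v * v := by
      rw [mul_assoc, ← mul_assoc v, hv, one_mul]
    simp only [star_sub, star_one, star_mul, star_star, sub_mul, mul_sub, one_mul, mul_one, e]
    abel
  rw [n2_sq, this, tr_sub, h.tr_comm, hv, sub_self]

namespace Ent

variable {ι : Type} [Fintype ι] (e : ι → ι → M)

/-- the relative commutant of the matrix units -/
noncomputable def comm : StarSubalgebra ℂ M :=
  StarSubalgebra.centralizer ℂ (Set.range fun p : ι × ι => e p.1 p.2)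

/-- matrix entry -/
noncomputable def ent (x : M) (i j : ι) : M := ∑ s, e s i * x * e j s

/-- assembling a matrix -/
noncomputable def asm (z : ι → ι → M) : M := ∑ i, ∑ j, z i j * e i j

variable {e}

theorem mem_comm (he : MU e) {z : M} : z ∈ comm e ↔ ∀ i j, e i j * z = z * e i j := by
  rw [comm, StarSubalgebra.mem_centralizer_iff]
  constructor
  · intro h i j
    exact (h _ ⟨(i, j), rfl⟩).1
  · rintro h _ ⟨⟨i, j⟩, rfl⟩
    exact ⟨h i j, by rw [he.star]; exact h j i⟩

theorem mul_ent (he : MU e) (x : M) (i j k l : ι) : e k l * ent e x i j = e k i * x * e j l := by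
  rw [ent, Finset.mul_sum, Finset.sum_eq_single l]
  · rw [← mul_assoc, ← mul_assoc, he.mul, if_pos rfl]
  · intro s _ hs
    rw [← mul_assoc, ← mul_assoc, he.mul, if_neg (Ne.symm hs), zero_mul, zero_mul]
  · simp

theorem ent_mul (he : MU e) (x : M) (i j k l : ι) : ent e x i j * e k l = e k i * x * e j l := by
  rw [ent, Finset.sum_mul, Finset.sum_eq_single k]
  · rw [mul_assoc, he.mul, if_pos rfl]
  · intro s _ hs
    rw [mul_assoc, he.mul, if_neg hs, mul_zero]
  · simp

theorem ent_mem_comm (he : MU e) (x : M) (i j : ι) : ent e x i j ∈ comm e :=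
  (mem_comm he).2 fun k l => by rw [mul_ent he, ent_mul he]

theorem ent_mem {A : StarSubalgebra ℂ M} (hA : ∀ i j, e i j ∈ A) {x : M} (hx : x ∈ A) (i j : ι) :
    ent e x i j ∈ A :=
  sum_mem fun _ _ => mul_mem (mul_mem (hA _ _) hx) (hA _ _)

theorem asm_mem {A : StarSubalgebra ℂ M} (hA : ∀ i j, e i j ∈ A) {z : ι → ι → M}
    (hz : ∀ i j, z i j ∈ A) : asm e z ∈ A :=
  sum_mem fun _ _ => sum_mem fun _ _ => mul_mem (hz _ _) (hA _ _)

theorem asm_ent (he : MU e) (x : M) : asm e (ent e x) = x := by
  simp only [asm, ent_mul he]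
  simp only [← Finset.mul_sum, ← Finset.sum_mul, he.sum, one_mul, mul_one]

theorem asm_sub (z w : ι → ι → M) : asm e z - asm e w = asm e fun i j => z i j - w i j := by
  simp only [asm, sub_mul, Finset.sum_sub_distrib]

theorem asm_mul (he : MU e) (z : ι → ι → M) {w : ι → ι → M} (hw : ∀ i j, w i j ∈ comm e) :
    asm e z * asm e w = asm e fun i k => ∑ j, z i j * w j k := by
  have key : ∀ i j, e i j * asm e w = ∑ k, w j k * e i k := by
    intro i j
    rw [asm, Finset.mul_sum, Finset.sum_eq_single j, Finset.mul_sum]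
    · refine Finset.sum_congr rfl fun k _ => ?_
      rw [← mul_assoc, (mem_comm he).1 (hw j k), mul_assoc, he.mul, if_pos rfl]
    · intro j' _ hj
      rw [Finset.mul_sum]
      refine Finset.sum_eq_zero fun k _ => ?_
      rw [← mul_assoc, (mem_comm he).1 (hw j' k), mul_assoc, he.mul, if_neg (Ne.symm hj), mul_zero]
    · simp
  calc asm e z * asm e w = ∑ i, ∑ j, z i j * (e i j * asm e w) := by
        simp only [asm, Finset.sum_mul, mul_assoc]
    _ = _ := by
        simp only [key]
        simp only [asm, Finset.mul_sum, Finset.sum_mul, mul_assoc]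
        exact Finset.sum_congr rfl fun i _ => Finset.sum_comm

theorem star_asm (he : MU e) {z : ι → ι → M} (hz : ∀ i j, z i j ∈ comm e) :
    star (asm e z) = asm e fun i j => star (z j i) := by
  simp only [asm, star_sum, star_mul, he.star]
  rw [Finset.sum_comm]
  exact Finset.sum_congr rfl fun i _ => Finset.sum_congr rfl fun j _ =>
    (mem_comm he).1 (star_mem (hz j i)) i j

theorem asm_diag [DecidableEq ι] (d : ι → M) :
    (asm e fun i j => if i = j then d i else 0) = ∑ i, d i * e i i := by
  simp [asm]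

theorem ent_add (x y : M) (i j : ι) : ent e (x + y) i j = ent e x i j + ent e y i j := by
  simp only [ent, mul_add, add_mul, Finset.sum_add_distrib]

theorem ent_smul (c : ℂ) (x : M) (i j : ι) : ent e (c • x) i j = c • ent e x i j := by
  simp only [ent, mul_smul_comm, smul_mul_assoc, Finset.smul_sum]

theorem ent_sum {α : Type*} (s : Finset α) (f : α → M) (i j : ι) :
    ent e (∑ a ∈ s, f a) i j = ∑ a ∈ s, ent e (f a) i j := by
  simp only [ent, Finset.mul_sum, Finset.sum_mul]
  exact Finset.sum_comm

theorem ent_single (he : MU e) {z : M} (hz : z ∈ comm e) (i j k l : ι) :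
    ent e (z * e k l) i j = if i = k ∧ l = j then z else 0 := by
  have : ∀ s, e s i * (z * e k l) * e j s = z * (if i = k ∧ l = j then e s s else 0) := by
    intro s
    rw [← mul_assoc, (mem_comm he).1 hz, mul_assoc z, mul_assoc z, he.mul]
    by_cases h1 : i = k
    · rw [if_pos h1, he.mul]
      by_cases h2 : l = j <;> simp [h1, h2]
    · simp [h1]
  simp only [ent, this, ← Finset.mul_sum]
  split_ifs
  · rw [he.sum, mul_one]
  · simp

theorem tau_mul_e (h : TF τ) (he : MU e) {z : M} (hz : z ∈ comm e) (i j : ι) :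
    (Fintype.card ι : ℂ) * τ (z * e i j) = if i = j then τ z else 0 := by
  split_ifs with hij
  · subst hij
    have key : ∀ k, τ (z * e k k) = τ (z * e i i) := by
      intro k
      have h1 : z * e k k = z * e k i * e i k := by rw [mul_assoc, he.mul, if_pos rfl]
      rw [h1, h.tracial, ← mul_assoc, (mem_comm he).1 hz, mul_assoc, he.mul, if_pos rfl]
    have : τ z = ∑ k, τ (z * e k k) := by
      rw [← map_sum, ← Finset.mul_sum, he.sum, mul_one]
    rw [this]
    simp [key]
  · have h1 : z * e i j = z * e i i * e i j := by rw [mul_assoc, he.mul, if_pos rfl]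
    rw [h1, h.tracial, ← mul_assoc, (mem_comm he).1 hz, mul_assoc, he.mul, if_neg (Ne.symm hij),
      mul_zero, map_zero, mul_zero]

theorem tau_asm (h : TF τ) (he : MU e) {z : ι → ι → M} (hz : ∀ i j, z i j ∈ comm e) :
    (Fintype.card ι : ℂ) * τ (asm e z) = ∑ i, τ (z i i) := by
  simp only [asm, map_sum, Finset.mul_sum, fun i j => tau_mul_e h he (hz i j) i j]
  simp

theorem n2_asm (h : TF τ) (he : MU e) {z : ι → ι → M} (hz : ∀ i j, z i j ∈ comm e) :
    (Fintype.card ι : ℝ) * n2 τ (asm e z) ^ 2 = ∑ i, ∑ j, n2 τ (z i j) ^ 2 := by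
  have h1 := tau_asm h he (z := fun i k => ∑ j, star (z j i) * z j k)
    (fun i k => sum_mem fun j _ => mul_mem (star_mem (hz j i)) (hz j k))
  rw [← asm_mul he _ hz, ← star_asm he hz] at h1
  have h2 := congrArg Complex.re h1
  rw [Finset.sum_comm]
  simp only [n2_sq, tr]
  simpa [map_sum] using h2

theorem tr_e (h : TF τ) (he : MU e) (i : ι) : (Fintype.card ι : ℝ) * tr τ (e i i) = 1 := by
  have := congrArg Complex.re (tau_mul_e h he (one_mem (comm e)) i i)
  simpa [h.one, tr] using this

theorem proj_e (he : MU e) (i : ι) : IsStarProjection (e i i) :=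
  ⟨by rw [IsIdempotentElem, he.mul, if_pos rfl], he.star i i⟩

theorem norm_e_le (he : MU e) (i j : ι) : ‖e i j‖ ≤ 1 := by
  have h1 : ‖e i j‖ * ‖e i j‖ = ‖e j j‖ := by
    rw [← CStarRing.norm_star_mul_self, he.star, he.mul, if_pos rfl]
  have h2 : ‖e j j‖ ≤ 1 := (proj_e he j).norm_le
  nlinarith [norm_nonneg (e i j)]

theorem ent_mul_star (he : MU e) (x : M) (c j : ι) :
    ent e x c j * star (ent e x c j) = ent e (x * e j j * star x) c c := by
  have : star (ent e x c j) = ∑ s, e s j * (star x * e c s) := by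
    simp only [ent, star_sum, star_mul, he.star]
  rw [this, Finset.mul_sum]
  refine Finset.sum_congr rfl fun s _ => ?_
  rw [← mul_assoc, ent_mul he]
  simp only [mul_assoc]

theorem norm_ent_diag_le (he : MU e) {y : M} (h0 : 0 ≤ y) (h1 : y ≤ 1) (c : ι) :
    ‖ent e y c c‖ ≤ 1 := by
  have e1 : ∀ s, e s c * y * e c s = star (e c s) * y * e c s := fun s => by rw [he.star]
  have h2 : 0 ≤ ent e y c c := by
    simp only [ent, e1]
    exact Finset.sum_nonneg fun s _ => star_left_conjugate_nonneg h0 _
  rw [CStarAlgebra.norm_le_one_iff_of_nonneg _ h2]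
  calc ent e y c c ≤ ∑ s, star (e c s) * 1 * e c s := by
        simp only [ent, e1]
        exact Finset.sum_le_sum fun s _ => star_left_conjugate_le_conjugate h1 _
    _ = 1 := by simp only [he.star, mul_one, he.mul, if_true, he.sum]

theorem irr (he : MU e) {P : StarSubalgebra ℂ M} (hP : ∀ i j, e i j ∈ P) (hirr : Irr P ⊤) :
    Irr (P ⊓ comm e) (comm e) := by
  intro y hy hc
  refine hirr y trivial fun p hp => ?_
  rw [← asm_ent he p, asm, Finset.mul_sum, Finset.sum_mul]
  refine Finset.sum_congr rfl fun i _ => ?_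
  rw [Finset.mul_sum, Finset.sum_mul]
  refine Finset.sum_congr rfl fun j _ => ?_
  rw [← mul_assoc, hc _ ⟨ent_mem hP hp i j, ent_mem_comm he p i j⟩, mul_assoc, mul_assoc,
    (mem_comm he).1 hy]

end Ent

end Crest.Agent.R95
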